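import Mathlib

/-!
# Stack programs

Programs on finitely many stacks of bits, with a big step semantics counting steps.
-/

namespace Vale.Agent.P310x

open Function

/-- Stack programs. -/
inductive Cmd : Type
  | nop : Cmd
  | push (r : ℕ) (b : Bool) : Cmd
  | pop (r : ℕ) (c0 c1 cE : Cmd) : Cmd
  | seq (a b : Cmd) : Cmd
  | loop (r : ℕ) (c0 c1 : Cmd) : Cmd

/-- The contents of all stacks; the head of a list is the top. -/
abbrev Stk : Type := ℕ → List Bool

/-- Big step semantics with the number of steps. -/
inductive Run : Cmd → Stk → Stk → ℕ → Prop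
  | nop (s : Stk) : Run .nop s s 1
  | push (r : ℕ) (b : Bool) (s : Stk) : Run (.push r b) s (update s r (b :: s r)) 1
  | seq {a b : Cmd} {s s1 s2 : Stk} {t1 t2 : ℕ} :
      Run a s s1 t1 → Run b s1 s2 t2 → Run (.seq a b) s s2 (t1 + t2)
  | pop0 {r : ℕ} {c0 c1 cE : Cmd} {s s' : Stk} {l : List Bool} {t : ℕ} :
      s r = false :: l → Run c0 (update s r l) s' t → Run (.pop r c0 c1 cE) s s' (t + 2)
  | pop1 {r : ℕ} {c0 c1 cE : Cmd} {s s' : Stk} {l : List Bool} {t : ℕ} :
      s r = true :: l → Run c1 (update s r l) s' t → Run (.pop r c0 c1 cE) s s' (t + 2)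
  | popE {r : ℕ} {c0 c1 cE : Cmd} {s s' : Stk} {t : ℕ} :
      s r = [] → Run cE s s' t → Run (.pop r c0 c1 cE) s s' (t + 2)
  | loopE {r : ℕ} {c0 c1 : Cmd} {s : Stk} : s r = [] → Run (.loop r c0 c1) s s 2
  | loop0 {r : ℕ} {c0 c1 : Cmd} {s s1 s2 : Stk} {l : List Bool} {t1 t2 : ℕ} :
      s r = false :: l → Run c0 (update s r l) s1 t1 → Run (.loop r c0 c1) s1 s2 t2 →
        Run (.loop r c0 c1) s s2 (t1 + t2 + 2)
  | loop1 {r : ℕ} {c0 c1 : Cmd} {s s1 s2 : Stk} {l : List Bool} {t1 t2 : ℕ} :
      s r = true :: l → Run c1 (update s r l) s1 t1 → Run (.loop r c0 c1) s1 s2 t2 →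
        Run (.loop r c0 c1) s s2 (t1 + t2 + 2)

/-- A run with at most `B` steps. -/
def Runs (c : Cmd) (s s' : Stk) (B : ℕ) : Prop := ∃ t, t ≤ B ∧ Run c s s' t

namespace Runs

variable {a b c c0 c1 cE : Cmd} {s s1 s2 s' : Stk} {B B1 B2 : ℕ} {r : ℕ} {l : List Bool}

theorem mono (h : Runs c s s' B) (hB : B ≤ B1) : Runs c s s' B1 := by
  obtain ⟨t, h1, h2⟩ := h
  exact ⟨t, h1.trans hB, h2⟩

theorem cast (h : Runs c s s' B) (e : s' = s1) (hB : B ≤ B1) : Runs c s s1 B1 := by
  subst e
  exact h.mono hB

theorem cast' (h : Runs c s s' B) (e0 : s = s2) (e : s' = s1) (hB : B ≤ B1) : Runs c s2 s1 B1 := by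
  subst e0
  subst e
  exact h.mono hB

theorem nop (s : Stk) : Runs .nop s s 1 := ⟨1, le_rfl, .nop s⟩

theorem push (r : ℕ) (b : Bool) (s : Stk) : Runs (.push r b) s (update s r (b :: s r)) 1 :=
  ⟨1, le_rfl, .push r b s⟩

theorem seq (h1 : Runs a s s1 B1) (h2 : Runs b s1 s2 B2) : Runs (.seq a b) s s2 (B1 + B2) := by
  obtain ⟨t1, h1, r1⟩ := h1
  obtain ⟨t2, h2, r2⟩ := h2
  exact ⟨t1 + t2, by omega, .seq r1 r2⟩

theorem pop0 (e : s r = false :: l) (h : Runs c0 (update s r l) s' B) :
    Runs (.pop r c0 c1 cE) s s' (B + 2) := by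
  obtain ⟨t, h1, r1⟩ := h
  exact ⟨t + 2, by omega, .pop0 e r1⟩

theorem pop1 (e : s r = true :: l) (h : Runs c1 (update s r l) s' B) :
    Runs (.pop r c0 c1 cE) s s' (B + 2) := by
  obtain ⟨t, h1, r1⟩ := h
  exact ⟨t + 2, by omega, .pop1 e r1⟩

theorem popE (e : s r = []) (h : Runs cE s s' B) :
    Runs (.pop r c0 c1 cE) s s' (B + 2) := by
  obtain ⟨t, h1, r1⟩ := h
  exact ⟨t + 2, by omega, .popE e r1⟩

theorem loopE (e : s r = []) : Runs (.loop r c0 c1) s s 2 := ⟨2, le_rfl, .loopE e⟩

theorem loop0 (e : s r = false :: l) (h1 : Runs c0 (update s r l) s1 B1)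
    (h2 : Runs (.loop r c0 c1) s1 s2 B2) : Runs (.loop r c0 c1) s s2 (B1 + B2 + 2) := by
  obtain ⟨t1, h1, r1⟩ := h1
  obtain ⟨t2, h2, r2⟩ := h2
  exact ⟨t1 + t2 + 2, by omega, .loop0 e r1 r2⟩

theorem loop1 (e : s r = true :: l) (h1 : Runs c1 (update s r l) s1 B1)
    (h2 : Runs (.loop r c0 c1) s1 s2 B2) : Runs (.loop r c0 c1) s s2 (B1 + B2 + 2) := by
  obtain ⟨t1, h1, r1⟩ := h1
  obtain ⟨t2, h2, r2⟩ := h2
  exact ⟨t1 + t2 + 2, by omega, .loop1 e r1 r2⟩

end Runs

/-- Move a whole stack onto another one, which reverses its order. -/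
def mv (r s : ℕ) : Cmd := .loop r (.push s false) (.push s true)

/-- Empty a stack. -/
def drain (r : ℕ) : Cmd := .loop r .nop .nop

/-- Copy a whole stack onto another one, keeping the order; `t` is a free stack. -/
def copy (r s t : ℕ) : Cmd :=
  .seq (mv r t) (.loop t (.seq (.push r false) (.push s false)) (.seq (.push r true) (.push s true)))

theorem upd_same (s : Stk) {r : ℕ} {l : List Bool} (h : s r = l) : update s r l = s := by
  subst h
  simp

theorem mv_runs {r s : ℕ} (h : r ≠ s) (σ : Stk) :
    Runs (mv r s) σ (update (update σ r []) s ((σ r).reverse ++ σ s)) (3 * (σ r).length + 2) := by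
  generalize e : σ r = l
  induction l generalizing σ with
  | nil =>
    have e1 : update (update σ r []) s ([].reverse ++ σ s) = σ := by
      funext x
      simp only [Function.update_apply]
      split_ifs <;> simp_all
    rw [e1]
    exact Runs.loopE e
  | cons b l ih =>
    have h2 := ih (update (update σ r l) s (b :: σ s)) (by simp [Function.update_of_ne h])
    have e2 : update (update (update (update σ r l) s (b :: σ s)) r []) s
        (l.reverse ++ (update (update σ r l) s (b :: σ s)) s) =
        update (update σ r []) s ((b :: l).reverse ++ σ s) := by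
      funext x
      simp only [Function.update_apply]
      split_ifs <;> simp_all
    rw [e2] at h2
    have hp : ∀ b', Runs (.push s b') (update σ r l) (update (update σ r l) s (b' :: σ s)) 1 := by
      intro b'
      have := Runs.push s b' (update σ r l)
      rwa [Function.update_of_ne h.symm] at this
    cases b
    · refine (Runs.loop0 e (c1 := .push s true) (hp false) h2).mono ?_
      simp
      omega
    · refine (Runs.loop1 e (c0 := .push s false) (hp true) h2).mono ?_
      simp
      omega

theorem drain_runs (r : ℕ) (σ : Stk) :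
    Runs (drain r) σ (update σ r []) (3 * (σ r).length + 2) := by
  generalize e : σ r = l
  induction l generalizing σ with
  | nil =>
    rw [upd_same σ e]
    exact Runs.loopE e
  | cons b l ih =>
    have h2 := ih (update σ r l) (by simp)
    have e2 : update (update σ r l) r [] = update σ r [] := by simp
    rw [e2] at h2
    cases b
    · refine (Runs.loop0 e (Runs.nop _) h2).mono ?_
      simp
      omega
    · refine (Runs.loop1 e (Runs.nop _) h2).mono ?_
      simp
      omega

theorem copy_back {r s t : ℕ} (h1 : r ≠ s) (h2 : r ≠ t) (h3 : s ≠ t) (σ : Stk) :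
    Runs (.loop t (.seq (.push r false) (.push s false)) (.seq (.push r true) (.push s true))) σ
      (update (update (update σ t []) r ((σ t).reverse ++ σ r)) s ((σ t).reverse ++ σ s))
      (4 * (σ t).length + 2) := by
  generalize e : σ t = l
  induction l generalizing σ with
  | nil =>
    have e1 : update (update (update σ t []) r ([].reverse ++ σ r)) s ([].reverse ++ σ s) = σ := by
      funext x
      simp only [Function.update_apply]
      split_ifs <;> simp_all
    rw [e1]
    exact Runs.loopE e
  | cons b l ih =>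
    have h4 := ih (update (update (update σ t l) r (b :: σ r)) s (b :: σ s))
      (by simp [Function.update_of_ne h2.symm, Function.update_of_ne h3.symm])
    have e2 : update (update (update (update (update (update σ t l) r (b :: σ r)) s (b :: σ s)) t [])
        r (l.reverse ++ (update (update (update σ t l) r (b :: σ r)) s (b :: σ s)) r)) s
        (l.reverse ++ (update (update (update σ t l) r (b :: σ r)) s (b :: σ s)) s) =
        update (update (update σ t []) r ((b :: l).reverse ++ σ r)) s ((b :: l).reverse ++ σ s) := by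
      funext x
      simp only [Function.update_apply]
      split_ifs <;> simp_all
    rw [e2] at h4
    cases b
    · refine (Runs.loop0 e (Runs.cast (Runs.seq (Runs.push r false _) (Runs.push s false _))
        ?_ le_rfl) h4).mono ?_
      · funext x
        simp only [Function.update_apply]
        split_ifs <;> simp_all
      · simp
        omega
    · refine (Runs.loop1 e (Runs.cast (Runs.seq (Runs.push r true _) (Runs.push s true _))
        ?_ le_rfl) h4).mono ?_
      · funext x
        simp only [Function.update_apply]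
        split_ifs <;> simp_all
      · simp
        omega

theorem copy_runs {r s t : ℕ} (h1 : r ≠ s) (h2 : r ≠ t) (h3 : s ≠ t) (σ : Stk) (ht : σ t = []) :
    Runs (copy r s t) σ (update σ s (σ r ++ σ s)) (7 * (σ r).length + 4) := by
  refine (Runs.seq (mv_runs h2 σ) (copy_back h1 h2 h3 _)).cast ?_ ?_
  · funext x
    simp only [Function.update_apply]
    split_ifs <;> simp_all
  · simp [ht]
    omega

end Vale.Agent.P310x
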