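import Vale.Agent.P310x.Lang

/-!
# Compilation of the list language to stack programs
-/

namespace Vale.Agent.P310x

open Function Val

/-- Compare two stacks; the flag `f` is emptied if a difference is seen. -/
def cmpLoop (a b f : ℕ) : Cmd :=
  .loop a (.pop b .nop (drain f) (drain f)) (.pop b (drain f) .nop (drain f))

/-- The part of the second list that the comparison leaves. -/
def cmpRest : List Bool → List Bool → List Bool
  | [], l => l
  | _ :: _, [] => []
  | _ :: l, _ :: m => cmpRest l m

/-- The comparison finds no difference. -/
def cmpOk : List Bool → List Bool → Prop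
  | [], _ => True
  | _ :: _, [] => False
  | x :: l, y :: m => x = y ∧ cmpOk l m

/-- The stack program of a term: input on `i`, push the output on `d`, free stacks from `n` on. -/
def comp : E → ℕ → ℕ → ℕ → Cmd
  | .id, i, d, n => copy i d n
  | .nil, _, d, _ => .push d false
  | .fst, i, d, n => .seq (copy i n (n + 1)) (.pop n (.push d false)
      (.seq (scan n (n + 1) (n + 2)) (.seq (drain n) (mv (n + 1) d))) .nop)
  | .snd, i, d, n => .seq (copy i n (n + 1)) (.pop n (.push d false)
      (.seq (scan n (n + 1) (n + 2)) (.seq (drain (n + 1)) (.seq (mv n (n + 1)) (mv (n + 1) d)))) .nop)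
  | .eq, i, d, n => .seq (copy i n (n + 1)) (.pop n
      (.seq (.push d false) (.seq (.push d false) (.push d true)))
      (.seq (scan n (n + 1) (n + 2)) (.seq (mv (n + 1) (n + 3)) (.seq (.push (n + 2) true)
        (.seq (cmpLoop (n + 3) n (n + 2))
          (.seq (.pop n (.seq (drain n) (drain (n + 2))) (.seq (drain n) (drain (n + 2))) .nop)
            (.pop (n + 2) .nop (.seq (.push d false) (.seq (.push d false) (.push d true)))
              (.push d false)))))))
      .nop)
  | .flat, i, d, n => .seq (copy i n (n + 1)) (.seq
      (forL n (n + 2) (forL n (n + 3) (.seq (.push (n + 1) true) (scan n (n + 1) (n + 4)))))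
      (finish (n + 1) d))
  | .zip, i, d, n => .seq (copy i n (n + 1)) (.pop n (.push d false)
      (.seq (scan n (n + 1) (n + 2)) (.seq (mv (n + 1) (n + 3)) (.seq
        (.seq (.push (n + 4) true) (.loop (n + 4) .nop (.pop (n + 3) .nop (.pop n .nop
          (.seq (.push (n + 1) true) (.seq (.push (n + 1) true) (.seq (scan (n + 3) (n + 1) (n + 2))
            (.seq (scan n (n + 1) (n + 2)) (.push (n + 4) true))))) .nop) .nop)))
        (.seq (drain n) (.seq (drain (n + 3)) (finish (n + 1) d))))))
      .nop)
  | .tails, i, d, n => .seq (copy i n (n + 1)) (.seq
      (forL n (n + 2) (.seq (.push n true) (.seq (.push (n + 1) true) (.seq (copy n (n + 3) (n + 4))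
        (.seq (mv (n + 3) (n + 1)) (.seq (.pop n .nop .nop .nop) (.seq (scan n (n + 3) (n + 4))
          (drain (n + 3)))))))))
      (finish (n + 1) d))
  | .bits, i, d, n => .seq (copy i n (n + 1)) (.seq
      (.loop n (.seq (.push (n + 1) true) (.push (n + 1) false))
        (.seq (.push (n + 1) true) (.seq (.push (n + 1) true) (.seq (.push (n + 1) false)
          (.push (n + 1) false)))))
      (finish (n + 1) d))
  | .comp f g, i, d, n => .seq (comp g i n (n + 1)) (.seq (comp f n d (n + 1)) (drain n))
  | .pair a b, i, d, n => .seq (comp b i d n) (.seq (comp a i d n) (.push d true))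
  | .ite c a b, i, d, n => .seq (comp c i n (n + 1)) (.pop n (comp b i d n)
      (.seq (drain n) (comp a i d n)) .nop)
  | .map f, i, d, n => .seq (copy i n (n + 1)) (.pop n (.push d false)
      (.seq (scan n (n + 1) (n + 2)) (.seq (mv (n + 1) (n + 3)) (.seq
        (forL n (n + 7) (.seq (scan n (n + 1) (n + 2)) (.seq (mv (n + 1) (n + 4)) (.seq
          (copy (n + 3) (n + 4) (n + 1)) (.seq (.push (n + 4) true) (.seq (comp f (n + 4) (n + 5) (n + 8))
            (.seq (drain (n + 4)) (.seq (.push (n + 6) true) (mv (n + 5) (n + 6)))))))))) 
        (.seq (finish (n + 6) d) (drain (n + 3))))))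
      .nop)

/-- What the program of a term needs. -/
structure Ctx (σ : Stk) (i d n : ℕ) (x : Val) : Prop where
  hi : i < n
  hd : d < n
  hid : i ≠ d
  emp : ∀ r, n ≤ r → σ r = []
  inp : σ i = code x

section

variable {σ : Stk} {i d n : ℕ} {x : Val}

theorem copy_in (h : Ctx σ i d n x) :
    Runs (copy i n (n + 1)) σ (update σ n (code x)) (7 * size x + 4) := by
  have h1 := h.hi
  have h2 := h.emp n le_rfl
  have h3 := h.emp (n + 1) (by omega)
  have := copy_runs (r := i) (s := n) (t := n + 1) (by omega) (by omega) (by omega) σ h3
  rw [h.inp, h2] at this
  simpa using this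

theorem comp_id (h : Ctx σ i d n x) :
    Runs (comp .id i d n) σ (update σ d (code (eval .id x) ++ σ d)) (cost .id x) := by
  have h1 := h.hi
  have h2 := h.hd
  have h3 := h.emp n le_rfl
  have := copy_runs (r := i) (s := d) (t := n) h.hid (by omega) (by omega) σ h3
  rw [h.inp] at this
  simpa [comp, eval, cost] using this

theorem ctx_emp (h : Ctx σ i d n x) (k : ℕ) : σ (n + k) = [] := h.emp _ (by omega)

theorem code_append_inj (a : Val) : ∀ (b : Val) (l m : List Bool),
    code a ++ l = code b ++ m → a = b ∧ l = m := by
  induction a with
  | leaf =>
    intro b l m h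
    cases b with
    | leaf => simpa [code] using h
    | node b1 b2 => simp [code] at h
  | node a1 a2 h1 h2 =>
    intro b l m h
    cases b with
    | leaf => simp [code] at h
    | node b1 b2 =>
      simp only [code, List.cons_append, List.append_assoc, List.cons.injEq, true_and] at h
      obtain ⟨e1, e2⟩ := h1 _ _ _ h
      obtain ⟨e3, e4⟩ := h2 _ _ _ e2
      subst e1 e3
      exact ⟨rfl, e4⟩

theorem code_inj {a b : Val} (h : code a = code b) : a = b :=
  (code_append_inj a b [] [] (by simpa using h)).1

theorem size_fst_le (x : Val) : size x.fst ≤ size x := by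
  cases x <;> simp [Val.fst, size]; omega

theorem size_snd_le (x : Val) : size x.snd ≤ size x := by
  cases x <;> simp [Val.snd, size]; omega

theorem comp_fst (h : Ctx σ i d n x) :
    Runs (comp .fst i d n) σ (update σ d (code (eval .fst x) ++ σ d)) (cost .fst x) := by
  have h1 := h.hi
  have h2 := h.hd
  have e0 := ctx_emp h 0
  have e1 := ctx_emp h 1
  have e2 := ctx_emp h 2
  simp only [add_zero] at e0
  cases x with
  | leaf =>
    have e3 : update (update σ n (code leaf)) n [] = σ := by
      funext x
      simp only [Function.update_apply]
      split_ifs <;> simp_all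
    have hB : Runs (.pop n (.push d false)
        (.seq (scan n (n + 1) (n + 2)) (.seq (drain n) (mv (n + 1) d))) .nop)
        (update σ n (code leaf)) (update σ d (code leaf ++ σ d)) 3 :=
      Runs.pop0 (l := []) (by simp [code]) (by rw [e3]; exact Runs.push d false σ)
    exact (Runs.seq (copy_in h) hB).mono (by simp [cost, size])
  | node a b =>
    have hA := copy_in h
    let σ2 : Stk := update σ n (code a ++ code b)
    have e3 : update (update σ n (code (node a b))) n (code a ++ code b) = σ2 := by simp [σ2]
    have h3 := scan_runs (r := n) (s := n + 1) (c := n + 2) (by omega) (by omega) (by omega) a σ2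
      (code b) (by simp only [σ2, Function.update_apply]; split_ifs <;> simp_all)
      (by simp [σ2])
    have h4 := drain_runs n (update (update σ2 n (code b)) (n + 1) ((code a).reverse ++ σ2 (n + 1)))
    have h5 := mv_runs (r := n + 1) (s := d) (by omega)
      (update (update (update σ2 n (code b)) (n + 1) ((code a).reverse ++ σ2 (n + 1))) n [])
    have hC := Runs.seq h3 (Runs.seq h4 h5)
    have hB := Runs.pop1 (r := n) (s := update σ n (code (node a b))) (l := code a ++ code b)
      (c0 := .push d false) (cE := .nop) (by simp [code]) (by rw [e3]; exact hC)
    refine (Runs.seq hA hB).cast ?_ ?_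
    · clear hA hB hC h3 h4 h5 h e3
      funext x
      simp only [σ2, Function.update_apply, eval, Val.fst]
      split_ifs <;> simp_all
    · simp [σ2, cost, size, e1]
      omega

theorem comp_snd (h : Ctx σ i d n x) :
    Runs (comp .snd i d n) σ (update σ d (code (eval .snd x) ++ σ d)) (cost .snd x) := by
  have h1 := h.hi
  have h2 := h.hd
  have e0 := ctx_emp h 0
  have e1 := ctx_emp h 1
  have e2 := ctx_emp h 2
  simp only [add_zero] at e0
  cases x with
  | leaf =>
    have e3 : update (update σ n (code leaf)) n [] = σ := by
      funext x
      simp only [Function.update_apply]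
      split_ifs <;> simp_all
    have hB : Runs (.pop n (.push d false)
        (.seq (scan n (n + 1) (n + 2)) (.seq (drain (n + 1)) (.seq (mv n (n + 1)) (mv (n + 1) d)))) .nop)
        (update σ n (code leaf)) (update σ d (code leaf ++ σ d)) 3 :=
      Runs.pop0 (l := []) (by simp [code]) (by rw [e3]; exact Runs.push d false σ)
    exact (Runs.seq (copy_in h) hB).mono (by simp [cost, size])
  | node a b =>
    have hA := copy_in h
    let σ2 : Stk := update σ n (code a ++ code b)
    have e3 : update (update σ n (code (node a b))) n (code a ++ code b) = σ2 := by simp [σ2]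
    have h3 := scan_runs (r := n) (s := n + 1) (c := n + 2) (by omega) (by omega) (by omega) a σ2
      (code b) (by simp only [σ2, Function.update_apply]; split_ifs <;> simp_all)
      (by simp [σ2])
    let σ3 : Stk := update (update σ n (code b)) (n + 1) (code a).reverse
    have e4 : update (update σ2 n (code b)) (n + 1) ((code a).reverse ++ σ2 (n + 1)) = σ3 := by
      clear hA h3 e3
      funext x
      simp only [σ2, σ3, Function.update_apply]
      split_ifs <;> simp_all
    rw [e4] at h3
    have h4 := drain_runs (n + 1) σ3
    have h5 := mv_runs (r := n) (s := n + 1) (by omega) (update σ3 (n + 1) [])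
    have h6 := mv_runs (r := n + 1) (s := d) (by omega)
      (update (update (update σ3 (n + 1) []) n []) (n + 1)
        (((update σ3 (n + 1) []) n).reverse ++ (update σ3 (n + 1) []) (n + 1)))
    have hC := Runs.seq h3 (Runs.seq h4 (Runs.seq h5 h6))
    have hB := Runs.pop1 (r := n) (s := update σ n (code (node a b))) (l := code a ++ code b)
      (c0 := .push d false) (cE := .nop) (by simp [code]) (by rw [e3]; exact hC)
    refine (Runs.seq hA hB).cast ?_ ?_
    · clear hA hB hC h3 h4 h5 h6 h e3 e4
      funext x
      simp only [σ3, Function.update_apply, eval, Val.snd]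
      split_ifs <;> first | (exfalso; omega) | simp_all
    · simp [σ3, cost, size]
      omega

theorem comp_comp {f g : E}
    (hf : ∀ {σ : Stk} {i d n : ℕ} {x : Val}, Ctx σ i d n x →
      Runs (comp f i d n) σ (update σ d (code (eval f x) ++ σ d)) (cost f x))
    (hg : ∀ {σ : Stk} {i d n : ℕ} {x : Val}, Ctx σ i d n x →
      Runs (comp g i d n) σ (update σ d (code (eval g x) ++ σ d)) (cost g x))
    (h : Ctx σ i d n x) :
    Runs (comp (.comp f g) i d n) σ (update σ d (code (eval (.comp f g) x) ++ σ d))
      (cost (.comp f g) x) := by
  have h1 := h.hi
  have h2 := h.hd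
  have e0 := ctx_emp h 0
  simp only [add_zero] at e0
  have hA : Runs (comp g i n (n + 1)) σ (update σ n (code (eval g x))) (cost g x) := by
    have := hg (σ := σ) (i := i) (d := n) (n := n + 1) (x := x)
      ⟨by omega, by omega, by omega, fun r hr => h.emp r (by omega), h.inp⟩
    rwa [e0, List.append_nil] at this
  have hB := hf (σ := update σ n (code (eval g x))) (i := n) (d := d) (n := n + 1) (x := eval g x)
    ⟨by omega, by omega, by omega, fun r hr => by
      rw [Function.update_of_ne (by omega)]; exact h.emp r (by omega), by simp⟩
  have hC := drain_runs n (update (update σ n (code (eval g x))) d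
    (code (eval f (eval g x)) ++ (update σ n (code (eval g x))) d))
  refine (Runs.seq hA (Runs.seq hB hC)).cast ?_ ?_
  · clear hA hB hC h
    funext y
    simp only [Function.update_apply, eval]
    split_ifs <;> first | (exfalso; omega) | simp_all
  · have e : (update (update σ n (code (eval g x))) d
        (code (eval f (eval g x)) ++ (update σ n (code (eval g x))) d)) n = code (eval g x) := by
      rw [Function.update_of_ne (by omega)]
      simp
    rw [e]
    simp [cost]
    omega

theorem comp_pair {a b : E}
    (ha : ∀ {σ : Stk} {i d n : ℕ} {x : Val}, Ctx σ i d n x →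
      Runs (comp a i d n) σ (update σ d (code (eval a x) ++ σ d)) (cost a x))
    (hb : ∀ {σ : Stk} {i d n : ℕ} {x : Val}, Ctx σ i d n x →
      Runs (comp b i d n) σ (update σ d (code (eval b x) ++ σ d)) (cost b x))
    (h : Ctx σ i d n x) :
    Runs (comp (.pair a b) i d n) σ (update σ d (code (eval (.pair a b) x) ++ σ d))
      (cost (.pair a b) x) := by
  have h1 := h.hi
  have h2 := h.hd
  have hA := hb h
  have hB := ha (σ := update σ d (code (eval b x) ++ σ d)) (i := i) (d := d) (n := n) (x := x)
    ⟨h1, h2, h.hid, fun r hr => by
      rw [Function.update_of_ne (by omega)]; exact h.emp r hr, by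
      rw [Function.update_of_ne h.hid]; exact h.inp⟩
  have hC := Runs.push d true (update (update σ d (code (eval b x) ++ σ d)) d
    (code (eval a x) ++ (update σ d (code (eval b x) ++ σ d)) d))
  refine (Runs.seq hA (Runs.seq hB hC)).cast ?_ ?_
  · clear hA hB hC h
    simp [eval, code]
  · simp [cost]
    omega

theorem comp_ite {c a b : E}
    (hc : ∀ {σ : Stk} {i d n : ℕ} {x : Val}, Ctx σ i d n x →
      Runs (comp c i d n) σ (update σ d (code (eval c x) ++ σ d)) (cost c x))
    (ha : ∀ {σ : Stk} {i d n : ℕ} {x : Val}, Ctx σ i d n x →
      Runs (comp a i d n) σ (update σ d (code (eval a x) ++ σ d)) (cost a x))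
    (hb : ∀ {σ : Stk} {i d n : ℕ} {x : Val}, Ctx σ i d n x →
      Runs (comp b i d n) σ (update σ d (code (eval b x) ++ σ d)) (cost b x))
    (h : Ctx σ i d n x) :
    Runs (comp (.ite c a b) i d n) σ (update σ d (code (eval (.ite c a b) x) ++ σ d))
      (cost (.ite c a b) x) := by
  have h1 := h.hi
  have h2 := h.hd
  have e0 := ctx_emp h 0
  simp only [add_zero] at e0
  have hA : Runs (comp c i n (n + 1)) σ (update σ n (code (eval c x))) (cost c x) := by
    have := hc (σ := σ) (i := i) (d := n) (n := n + 1) (x := x)
      ⟨by omega, by omega, by omega, fun r hr => h.emp r (by omega), h.inp⟩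
    rwa [e0, List.append_nil] at this
  cases hv : eval c x with
  | leaf =>
    rw [hv] at hA
    have e3 : update (update σ n (code leaf)) n [] = σ := by
      funext y
      simp only [Function.update_apply]
      split_ifs <;> simp_all
    have hB := Runs.pop0 (r := n) (s := update σ n (code leaf)) (l := []) (c0 := comp b i d n)
      (c1 := .seq (drain n) (comp a i d n)) (cE := .nop) (by simp [code])
      (by rw [e3]; exact hb h)
    refine (Runs.seq hA hB).cast ?_ ?_
    · simp [eval, hv]
    · simp [cost, hv, size]
      omega
  | node p q =>
    rw [hv] at hA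
    have hB1 := drain_runs n (update (update σ n (code (node p q))) n (code p ++ code q))
    have e3 : update (update (update σ n (code (node p q))) n (code p ++ code q)) n [] = σ := by
      funext y
      simp only [Function.update_apply]
      split_ifs <;> simp_all
    rw [e3] at hB1
    have hB := Runs.pop1 (r := n) (s := update σ n (code (node p q))) (l := code p ++ code q)
      (c0 := comp b i d n) (c1 := .seq (drain n) (comp a i d n)) (cE := .nop) (by simp [code])
      (Runs.seq hB1 (ha h))
    refine (Runs.seq hA hB).cast ?_ ?_
    · simp [eval, hv]
    · simp [cost, hv, size]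
      omega

theorem cmpRest_nil (l : List Bool) : cmpRest l [] = [] := by
  cases l <;> rfl

theorem cmp_runs {a b f : ℕ} (h1 : a ≠ b) (h2 : a ≠ f) (h3 : b ≠ f) (l : List Bool) :
    ∀ σ : Stk, σ a = l → (σ f).length ≤ 1 →
    Runs (cmpLoop a b f) σ
      (update (update (update σ a []) b (cmpRest (σ a) (σ b)))
        f (open Classical in if cmpOk (σ a) (σ b) then σ f else [])) (10 * (σ a).length + 2) := by
  classical
  induction l with
  | nil =>
    intro σ e hf
    refine (Runs.loopE e).cast ?_ (by simp [e])
    funext y
    simp only [Function.update_apply, e, cmpRest, cmpOk, if_true]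
    split_ifs <;> simp_all
  | cons x l ih =>
    intro σ e hf
    have key : ∀ (σ' : Stk) (B : ℕ) (T : Stk), σ' a = l → (σ' f).length ≤ 1 → B ≤ 7 →
        (update (update (update σ' a []) b (cmpRest (σ' a) (σ' b)))
          f (if cmpOk (σ' a) (σ' b) then σ' f else [])) = T →
        Runs (if x then (Cmd.pop b (drain f) .nop (drain f)) else (Cmd.pop b .nop (drain f) (drain f)))
          (update σ a l) σ' B →
        Runs (cmpLoop a b f) σ T (10 * (σ a).length + 2) := by
      intro σ' B T e1 e2 hB eT hr
      have h4 := ih σ' e1 e2
      rw [eT] at h4
      rw [e]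
      cases x
      · exact (Runs.loop0 (c1 := .pop b (drain f) .nop (drain f)) e hr h4).mono
          (by simp [e1]; omega)
      · exact (Runs.loop1 (c0 := .pop b .nop (drain f) (drain f)) e hr h4).mono
          (by simp [e1]; omega)
    have hd : ∀ σ' : Stk, σ' f = σ f → Runs (drain f) σ' (update σ' f []) 5 := by
      intro σ' hσ
      have := drain_runs f σ'
      rw [hσ] at this
      exact this.mono (by omega)
    have ea : (update σ a l) a = l := by simp
    have eb : (update σ a l) b = σ b := by rw [Function.update_of_ne h1.symm]
    have ef : (update σ a l) f = σ f := by rw [Function.update_of_ne h2.symm]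
    cases hy : σ b with
    | nil =>
      refine key (update (update σ a l) f []) 7 _ (by rw [Function.update_of_ne h2]; simp) (by simp)
        (by norm_num) ?_ ?_
      · funext y
        simp only [Function.update_apply, e, hy, cmpRest, cmpOk, if_false]
        by_cases c : cmpOk l (if b = f then [] else if b = a then l else [])
        all_goals simp only [c, if_true, if_false]
        all_goals split_ifs <;> simp_all [cmpRest_nil]
      · cases x
        · exact Runs.popE (by rw [Function.update_of_ne h1.symm]; exact hy) (hd _ ef)
        · exact Runs.popE (by rw [Function.update_of_ne h1.symm]; exact hy) (hd _ ef)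
    | cons y m =>
      have eb' : (update σ a l) b = y :: m := by rw [eb, hy]
      by_cases c : x = y
      · subst c
        refine key (update (update σ a l) b m) 3 _ (by rw [Function.update_of_ne h1]; simp)
          (by rw [Function.update_of_ne h3.symm, ef]; exact hf) (by norm_num) ?_ ?_
        · funext y
          simp only [Function.update_apply, e, hy, cmpRest, cmpOk, true_and]
          split_ifs <;> simp_all
        · cases x
          · exact Runs.pop0 eb' (Runs.nop _)
          · exact Runs.pop1 eb' (Runs.nop _)
      · refine key (update (update (update σ a l) b m) f []) 7 _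
          (by rw [Function.update_of_ne h2, Function.update_of_ne h1]; simp) (by simp)
          (by norm_num) ?_ ?_
        · funext y'
          simp only [Function.update_apply, e, hy, cmpRest, cmpOk, c, false_and, if_false]
          split_ifs <;> simp_all
        · have hd' := hd (update (update σ a l) b m) (by rw [Function.update_of_ne h3.symm, ef])
          cases x <;> cases y
          · exact absurd rfl c
          · exact Runs.pop1 eb' hd'
          · exact Runs.pop0 eb' hd'
          · exact absurd rfl c

theorem cmpOk_self (l : List Bool) : cmpOk l l := by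
  induction l with
  | nil => trivial
  | cons a l h => exact ⟨rfl, h⟩

theorem cmpRest_self (l : List Bool) : cmpRest l l = [] := by
  induction l with
  | nil => rfl
  | cons a l h => exact h

theorem eq_of_cmp (l : List Bool) : ∀ m, cmpOk l m → cmpRest l m = [] → l = m := by
  induction l with
  | nil => intro m _ h; simpa [cmpRest] using h.symm
  | cons a l h =>
    intro m h1 h2
    cases m with
    | nil => exact absurd h1 (by simp [cmpOk])
    | cons b m =>
      obtain ⟨e, h3⟩ := h1
      subst e
      rw [h m h3 h2]

/-- The last part of the comparison: if the second stack is not empty, clear the flag. -/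
theorem check_runs {b f : ℕ} (h3 : b ≠ f) (σ : Stk) (hf : (σ f).length ≤ 1) :
    Runs (.pop b (.seq (drain b) (drain f)) (.seq (drain b) (drain f)) .nop) σ
      (update (update σ b []) f (if σ b = [] then σ f else [])) (3 * (σ b).length + 10) := by
  cases hy : σ b with
  | nil =>
    have e : update (update σ b []) f (if ([] : List Bool) = [] then σ f else []) = σ := by
      funext y
      simp only [Function.update_apply, if_true]
      split_ifs <;> simp_all
    rw [e]
    exact (Runs.popE (c0 := .seq (drain b) (drain f)) (c1 := .seq (drain b) (drain f)) hy
      (Runs.nop σ)).mono (by simp)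
  | cons x m =>
    have key : Runs (.seq (drain b) (drain f)) (update σ b m)
        (update (update σ b []) f []) (3 * m.length + 7) := by
      have h1 := drain_runs b (update σ b m)
      have h2 := drain_runs f (update (update σ b m) b [])
      refine (Runs.seq h1 h2).cast ?_ ?_
      · simp
      · simp [Function.update_of_ne h3.symm]
        omega
    simp only [reduceCtorEq, if_false, List.length_cons]
    cases x
    · exact (Runs.pop0 hy key).mono (by omega)
    · exact (Runs.pop1 hy key).mono (by omega)

theorem comp_eq (h : Ctx σ i d n x) :
    Runs (comp .eq i d n) σ (update σ d (code (eval .eq x) ++ σ d)) (cost .eq x) := by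
  have h1 := h.hi
  have h2 := h.hd
  have e0 := ctx_emp h 0
  have e1 := ctx_emp h 1
  have e2 := ctx_emp h 2
  have e3' := ctx_emp h 3
  simp only [add_zero] at e0
  have hdn1 : d ≠ n := by omega
  have hdn2 : d ≠ n + 1 := by omega
  have hdn3 : d ≠ n + 2 := by omega
  have hdn4 : d ≠ n + 3 := by omega
  have hA := copy_in h
  have htt : ∀ σ' : Stk, Runs (.seq (.push d false) (.seq (.push d false) (.push d true))) σ'
      (update σ' d (code (ofB true) ++ σ' d)) 3 := by
    intro σ'
    refine (Runs.seq (Runs.push d false σ') (Runs.seq (Runs.push d false _)
      (Runs.push d true _))).cast ?_ le_rfl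
    simp [ofB, code]
  cases x with
  | leaf =>
    have e3 : update (update σ n (code leaf)) n [] = σ := by
      funext y
      simp only [Function.update_apply]
      split_ifs <;> simp_all
    refine (Runs.seq hA (Runs.pop0 (l := []) (by simp [code]) (by rw [e3]; exact htt σ))).cast ?_ ?_
    · simp [eval, Val.fst, Val.snd]
    · simp [cost, size]
  | node p q =>
    let σ2 : Stk := update σ n (code p ++ code q)
    have e3 : update (update σ n (code (node p q))) n (code p ++ code q) = σ2 := by simp [σ2]
    have h3 := scan_runs (r := n) (s := n + 1) (c := n + 2) (by omega) (by omega) (by omega) p σ2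
      (code q) (by simp only [σ2, Function.update_apply]; split_ifs <;> simp_all)
      (by simp [σ2])
    let σ3 : Stk := update (update σ n (code q)) (n + 1) (code p).reverse
    have e4 : update (update σ2 n (code q)) (n + 1) ((code p).reverse ++ σ2 (n + 1)) = σ3 := by
      clear hA h3 e3
      funext y
      simp only [σ2, σ3, Function.update_apply]
      split_ifs <;> first | (exfalso; omega) | simp_all
    rw [e4] at h3
    have h4 := mv_runs (r := n + 1) (s := n + 3) (by omega) σ3
    let σ4 : Stk := update (update σ n (code q)) (n + 3) (code p)
    have e5 : update (update σ3 (n + 1) []) (n + 3) ((σ3 (n + 1)).reverse ++ σ3 (n + 3)) = σ4 := by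
      clear hA h3 e3 h4 e4
      funext y
      simp only [σ3, σ4, Function.update_apply]
      split_ifs <;> first | (exfalso; omega) | simp_all
    rw [e5] at h4
    have h5 := Runs.push (n + 2) true σ4
    let σ5 : Stk := update σ4 (n + 2) [true]
    have e6 : update σ4 (n + 2) (true :: σ4 (n + 2)) = σ5 := by
      have : σ4 (n + 2) = [] := by
        simp only [σ4, Function.update_apply]
        split_ifs <;> first | (exfalso; omega) | simp_all
      simp [σ5, this]
    rw [e6] at h5
    have ea5 : σ5 (n + 3) = code p := by
      simp only [σ5, σ4, Function.update_apply]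
      split_ifs <;> first | (exfalso; omega) | simp_all
    have eb5 : σ5 n = code q := by
      simp only [σ5, σ4, Function.update_apply]
      split_ifs <;> first | (exfalso; omega) | simp_all
    have ef5 : σ5 (n + 2) = [true] := by simp [σ5]
    have h6 := cmp_runs (a := n + 3) (b := n) (f := n + 2) (by omega) (by omega) (by omega) (code p)
      σ5 ea5 (by simp [ef5])
    rw [ea5, eb5, ef5] at h6
    classical
    let σ6 : Stk := update (update (update σ5 (n + 3) []) n (cmpRest (code p) (code q))) (n + 2)
      (if cmpOk (code p) (code q) then [true] else [])
    have hf6 : (σ6 (n + 2)).length ≤ 1 := by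
      simp only [σ6, Function.update_self]
      split_ifs <;> simp
    have h7 := check_runs (b := n) (f := n + 2) (by omega) σ6 hf6
    have eb6 : σ6 n = cmpRest (code p) (code q) := by
      simp only [σ6, Function.update_apply]
      split_ifs <;> first | (exfalso; omega) | simp_all
    have ef6 : σ6 (n + 2) = if cmpOk (code p) (code q) then [true] else [] := by simp [σ6]
    rw [eb6, ef6] at h7
    let fin : List Bool := if cmpRest (code p) (code q) = [] then
      (if cmpOk (code p) (code q) then [true] else []) else []
    let σ7 : Stk := update (update σ6 n []) (n + 2) fin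
    have hfin : fin = if p = q then [true] else [] := by
      by_cases c : p = q
      · subst c
        simp [fin, cmpRest_self, cmpOk_self]
      · simp only [c, if_false, fin]
        split_ifs with c1 c2
        · exact absurd (code_inj (eq_of_cmp _ _ c2 c1)) c
        · rfl
        · rfl
    have hfinal : Runs (.pop (n + 2) .nop (.seq (.push d false) (.seq (.push d false) (.push d true)))
        (.push d false)) σ7 (update σ d (code (ofB (decide (p = q))) ++ σ d)) 5 := by
      have ef7 : σ7 (n + 2) = fin := by simp [σ7]
      have e8 : ∀ τ : Stk, τ (n + 3) = [] → τ n = [] → τ (n + 2) = [] → τ (n + 1) = [] →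
          (∀ y, y ≠ n → y ≠ n + 1 → y ≠ n + 2 → y ≠ n + 3 → τ y = σ y) → τ = σ := by
        intro τ a1 a2 a3 a4 a5
        funext y
        by_cases b1 : y = n
        · subst b1; rw [a2, e0]
        by_cases b2 : y = n + 1
        · subst b2; rw [a4, e1]
        by_cases b3 : y = n + 2
        · subst b3; rw [a3, e2]
        by_cases b4 : y = n + 3
        · subst b4; rw [a1, e3']
        exact a5 y b1 b2 b3 b4
      have e9 : update σ7 (n + 2) [] = σ := by
        apply e8
        all_goals first | (intro y a1 a2 a3 a4; simp only [σ7, σ6, σ5, σ4, Function.update_apply]; split_ifs <;> first | (exfalso; omega) | simp_all) | (simp only [σ7, σ6, σ5, σ4, Function.update_apply]; split_ifs <;> first | (exfalso; omega) | simp_all)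
      by_cases c : p = q
      · rw [if_pos c] at hfin
        rw [hfin] at ef7
        simp only [c, decide_true]
        refine Runs.pop1 (l := []) ef7 ?_
        rw [e9]
        subst c
        exact htt σ
      · rw [if_neg c] at hfin
        rw [hfin] at ef7
        have e10 : σ7 = σ := by
          rw [← e9]
          exact (upd_same σ7 ef7).symm
        simp only [c, decide_false]
        have hp : Runs (.push d false) σ7 (update σ d (code (ofB false) ++ σ d)) 1 := by
          rw [e10]
          exact Runs.push d false σ
        exact (Runs.popE ef7 hp).mono (by norm_num)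
    have hB := Runs.pop1 (r := n) (s := update σ n (code (node p q))) (l := code p ++ code q)
      (c0 := .seq (.push d false) (.seq (.push d false) (.push d true))) (cE := .nop) (by simp [code])
      (by rw [e3]; exact Runs.seq h3 (Runs.seq h4 (Runs.seq h5 (Runs.seq h6 (Runs.seq h7 hfinal)))))
    refine (Runs.seq hA hB).mono ?_
    have hl : (cmpRest (code p) (code q)).length ≤ size q := by
      have : ∀ l m : List Bool, (cmpRest l m).length ≤ m.length := by
        intro l
        induction l with
        | nil => intro m; simp [cmpRest]
        | cons a l h =>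
          intro m
          cases m with
          | nil => simp [cmpRest]
          | cons b m =>
            have := h m
            simp only [cmpRest, List.length_cons]
            omega
      simpa using this (code p) (code q)
    have e31 : σ3 (n + 1) = (code p).reverse := by simp [σ3]
    rw [e31]
    simp [cost, size, eval]
    omega

/-! ### The list operations -/

theorem sumB_mono {b b' : List Val → ℕ} (h : ∀ P, b P ≤ b' P) (L : List Val) :
    sumB b L ≤ sumB b' L := by
  induction L with
  | nil => simp [sumB]
  | cons a l ih =>
    have := h (a :: l)
    simp only [sumB]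
    omega

theorem sumB_head_le (K : ℕ) (L : List Val) :
    sumB (fun P => K * (size (P.headD leaf) + 1)) L ≤ K * size (ofL L) := by
  induction L with
  | nil => simp [sumB]
  | cons a l ih =>
    simp only [sumB, List.headD_cons, ofL, size]
    nlinarith

theorem forL_lin {n g : ℕ} (hng : n ≠ g) {body : Cmd} {α : Type} (S : α → List Val → Stk)
    (st : α → Val → List Val → α) (τ : List Bool) (K : ℕ)
    (hn : ∀ A L, S A L n = code (ofL L) ++ τ) (hg : ∀ A L, S A L g = [])
    (hb : ∀ A a L, Runs body (update (S A (a :: L)) n (code a ++ code (ofL L) ++ τ))
      (S (st A a L) L) (K * (size a + 1)))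
    (L : List Val) (A : α) :
    Runs (forL n g body) (S A L) (update (S (foldSt st A L) []) n τ)
      ((K + 5) * size (ofL L) + 8) := by
  refine (forL_runs hng S st τ (fun P => K * (size (P.headD leaf) + 1)) hn hg
    (fun A a L => hb A a L) L A).mono ?_
  have h1 := sumB_head_le (K + 5) L
  have h2 : sumB (fun P => K * (size (P.headD leaf) + 1) + 5) L ≤
      sumB (fun P => (K + 5) * (size (P.headD leaf) + 1)) L := by
    apply sumB_mono
    intro P
    nlinarith
  omega

theorem foldSt_cells (A : List Bool) (L : List Val) :
    foldSt (fun (A : List Bool) a (_ : List Val) => (code a).reverse ++ true :: A) A L =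
      (cells L).reverse ++ A := by
  induction L generalizing A with
  | nil => rfl
  | cons a l ih =>
    simp only [foldSt, ih, cells, List.flatMap_cons, List.reverse_append, List.append_assoc]
    simp

theorem foldSt_flat (A : List Bool) (L : List Val) :
    foldSt (fun (A : List Bool) a (_ : List Val) => (cells (toL a)).reverse ++ A) A L =
      (cells (L.flatMap toL)).reverse ++ A := by
  induction L generalizing A with
  | nil => rfl
  | cons a l ih =>
    simp only [foldSt, ih, List.flatMap_cons, cells_append, List.reverse_append, List.append_assoc]

theorem comp_flat (h : Ctx σ i d n x) :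
    Runs (comp .flat i d n) σ (update σ d (code (eval .flat x) ++ σ d)) (cost .flat x) := by
  have h1 := h.hi
  have h2 := h.hd
  have e0 := ctx_emp h 0
  have e1 := ctx_emp h 1
  have e2 := ctx_emp h 2
  have e3 := ctx_emp h 3
  have e4 := ctx_emp h 4
  simp only [add_zero] at e0
  have hA := copy_in h
  -- the inner loop
  let Si : List Bool → List Bool → List Val → Stk := fun τ A L =>
    update (update σ n (code (ofL L) ++ τ)) (n + 1) A
  have hin : ∀ τ A L, Runs (forL n (n + 3) (.seq (.push (n + 1) true) (scan n (n + 1) (n + 4))))
      (Si τ A L)
      (update (Si τ (foldSt (fun (A : List Bool) a (_ : List Val) => (code a).reverse ++ true :: A) A L) []) n τ)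
      (13 * size (ofL L) + 8) := by
    intro τ A L
    refine forL_lin (n := n) (g := n + 3) (by omega) (Si τ)
      (fun (A : List Bool) a (_ : List Val) => (code a).reverse ++ true :: A) τ 8 ?_ ?_ ?_ L A
    · intro A L
      simp [Si]
    · intro A L
      simp only [Si, Function.update_apply]
      split_ifs <;> first | (exfalso; omega) | simp_all
    · intro A a L
      have h3 := Runs.push (n + 1) true (update (Si τ A (a :: L)) n (code a ++ code (ofL L) ++ τ))
      have h4 := scan_runs (r := n) (s := n + 1) (c := n + 4) (by omega) (by omega) (by omega) a
        (update (update (Si τ A (a :: L)) n (code a ++ code (ofL L) ++ τ)) (n + 1)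
          (true :: (update (Si τ A (a :: L)) n (code a ++ code (ofL L) ++ τ)) (n + 1)))
        (code (ofL L) ++ τ) (by
          simp only [Si, Function.update_apply]
          split_ifs <;> first | (exfalso; omega) | simp_all) (by
          simp only [Si, Function.update_apply]
          split_ifs <;> first | (exfalso; omega) | simp_all)
      refine (Runs.seq h3 h4).cast ?_ ?_
      · clear h3 h4 hA h
        funext y
        simp only [Si, Function.update_apply]
        split_ifs <;> first | (exfalso; omega) | simp_all
      · nlinarith
  let So : List Bool → List Val → Stk := fun A L => Si [] A L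
  have hout : Runs (forL n (n + 2) (forL n (n + 3) (.seq (.push (n + 1) true) (scan n (n + 1) (n + 4)))))
      (So [] (toL x))
      (update (So (foldSt (fun (A : List Bool) a (_ : List Val) => (cells (toL a)).reverse ++ A) [] (toL x)) []) n [])
      (18 * size (ofL (toL x)) + 8) := by
    refine forL_lin (n := n) (g := n + 2) (by omega) So
      (fun (A : List Bool) a (_ : List Val) => (cells (toL a)).reverse ++ A) [] 13 ?_ ?_ ?_ _ _
    · intro A L
      simp [So, Si]
    · intro A L
      simp only [So, Si, Function.update_apply]
      split_ifs <;> first | (exfalso; omega) | simp_all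
    · intro A a L
      have h3 := hin (code (ofL L) ++ []) A (toL a)
      rw [foldSt_cells] at h3
      refine h3.cast' ?_ ?_ ?_
      · clear h3 hA h
        funext y
        simp only [So, Si, ofL_toL, List.append_assoc, Function.update_apply]
        split_ifs <;> first | (exfalso; omega) | simp_all
      · clear h3 hA h
        funext y
        simp only [So, Si, Function.update_apply]
        split_ifs <;> first | (exfalso; omega) | simp_all
      · simp only [ofL_toL]
        omega
  rw [foldSt_flat, ofL_toL] at hout
  have hF := finish_runs (u := n + 1) (d := d) (by omega)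
    (update (So ((cells ((toL x).flatMap toL)).reverse ++ []) []) n []) ((toL x).flatMap toL) (by
      simp only [So, Si, Function.update_apply]
      split_ifs <;> first | (exfalso; omega) | simp_all)
  have e5 : So [] (toL x) = update σ n (code x) := by
    have : update σ n (code x) = update (update σ n (code x)) (n + 1) [] := by
      funext y
      simp only [Function.update_apply]
      split_ifs <;> first | (exfalso; omega) | simp_all
    simp only [So, Si, ofL_toL, List.append_nil]
    exact this.symm
  rw [e5] at hout
  refine (Runs.seq hA (Runs.seq hout hF)).cast ?_ ?_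
  · clear hA hout hF h hin e5
    funext y
    simp only [So, Si, Function.update_apply, eval]
    split_ifs <;> first | (exfalso; omega) | simp_all
  · simp only [cost]
    omega

end

end Vale.Agent.P310x
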