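import Vale.Agent.P310x.Comp

/-!
# Compilation of the list language, the remaining operations
-/

namespace Vale.Agent.P310x

open Function Val

/-! ### Zip -/

/-- The list of a zip. -/
def zipped (la lb : List Val) : List Val := (la.zip lb).map fun p => node p.1 p.2

theorem size_ofL_cons (a : Val) (l : List Val) : size (ofL (a :: l)) = size a + size (ofL l) + 1 := rfl

/-- The loop of a zip. -/
def zipLoop (n : ℕ) : Cmd :=
  .loop (n + 4) .nop (.pop (n + 3) .nop (.pop n .nop
    (.seq (.push (n + 1) true) (.seq (.push (n + 1) true) (.seq (scan (n + 3) (n + 1) (n + 2))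
      (.seq (scan n (n + 1) (n + 2)) (.push (n + 4) true))))) .nop) .nop)

theorem zip_loop (n : ℕ) (σ : Stk) (e2 : σ (n + 2) = []) (e4 : σ (n + 4) = []) (la : List Val) :
    ∀ (lb : List Val) (A : List Bool), ∃ r1 r2 : List Bool, r1.length ≤ size (ofL la) ∧
      r2.length ≤ size (ofL lb) ∧
      Runs (zipLoop n) (update (update (update (update σ (n + 3) (code (ofL la))) n (code (ofL lb)))
          (n + 1) A) (n + 4) [true])
        (update (update (update σ (n + 3) r1) n r2) (n + 1) ((cells (zipped la lb)).reverse ++ A))
        (22 * (size (ofL la) + size (ofL lb)) + 10) := by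
  induction la with
  | nil =>
    intro lb A
    refine ⟨[], code (ofL lb), by simp, by simp, ?_⟩
    let Z0 : Stk := update (update (update σ (n + 3) (code (ofL []))) n (code (ofL lb))) (n + 1) A
    have eZ : update (update Z0 (n + 4) [true]) (n + 4) [] = Z0 := by
      funext y
      simp only [Z0, Function.update_apply]
      split_ifs <;> first | (exfalso; omega) | simp_all
    have e3 : Z0 (n + 3) = false :: [] := by
      simp only [Z0, Function.update_apply]
      split_ifs <;> first | (exfalso; omega) | simp_all [ofL, code]
    have hb : Runs (.pop (n + 3) .nop (.pop n .nop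
        (.seq (.push (n + 1) true) (.seq (.push (n + 1) true) (.seq (scan (n + 3) (n + 1) (n + 2))
          (.seq (scan n (n + 1) (n + 2)) (.push (n + 4) true))))) .nop) .nop) Z0
        (update Z0 (n + 3) []) 3 := Runs.pop0 e3 (Runs.nop _)
    have hl : Runs (zipLoop n) (update Z0 (n + 3) []) (update Z0 (n + 3) []) 2 := by
      refine Runs.loopE ?_
      simp only [Z0, Function.update_apply]
      split_ifs <;> first | (exfalso; omega) | simp_all
    have := Runs.loop1 (c0 := .nop) (s := update Z0 (n + 4) [true]) (l := []) (by simp)
      (by rw [eZ]; exact hb) hl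
    refine this.cast ?_ (by omega)
    clear this hl hb eZ
    funext y
    simp only [Z0, Function.update_apply, zipped, List.zip_nil_left, List.map_nil, cells,
      List.flatMap_nil, List.reverse_nil, List.nil_append]
    split_ifs <;> first | (exfalso; omega) | simp_all
  | cons a la ih =>
    intro lb A
    let Z0 : Stk := update (update (update σ (n + 3) (code (ofL (a :: la)))) n (code (ofL lb))) (n + 1) A
    have eZ : update (update Z0 (n + 4) [true]) (n + 4) [] = Z0 := by
      funext y
      simp only [Z0, Function.update_apply]
      split_ifs <;> first | (exfalso; omega) | simp_all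
    have e3 : Z0 (n + 3) = true :: (code a ++ code (ofL la)) := by
      simp only [Z0, Function.update_apply]
      split_ifs <;> first | (exfalso; omega) | simp_all [ofL, code]
    let Z1 : Stk := update Z0 (n + 3) (code a ++ code (ofL la))
    cases lb with
    | nil =>
      refine ⟨code a ++ code (ofL la), [], by simp [size_ofL_cons], by simp, ?_⟩
      have e1 : Z1 n = false :: [] := by
        simp only [Z1, Z0, Function.update_apply]
        split_ifs <;> first | (exfalso; omega) | simp_all [ofL, code]
      have hp : Runs (.pop n .nop
        (.seq (.push (n + 1) true) (.seq (.push (n + 1) true) (.seq (scan (n + 3) (n + 1) (n + 2))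
          (.seq (scan n (n + 1) (n + 2)) (.push (n + 4) true))))) .nop) Z1 (update Z1 n []) 3 :=
        Runs.pop0 e1 (Runs.nop _)
      have hb := Runs.pop1 (r := n + 3) (s := Z0) (c0 := .nop) (cE := .nop) e3 hp
      have hl : Runs (zipLoop n) (update Z1 n []) (update Z1 n []) 2 := by
        refine Runs.loopE ?_
        simp only [Z1, Z0, Function.update_apply]
        split_ifs <;> first | (exfalso; omega) | simp_all
      have := Runs.loop1 (c0 := .nop) (s := update Z0 (n + 4) [true]) (l := []) (by simp)
        (by rw [eZ]; exact hb) hl
      refine this.cast ?_ (by omega)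
      clear this hl hb eZ hp e1 e3 ih
      funext y
      simp only [Z1, Z0, Function.update_apply, zipped, List.zip_nil_right, List.map_nil, cells,
        List.flatMap_nil, List.reverse_nil, List.nil_append]
      split_ifs <;> first | (exfalso; omega) | simp_all [ofL, code]
    | cons b lb =>
      obtain ⟨r1, r2, h1, h2, h3⟩ := ih lb ((code b).reverse ++ (code a).reverse ++ true :: true :: A)
      refine ⟨r1, r2, by simp [size_ofL_cons]; omega, by simp [size_ofL_cons]; omega, ?_⟩
      have e1 : Z1 n = true :: (code b ++ code (ofL lb)) := by
        simp only [Z1, Z0, Function.update_apply]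
        split_ifs <;> first | (exfalso; omega) | simp_all [ofL, code]
      let Z2 : Stk := update Z1 n (code b ++ code (ofL lb))
      have h4 := Runs.push (n + 1) true Z2
      have h5 := Runs.push (n + 1) true (update Z2 (n + 1) (true :: Z2 (n + 1)))
      let Z3 : Stk := update (update Z2 (n + 1) (true :: Z2 (n + 1))) (n + 1)
        (true :: (update Z2 (n + 1) (true :: Z2 (n + 1))) (n + 1))
      have h6 := scan_runs (r := n + 3) (s := n + 1) (c := n + 2) (by omega) (by omega) (by omega) a Z3
        (code (ofL la)) (by
          simp only [Z3, Z2, Z1, Z0, Function.update_apply]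
          split_ifs <;> first | (exfalso; omega) | simp_all) (by
          simp only [Z3, Z2, Z1, Z0, Function.update_apply]
          split_ifs <;> first | (exfalso; omega) | simp_all)
      let Z4 : Stk := update (update Z3 (n + 3) (code (ofL la))) (n + 1) ((code a).reverse ++ Z3 (n + 1))
      have h7 := scan_runs (r := n) (s := n + 1) (c := n + 2) (by omega) (by omega) (by omega) b Z4
        (code (ofL lb)) (by
          simp only [Z4, Z3, Z2, Z1, Z0, Function.update_apply]
          split_ifs <;> first | (exfalso; omega) | simp_all) (by
          simp only [Z4, Z3, Z2, Z1, Z0, Function.update_apply]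
          split_ifs <;> first | (exfalso; omega) | simp_all)
      let Z5 : Stk := update (update Z4 n (code (ofL lb))) (n + 1) ((code b).reverse ++ Z4 (n + 1))
      have h8 := Runs.push (n + 4) true Z5
      have eS : update Z5 (n + 4) (true :: Z5 (n + 4)) =
          update (update (update (update σ (n + 3) (code (ofL la))) n (code (ofL lb)))
            (n + 1) ((code b).reverse ++ (code a).reverse ++ true :: true :: A)) (n + 4) [true] := by
        clear h3 h4 h5 h6 h7 h8 eZ e1 e3 ih
        funext y
        simp only [Z5, Z4, Z3, Z2, Z1, Z0, Function.update_apply]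
        split_ifs <;> first | (exfalso; omega) | simp_all
      rw [eS] at h8
      have hp := Runs.pop1 (r := n) (s := Z1) (c0 := .nop) (cE := .nop) e1
        (Runs.seq h4 (Runs.seq h5 (Runs.seq h6 (Runs.seq h7 h8))))
      have hb := Runs.pop1 (r := n + 3) (s := Z0) (c0 := .nop) (cE := .nop) e3 hp
      have := Runs.loop1 (c0 := .nop) (s := update Z0 (n + 4) [true]) (l := []) (by simp)
        (by rw [eZ]; exact hb) h3
      refine this.cast ?_ ?_
      · have : (cells (zipped (a :: la) (b :: lb))).reverse ++ A =
            (cells (zipped la lb)).reverse ++ (code b).reverse ++ (code a).reverse ++ true :: true :: A := by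
          simp [zipped, cells, code]
        rw [this]
        simp only [List.append_assoc]
      · simp only [size_ofL_cons]
        omega

section

variable {σ : Stk} {i d n : ℕ} {x : Val}

theorem comp_zip (h : Ctx σ i d n x) :
    Runs (comp .zip i d n) σ (update σ d (code (eval .zip x) ++ σ d)) (cost .zip x) := by
  have h1 := h.hi
  have h2 := h.hd
  have e0 := ctx_emp h 0
  have e1 := ctx_emp h 1
  have e2 := ctx_emp h 2
  have e3 := ctx_emp h 3
  have e4 := ctx_emp h 4
  simp only [add_zero] at e0
  have hA := copy_in h
  cases x with
  | leaf =>
    have e5 : update (update σ n (code leaf)) n [] = σ := by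
      funext y
      simp only [Function.update_apply]
      split_ifs <;> simp_all
    have hB : Runs (.push d false) (update (update σ n (code leaf)) n [])
        (update σ d (code (eval .zip leaf) ++ σ d)) 1 := by
      rw [e5]
      exact Runs.push d false σ
    refine (Runs.seq hA (Runs.pop0 (l := []) (by simp [code]) hB)).mono ?_
    simp [cost, size]
    omega
  | node p q =>
    let σ2 : Stk := update σ n (code p ++ code q)
    have e5 : update (update σ n (code (node p q))) n (code p ++ code q) = σ2 := by simp [σ2]
    have h3 := scan_runs (r := n) (s := n + 1) (c := n + 2) (by omega) (by omega) (by omega) p σ2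
      (code q) (by simp only [σ2, Function.update_apply]; split_ifs <;> simp_all)
      (by simp [σ2])
    let σ3 : Stk := update (update σ n (code q)) (n + 1) (code p).reverse
    have e6 : update (update σ2 n (code q)) (n + 1) ((code p).reverse ++ σ2 (n + 1)) = σ3 := by
      clear hA h3 e5
      funext y
      simp only [σ2, σ3, Function.update_apply]
      split_ifs <;> first | (exfalso; omega) | simp_all
    rw [e6] at h3
    have h4 := mv_runs (r := n + 1) (s := n + 3) (by omega) σ3
    let σ4 : Stk := update (update σ n (code q)) (n + 3) (code p)
    have e7 : update (update σ3 (n + 1) []) (n + 3) ((σ3 (n + 1)).reverse ++ σ3 (n + 3)) = σ4 := by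
      clear hA h3 e5 h4 e6
      funext y
      simp only [σ3, σ4, Function.update_apply]
      split_ifs <;> first | (exfalso; omega) | simp_all
    rw [e7] at h4
    have h5 : Runs (.push (n + 4) true) σ4 (update σ4 (n + 4) [true]) 1 := by
      have := Runs.push (n + 4) true σ4
      have e8 : σ4 (n + 4) = [] := by
        simp only [σ4, Function.update_apply]
        split_ifs <;> first | (exfalso; omega) | simp_all
      rwa [e8] at this
    obtain ⟨r1, r2, h6, h7, h8⟩ := zip_loop n σ e2 e4 (toL p) (toL q) []
    have e9 : update (update (update (update σ (n + 3) (code (ofL (toL p)))) n (code (ofL (toL q))))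
        (n + 1) []) (n + 4) [true] = update σ4 (n + 4) [true] := by
      clear hA h3 e5 h4 e6 h5 h8 e7
      funext y
      simp only [σ4, ofL_toL, Function.update_apply]
      split_ifs <;> first | (exfalso; omega) | simp_all
    rw [e9] at h8
    let σ5 : Stk := update (update (update σ (n + 3) r1) n r2) (n + 1)
      ((cells (zipped (toL p) (toL q))).reverse ++ [])
    have h9 := drain_runs n σ5
    have h10 := drain_runs (n + 3) (update σ5 n [])
    have h11 := finish_runs (u := n + 1) (d := d) (by omega) (update (update σ5 n []) (n + 3) [])
      (zipped (toL p) (toL q)) (by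
        simp only [σ5, Function.update_apply]
        split_ifs <;> first | (exfalso; omega) | simp_all)
    have hC := Runs.seq h3 (Runs.seq h4 (Runs.seq (Runs.seq h5 h8) (Runs.seq h9 (Runs.seq h10 h11))))
    have hB := Runs.pop1 (r := n) (s := update σ n (code (node p q))) (l := code p ++ code q)
      (c0 := .push d false) (cE := .nop) (by simp [code]) (by rw [e5]; exact hC)
    refine (Runs.seq hA hB).cast ?_ ?_
    · clear hA hB hC h3 h4 h5 h8 h9 h10 h11 h e5 e6 e7 e9
      funext y
      simp only [σ5, Function.update_apply, eval, Val.fst, Val.snd, zipped]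
      split_ifs <;> first | (exfalso; omega) | simp_all
    · have e10 : σ3 (n + 1) = (code p).reverse := by simp [σ3]
      have e11 : σ5 n = r2 := by
        simp only [σ5, Function.update_apply]
        split_ifs <;> first | (exfalso; omega) | simp_all
      have e12 : (update σ5 n []) (n + 3) = r1 := by
        simp only [σ5, Function.update_apply]
        split_ifs <;> first | (exfalso; omega) | simp_all
      rw [e10, e11, e12]
      rw [ofL_toL] at h6 h7
      simp only [ofL_toL, List.length_reverse, length_code, cost, Val.fst, Val.snd, size, zipped]
      omega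

/-! ### Tails -/

theorem size_suffix_le {P L : List Val} (h : P <:+ L) : size (ofL P) ≤ size (ofL L) := by
  obtain ⟨Q, rfl⟩ := h
  induction Q with
  | nil => simp
  | cons a l ih =>
    simp only [List.cons_append, size_ofL_cons]
    omega

theorem length_le_size (L : List Val) : L.length ≤ size (ofL L) := by
  induction L with
  | nil => simp
  | cons a l ih =>
    simp only [List.length_cons, size_ofL_cons]
    omega

theorem foldSt_tails (A : List Bool) (L : List Val) :
    foldSt (fun (A : List Bool) a (L : List Val) => (code (ofL (a :: L))).reverse ++ true :: A) A L =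
      (cells (tailsV (ofL L))).reverse ++ A := by
  induction L generalizing A with
  | nil => rfl
  | cons a l ih =>
    rw [foldSt, ih]
    simp [ofL, tailsV, cells, code]

theorem comp_tails (h : Ctx σ i d n x) :
    Runs (comp .tails i d n) σ (update σ d (code (eval .tails x) ++ σ d)) (cost .tails x) := by
  have h1 := h.hi
  have h2 := h.hd
  have e0 := ctx_emp h 0
  have e1 := ctx_emp h 1
  have e2 := ctx_emp h 2
  have e3 := ctx_emp h 3
  have e4 := ctx_emp h 4
  simp only [add_zero] at e0
  have hA := copy_in h
  let S : List Bool → List Val → Stk := fun A L => update (update σ n (code (ofL L) ++ [])) (n + 1) A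
  let body : Cmd := .seq (.push n true) (.seq (.push (n + 1) true) (.seq (copy n (n + 3) (n + 4))
        (.seq (mv (n + 3) (n + 1)) (.seq (.pop n .nop .nop .nop) (.seq (scan n (n + 3) (n + 4))
          (drain (n + 3)))))))
  have hb : ∀ (A : List Bool) (a : Val) (L : List Val), Runs body
      (update (S A (a :: L)) n (code a ++ code (ofL L) ++ []))
      (S ((code (ofL (a :: L))).reverse ++ true :: A) L) (20 * size (ofL (a :: L)) + 16) := by
    intro A a L
    let T : Stk := update (S A (a :: L)) n (code a ++ code (ofL L) ++ [])
    have s1 := Runs.push n true T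
    let T1 : Stk := update T n (true :: T n)
    have s2 := Runs.push (n + 1) true T1
    let T2 : Stk := update T1 (n + 1) (true :: T1 (n + 1))
    have s3 := copy_runs (r := n) (s := n + 3) (t := n + 4) (by omega) (by omega) (by omega) T2 (by
      simp only [T2, T1, T, S, Function.update_apply]
      split_ifs <;> first | (exfalso; omega) | simp_all)
    let T3 : Stk := update T2 (n + 3) (T2 n ++ T2 (n + 3))
    have s4 := mv_runs (r := n + 3) (s := n + 1) (by omega) T3
    let T4 : Stk := update (update T3 (n + 3) []) (n + 1) ((T3 (n + 3)).reverse ++ T3 (n + 1))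
    have en : T4 n = true :: (code a ++ code (ofL L)) := by
      simp only [T4, T3, T2, T1, T, S, Function.update_apply]
      split_ifs <;> first | (exfalso; omega) | simp_all
    have s5 : Runs (.pop n .nop .nop .nop) T4 (update T4 n (code a ++ code (ofL L))) 3 :=
      Runs.pop1 en (Runs.nop _)
    have s6 := scan_runs (r := n) (s := n + 3) (c := n + 4) (by omega) (by omega) (by omega) a
      (update T4 n (code a ++ code (ofL L))) (code (ofL L)) (by
        simp only [T4, T3, T2, T1, T, S, Function.update_apply]
        split_ifs <;> first | (exfalso; omega) | simp_all) (by simp)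
    let T5 : Stk := update (update (update T4 n (code a ++ code (ofL L))) n (code (ofL L))) (n + 3)
      ((code a).reverse ++ (update T4 n (code a ++ code (ofL L))) (n + 3))
    have s7 := drain_runs (n + 3) T5
    refine (Runs.seq s1 (Runs.seq s2 (Runs.seq s3 (Runs.seq s4 (Runs.seq s5 (Runs.seq s6 s7)))))).cast ?_ ?_
    · clear s1 s2 s3 s4 s5 s6 s7 en hA h
      funext y
      simp only [T5, T4, T3, T2, T1, T, S, Function.update_apply]
      split_ifs <;> first | (exfalso; omega) | simp_all [ofL, code]
    · have e5 : T2 n = code (ofL (a :: L)) := by
        simp only [T2, T1, T, S, Function.update_apply]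
        split_ifs <;> first | (exfalso; omega) | simp_all [ofL, code]
      have e6 : T3 (n + 3) = code (ofL (a :: L)) := by
        simp only [T3, T2, T1, T, S, Function.update_apply, e5]
        split_ifs <;> first | (exfalso; omega) | simp_all [ofL, code]
      have e7 : T5 (n + 3) = (code a).reverse := by
        simp only [T5, T4, T3, T2, T1, T, S, Function.update_apply]
        split_ifs <;> first | (exfalso; omega) | simp_all
      rw [e6, e7, e5]
      simp only [List.length_reverse, length_code]
      have := size_ofL_cons a L
      omega
  have hF := forL_runs (n := n) (g := n + 2) (body := body) (by omega) S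
    (fun (A : List Bool) a (L : List Val) => (code (ofL (a :: L))).reverse ++ true :: A) []
    (fun P => 20 * size (ofL P) + 16) (by
      intro A L
      simp [S]) (by
      intro A L
      simp only [S, Function.update_apply]
      split_ifs <;> first | (exfalso; omega) | simp_all) (fun A a L => hb A a L) (toL x) []
  rw [foldSt_tails, ofL_toL] at hF
  have hG := finish_runs (u := n + 1) (d := d) (by omega)
    (update (S ((cells (tailsV x)).reverse ++ []) []) n []) (tailsV x) (by
      simp only [S, Function.update_apply]
      split_ifs <;> first | (exfalso; omega) | simp_all)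
  have e5 : S [] (toL x) = update σ n (code x) := by
    have : update σ n (code x) = update (update σ n (code x)) (n + 1) [] := by
      funext y
      simp only [Function.update_apply]
      split_ifs <;> first | (exfalso; omega) | simp_all
    simp only [S, ofL_toL, List.append_nil]
    exact this.symm
  rw [e5] at hF
  refine (Runs.seq hA (Runs.seq hF hG)).cast ?_ ?_
  · clear hA hF hG h hb e5
    funext y
    simp only [S, Function.update_apply, eval]
    split_ifs <;> first | (exfalso; omega) | simp_all
  · have h5 : sumB (fun P => 20 * size (ofL P) + 16 + 5) (toL x) ≤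
        (toL x).length * (20 * size x + 21) := by
      apply sumB_le_mul
      intro P hP
      have := size_suffix_le hP
      rw [ofL_toL] at this
      omega
    have h6 : (toL x).length ≤ size x := by
      have := length_le_size (toL x)
      rwa [ofL_toL] at this
    have h7 : (toL x).length * (20 * size x + 21) ≤ size x * (20 * size x + 21) :=
      Nat.mul_le_mul_right _ h6
    have h8 : size x ≤ size x * size x := Nat.le_mul_self _
    have h9 : size x * (20 * size x + 21) = 20 * (size x * size x) + 21 * size x := by ring
    have h10 : 60 * size x * size x = 60 * (size x * size x) := by ring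
    simp only [cost]
    omega

/-! ### Bits -/

theorem cells_bit0 (l : List Bool) :
    cells ((false :: l).map ofB) = true :: false :: cells (l.map ofB) := by
  simp [cells, ofB, code]

theorem cells_bit1 (l : List Bool) :
    cells ((true :: l).map ofB) = true :: true :: false :: false :: cells (l.map ofB) := by
  simp [cells, ofB, code]

theorem bits_loop {n u : ℕ} (hu : n ≠ u) (l : List Bool) : ∀ (σ : Stk), σ n = l →
    Runs (.loop n (.seq (.push u true) (.push u false))
        (.seq (.push u true) (.seq (.push u true) (.seq (.push u false) (.push u false))))) σ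
      (update (update σ n []) u ((cells (l.map ofB)).reverse ++ σ u)) (6 * l.length + 2) := by
  induction l with
  | nil =>
    intro σ e
    refine (Runs.loopE e).cast ?_ (by simp)
    funext y
    simp only [Function.update_apply, List.map_nil, cells, List.flatMap_nil, List.reverse_nil,
      List.nil_append]
    split_ifs <;> simp_all
  | cons b l ih =>
    intro σ e
    cases b
    · let T : Stk := update (update σ n l) u (false :: true :: σ u)
      have h0 : Runs (.seq (.push u true) (.push u false)) (update σ n l) T 2 := by
        refine (Runs.seq (Runs.push u true (update σ n l)) (Runs.push u false _)).cast ?_ le_rfl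
        simp [T, Function.update_of_ne hu.symm]
      have h1 := ih T (by simp [T, Function.update_of_ne hu])
      refine (Runs.loop0 (c1 := .seq (.push u true) (.seq (.push u true) (.seq (.push u false) (.push u false))))
        e h0 h1).cast ?_ (by simp [T, Function.update_of_ne hu]; omega)
      clear h0 h1 ih
      rw [cells_bit0]
      funext y
      simp only [T, Function.update_apply]
      split_ifs <;> simp_all
    · let T : Stk := update (update σ n l) u (false :: false :: true :: true :: σ u)
      have h0 : Runs (.seq (.push u true) (.seq (.push u true) (.seq (.push u false) (.push u false))))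
          (update σ n l) T 4 := by
        refine (Runs.seq (Runs.push u true (update σ n l)) (Runs.seq (Runs.push u true _)
          (Runs.seq (Runs.push u false _) (Runs.push u false _)))).cast ?_ le_rfl
        simp [T, Function.update_of_ne hu.symm]
      have h1 := ih T (by simp [T, Function.update_of_ne hu])
      refine (Runs.loop1 (c0 := .seq (.push u true) (.push u false)) e h0 h1).cast ?_
        (by simp [T, Function.update_of_ne hu]; omega)
      clear h0 h1 ih
      rw [cells_bit1]
      funext y
      simp only [T, Function.update_apply]
      split_ifs <;> simp_all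

theorem comp_bits (h : Ctx σ i d n x) :
    Runs (comp .bits i d n) σ (update σ d (code (eval .bits x) ++ σ d)) (cost .bits x) := by
  have h1 := h.hi
  have h2 := h.hd
  have e0 := ctx_emp h 0
  have e1 := ctx_emp h 1
  simp only [add_zero] at e0
  have hA := copy_in h
  have hB := bits_loop (n := n) (u := n + 1) (by omega) (code x) (update σ n (code x)) (by simp)
  have hC := finish_runs (u := n + 1) (d := d) (by omega)
    (update (update (update σ n (code x)) n []) (n + 1)
      ((cells ((code x).map ofB)).reverse ++ (update σ n (code x)) (n + 1))) ((code x).map ofB) (by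
      simp only [Function.update_apply]
      split_ifs <;> first | (exfalso; omega) | simp_all)
  refine (Runs.seq hA (Runs.seq hB hC)).cast ?_ ?_
  · clear hA hB hC h
    funext y
    simp only [Function.update_apply, eval]
    split_ifs <;> first | (exfalso; omega) | simp_all
  · simp only [cost, length_code]
    omega

/-! ### Map -/

end

/-- The stacks used by the program of a map. -/
def mapSt (σ : Stk) (n : ℕ) (r0 r1 r3 r4 r5 r6 : List Bool) : Stk := fun x =>
  if x = n then r0 else if x = n + 1 then r1 else if x = n + 3 then r3 else
    if x = n + 4 then r4 else if x = n + 5 then r5 else if x = n + 6 then r6 else σ x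

section

variable {σ : Stk} {n : ℕ} {r0 r1 r3 r4 r5 r6 v : List Bool}

theorem mapSt_u0 : update (mapSt σ n r0 r1 r3 r4 r5 r6) n v = mapSt σ n v r1 r3 r4 r5 r6 := by
  funext x
  simp only [mapSt, Function.update_apply]
  split_ifs <;> first | (exfalso; omega) | rfl

theorem mapSt_u1 : update (mapSt σ n r0 r1 r3 r4 r5 r6) (n + 1) v = mapSt σ n r0 v r3 r4 r5 r6 := by
  funext x
  simp only [mapSt, Function.update_apply]
  split_ifs <;> first | (exfalso; omega) | rfl

theorem mapSt_u3 : update (mapSt σ n r0 r1 r3 r4 r5 r6) (n + 3) v = mapSt σ n r0 r1 v r4 r5 r6 := by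
  funext x
  simp only [mapSt, Function.update_apply]
  split_ifs <;> first | (exfalso; omega) | rfl

theorem mapSt_u4 : update (mapSt σ n r0 r1 r3 r4 r5 r6) (n + 4) v = mapSt σ n r0 r1 r3 v r5 r6 := by
  funext x
  simp only [mapSt, Function.update_apply]
  split_ifs <;> first | (exfalso; omega) | rfl

theorem mapSt_u5 : update (mapSt σ n r0 r1 r3 r4 r5 r6) (n + 5) v = mapSt σ n r0 r1 r3 r4 v r6 := by
  funext x
  simp only [mapSt, Function.update_apply]
  split_ifs <;> first | (exfalso; omega) | rfl

theorem mapSt_u6 : update (mapSt σ n r0 r1 r3 r4 r5 r6) (n + 6) v = mapSt σ n r0 r1 r3 r4 r5 v := by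
  funext x
  simp only [mapSt, Function.update_apply]
  split_ifs <;> first | (exfalso; omega) | rfl

theorem mapSt_r0 : mapSt σ n r0 r1 r3 r4 r5 r6 n = r0 := by simp [mapSt]

theorem mapSt_r1 : mapSt σ n r0 r1 r3 r4 r5 r6 (n + 1) = r1 := by simp [mapSt]

theorem mapSt_r3 : mapSt σ n r0 r1 r3 r4 r5 r6 (n + 3) = r3 := by simp [mapSt]

theorem mapSt_r4 : mapSt σ n r0 r1 r3 r4 r5 r6 (n + 4) = r4 := by simp [mapSt]

theorem mapSt_r5 : mapSt σ n r0 r1 r3 r4 r5 r6 (n + 5) = r5 := by simp [mapSt]

theorem mapSt_r6 : mapSt σ n r0 r1 r3 r4 r5 r6 (n + 6) = r6 := by simp [mapSt]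

theorem mapSt_other {x : ℕ} (h1 : x ≠ n) (h2 : x ≠ n + 1) (h3 : x ≠ n + 3) (h4 : x ≠ n + 4)
    (h5 : x ≠ n + 5) (h6 : x ≠ n + 6) : mapSt σ n r0 r1 r3 r4 r5 r6 x = σ x := by
  simp [mapSt, h1, h2, h3, h4, h5, h6]

theorem map_body {f : E} {y a : Val} (rest A : List Bool)
    (hf : ∀ {σ : Stk} {i d n : ℕ} {x : Val}, Ctx σ i d n x →
      Runs (comp f i d n) σ (update σ d (code (eval f x) ++ σ d)) (cost f x))
    (hemp : ∀ r, n ≤ r → σ r = []) :
    Runs (.seq (scan n (n + 1) (n + 2)) (.seq (mv (n + 1) (n + 4)) (.seq
          (copy (n + 3) (n + 4) (n + 1)) (.seq (.push (n + 4) true) (.seq (comp f (n + 4) (n + 5) (n + 8))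
            (.seq (drain (n + 4)) (.seq (.push (n + 6) true) (mv (n + 5) (n + 6)))))))))
      (mapSt σ n (code a ++ rest) [] (code y) [] [] A)
      (mapSt σ n rest [] (code y) [] [] ((code (eval f (node y a))).reverse ++ true :: A))
      (cost f (node y a) + 3 * size (eval f (node y a)) + 20 * size y + 20 * size a + 20) := by
  have s1 := scan_runs (r := n) (s := n + 1) (c := n + 2) (by omega) (by omega) (by omega) a
    (mapSt σ n (code a ++ rest) [] (code y) [] [] A) rest
    (by rw [mapSt_other (by omega) (by omega) (by omega) (by omega) (by omega) (by omega)]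
        exact hemp _ (by omega)) mapSt_r0
  simp only [mapSt_u0, mapSt_u1, mapSt_r1, List.append_nil] at s1
  have s2 := mv_runs (r := n + 1) (s := n + 4) (by omega)
    (mapSt σ n rest (code a).reverse (code y) [] [] A)
  simp only [mapSt_u1, mapSt_u4, mapSt_r1, mapSt_r4, List.append_nil, List.reverse_reverse] at s2
  have s3 := copy_runs (r := n + 3) (s := n + 4) (t := n + 1) (by omega) (by omega) (by omega)
    (mapSt σ n rest [] (code y) (code a) [] A) mapSt_r1
  simp only [mapSt_u4, mapSt_r3, mapSt_r4] at s3
  have s4 := Runs.push (n + 4) true (mapSt σ n rest [] (code y) (code y ++ code a) [] A)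
  simp only [mapSt_u4, mapSt_r4] at s4
  have s5 := hf (σ := mapSt σ n rest [] (code y) (true :: (code y ++ code a)) [] A) (i := n + 4)
    (d := n + 5) (n := n + 8) (x := node y a)
    ⟨by omega, by omega, by omega, fun r hr => by
      rw [mapSt_other (by omega) (by omega) (by omega) (by omega) (by omega) (by omega)]
      exact hemp _ (by omega), by rw [mapSt_r4]; rfl⟩
  simp only [mapSt_u5, mapSt_r5, List.append_nil] at s5
  have s6 := drain_runs (n + 4)
    (mapSt σ n rest [] (code y) (true :: (code y ++ code a)) (code (eval f (node y a))) A)
  simp only [mapSt_u4, mapSt_r4] at s6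
  have s7 := Runs.push (n + 6) true (mapSt σ n rest [] (code y) [] (code (eval f (node y a))) A)
  simp only [mapSt_u6, mapSt_r6] at s7
  have s8 := mv_runs (r := n + 5) (s := n + 6) (by omega)
    (mapSt σ n rest [] (code y) [] (code (eval f (node y a))) (true :: A))
  simp only [mapSt_u5, mapSt_u6, mapSt_r5, mapSt_r6] at s8
  refine (Runs.seq s1 (Runs.seq s2 (Runs.seq s3 (Runs.seq s4 (Runs.seq s5 (Runs.seq s6
    (Runs.seq s7 s8))))))).mono ?_
  simp only [List.length_reverse, length_code, List.length_cons, List.length_append]
  omega

theorem foldSt_map (g : Val → Val) (A : List Bool) (L : List Val) :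
    foldSt (fun (A : List Bool) a (_ : List Val) => (code (g a)).reverse ++ true :: A) A L =
      (cells (L.map g)).reverse ++ A := by
  induction L generalizing A with
  | nil => rfl
  | cons a L ih =>
    rw [foldSt, ih]
    simp [cells]

theorem mem_toL_size {a : Val} (v : Val) (h : a ∈ toL v) : size a ≤ size v := by
  induction v with
  | leaf => simp [toL] at h
  | node p q _ hq =>
    simp only [toL, List.mem_cons] at h
    simp only [size]
    rcases h with rfl | h
    · omega
    · have := hq h
      omega

theorem map_loop {f : E} {y l : Val}
    (hf : ∀ {σ : Stk} {i d n : ℕ} {x : Val}, Ctx σ i d n x →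
      Runs (comp f i d n) σ (update σ d (code (eval f x) ++ σ d)) (cost f x))
    (hemp : ∀ r, n ≤ r → σ r = []) :
    Runs (forL n (n + 7) (.seq (scan n (n + 1) (n + 2)) (.seq (mv (n + 1) (n + 4)) (.seq
          (copy (n + 3) (n + 4) (n + 1)) (.seq (.push (n + 4) true) (.seq (comp f (n + 4) (n + 5) (n + 8))
            (.seq (drain (n + 4)) (.seq (.push (n + 6) true) (mv (n + 5) (n + 6))))))))))
      (mapSt σ n (code l) [] (code y) [] [] [])
      (mapSt σ n [] [] (code y) [] [] (cells ((toL l).map fun a => eval f (node y a))).reverse)
      (((toL l).map fun a => cost f (node y a) + 3 * size (eval f (node y a)) +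
            60 * size (node y l) + 60).sum + 8) := by
  have hF := forL_runs (n := n) (g := n + 7) (by omega)
    (fun (A : List Bool) (L : List Val) => mapSt σ n (code (ofL L) ++ []) [] (code y) [] [] A)
    (fun (A : List Bool) a (_ : List Val) => (code (eval f (node y a))).reverse ++ true :: A) []
    (fun P => cost f (node y (P.headD leaf)) + 3 * size (eval f (node y (P.headD leaf))) +
      20 * size y + 20 * size (P.headD leaf) + 20) (fun A L => mapSt_r0) (by
      intro A L
      rw [mapSt_other (by omega) (by omega) (by omega) (by omega) (by omega) (by omega)]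
      exact hemp _ (by omega)) (by
      intro A a L
      rw [mapSt_u0, List.append_assoc]
      exact map_body _ A hf hemp) (toL l) []
  rw [foldSt_map, ofL_toL] at hF
  simp only [mapSt_u0, List.append_nil, ofL, code] at hF
  refine hF.mono ?_
  have hS : sumB (fun P => cost f (node y (P.headD leaf)) + 3 * size (eval f (node y (P.headD leaf))) +
      20 * size y + 20 * size (P.headD leaf) + 20 + 5) (toL l) ≤
      ((toL l).map fun a => cost f (node y a) + 3 * size (eval f (node y a)) +
        60 * size (node y l) + 60).sum := by
    apply sumB_le_sum
    intro a l' ha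
    have := mem_toL_size l ha
    simp only [List.headD_cons, size]
    omega
  omega

end

section

variable {σ : Stk} {i d n : ℕ} {x : Val}

theorem comp_map {f : E}
    (hf : ∀ {σ : Stk} {i d n : ℕ} {x : Val}, Ctx σ i d n x →
      Runs (comp f i d n) σ (update σ d (code (eval f x) ++ σ d)) (cost f x))
    (h : Ctx σ i d n x) :
    Runs (comp (.map f) i d n) σ (update σ d (code (eval (.map f) x) ++ σ d)) (cost (.map f) x) := by
  have h1 := h.hi
  have h2 := h.hd
  have e0 := ctx_emp h 0
  have e1 := ctx_emp h 1
  have e2 := ctx_emp h 2
  have e3 := ctx_emp h 3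
  have e4 := ctx_emp h 4
  have e5 := ctx_emp h 5
  have e6 := ctx_emp h 6
  simp only [add_zero] at e0
  have hA := copy_in h
  cases x with
  | leaf =>
    have e8 : update (update σ n (code leaf)) n [] = σ := by
      funext y
      simp only [Function.update_apply]
      split_ifs <;> simp_all
    have hB : Runs (.push d false) (update (update σ n (code leaf)) n [])
        (update σ d (code (eval (.map f) leaf) ++ σ d)) 1 := by
      rw [e8]
      exact Runs.push d false σ
    refine (Runs.seq hA (Runs.pop0 (l := []) (by simp [code]) hB)).mono ?_
    simp [cost, size]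
    omega
  | node y l =>
    have e8 : update σ n (code (node y l)) = mapSt σ n (code (node y l)) [] [] [] [] [] := by
      funext z
      simp only [mapSt, Function.update_apply]
      split_ifs <;> first | (exfalso; omega) | simp_all
    rw [e8] at hA
    have hmem : mapSt σ n (code (node y l)) [] [] [] [] [] n = true :: (code y ++ code l) := by
      rw [mapSt_r0]; rfl
    have h3 := scan_runs (r := n) (s := n + 1) (c := n + 2) (by omega) (by omega) (by omega) y
      (mapSt σ n (code y ++ code l) [] [] [] [] []) (code l)
      (by rw [mapSt_other (by omega) (by omega) (by omega) (by omega) (by omega) (by omega)]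
          exact e2) mapSt_r0
    simp only [mapSt_u0, mapSt_u1, mapSt_r1, List.append_nil] at h3
    have h4 := mv_runs (r := n + 1) (s := n + 3) (by omega)
      (mapSt σ n (code l) (code y).reverse [] [] [] [])
    simp only [mapSt_u1, mapSt_u3, mapSt_r1, mapSt_r3, List.append_nil, List.reverse_reverse] at h4
    have h5 := map_loop (f := f) (y := y) (l := l) hf h.emp
    have hd : ∀ r0 r1 r3 r4 r5 r6, mapSt σ n r0 r1 r3 r4 r5 r6 d = σ d := by
      intro r0 r1 r3 r4 r5 r6
      exact mapSt_other (by omega) (by omega) (by omega) (by omega) (by omega) (by omega)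
    have h6 := finish_runs (u := n + 6) (d := d) (by omega)
      (mapSt σ n [] [] (code y) [] [] (cells ((toL l).map fun a => eval f (node y a))).reverse)
      ((toL l).map fun a => eval f (node y a)) mapSt_r6
    simp only [mapSt_u6, hd] at h6
    have h7 := drain_runs (n + 3) (update (mapSt σ n [] [] (code y) [] [] [])
      d (code (ofL ((toL l).map fun a => eval f (node y a))) ++ σ d))
    have hB := Runs.pop1 (r := n) (s := mapSt σ n (code (node y l)) [] [] [] [] [])
      (l := code y ++ code l) (c0 := .push d false) (cE := .nop) hmem (by
        rw [mapSt_u0]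
        exact Runs.seq h3 (Runs.seq h4 (Runs.seq h5 (Runs.seq h6 h7))))
    refine (Runs.seq hA hB).cast ?_ ?_
    · clear hA hB h3 h4 h5 h6 h7 hf hmem e8 h
      funext z
      simp only [mapSt, Function.update_apply, eval, Val.fst, Val.snd]
      split_ifs <;> first | (exfalso; omega) | simp_all
    · have e9 : (update (mapSt σ n [] [] (code y) [] [] [])
          d (code (ofL ((toL l).map fun a => eval f (node y a))) ++ σ d)) (n + 3) = code y := by
        rw [Function.update_of_ne (by omega), mapSt_r3]
      rw [e9]
      simp only [List.length_reverse, length_code, cost, Val.fst, Val.snd, size]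
      omega

end

/-- The correctness of the compilation. -/
theorem comp_spec (e : E) : ∀ {σ : Stk} {i d n : ℕ} {x : Val}, Ctx σ i d n x →
    Runs (comp e i d n) σ (update σ d (code (eval e x) ++ σ d)) (cost e x) := by
  induction e with
  | id => exact comp_id
  | nil =>
    intro σ i d n x h
    exact Runs.push d false σ
  | fst => exact comp_fst
  | snd => exact comp_snd
  | eq => exact comp_eq
  | flat => exact comp_flat
  | zip => exact comp_zip
  | tails => exact comp_tails
  | bits => exact comp_bits
  | comp f g hf hg => exact comp_comp hf hg
  | pair a b ha hb => exact comp_pair ha hb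
  | ite c a b hc ha hb => exact comp_ite hc ha hb
  | map f hf => exact comp_map hf

end Vale.Agent.P310x
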