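import Vale.Agent.P310x.Lang

/-!
# Every term of the list language runs in polynomial time
-/

namespace Vale.Agent.P310x

open Function Val

/-- A function of values bounded by a polynomial in the size. -/
def PB (f : Val → ℕ) : Prop := ∃ d : ℕ, ∀ x, f x ≤ (size x + 2) ^ d

namespace PB

theorem mono {f g : Val → ℕ} (hg : PB g) (h : ∀ x, f x ≤ g x) : PB f := by
  obtain ⟨d, hd⟩ := hg
  exact ⟨d, fun x => (h x).trans (hd x)⟩

theorem const (c : ℕ) : PB fun _ => c := by
  refine ⟨c, fun x => ?_⟩
  calc c ≤ 2 ^ c := Nat.lt_two_pow_self.le
    _ ≤ (size x + 2) ^ c := Nat.pow_le_pow_left (by omega) _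

theorem size : PB Val.size := ⟨1, fun x => by simp⟩

theorem mul {f g : Val → ℕ} (hf : PB f) (hg : PB g) : PB fun x => f x * g x := by
  obtain ⟨d, hd⟩ := hf
  obtain ⟨e, he⟩ := hg
  refine ⟨d + e, fun x => ?_⟩
  rw [pow_add]
  exact Nat.mul_le_mul (hd x) (he x)

theorem add {f g : Val → ℕ} (hf : PB f) (hg : PB g) : PB fun x => f x + g x := by
  obtain ⟨d, hd⟩ := hf
  obtain ⟨e, he⟩ := hg
  refine ⟨max d e + 1, fun x => ?_⟩
  have h2 : 1 ≤ Val.size x + 2 := by omega
  have h3 : (Val.size x + 2) ^ d ≤ (Val.size x + 2) ^ max d e :=
    Nat.pow_le_pow_right h2 (le_max_left _ _)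
  have h4 : (Val.size x + 2) ^ e ≤ (Val.size x + 2) ^ max d e :=
    Nat.pow_le_pow_right h2 (le_max_right _ _)
  have h5 := hd x
  have h6 := he x
  rw [pow_succ]
  nlinarith

/-- Composition with a function of polynomial size. -/
theorem comp {f : Val → ℕ} {g : Val → Val} (hf : PB f) (hg : PB fun x => Val.size (g x)) :
    PB fun x => f (g x) := by
  obtain ⟨d, hd⟩ := hf
  obtain ⟨e, he⟩ := hg
  refine ⟨(e + 1) * d, fun x => ?_⟩
  refine (hd (g x)).trans ?_
  rw [pow_mul]
  refine Nat.pow_le_pow_left ?_ _
  have h5 : Val.size (g x) ≤ (Val.size x + 2) ^ e := he x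
  have h2 : 3 ≤ Val.size x + 2 := by have := size_pos x; omega
  have h3 : 1 ≤ (Val.size x + 2) ^ e := Nat.one_le_pow _ _ (by omega)
  rw [pow_succ]
  have h4 : (Val.size x + 2) ^ e * 3 ≤ (Val.size x + 2) ^ e * (Val.size x + 2) :=
    Nat.mul_le_mul_left _ h2
  omega

/-- Sums over the elements of a list of polynomial length. -/
theorem sum_le {g : Val → Val → ℕ} {L : Val → List Val} (hL : PB fun x => (L x).length)
    {B : Val → ℕ} (hB : PB B) (h : ∀ x, ∀ a ∈ L x, g x a ≤ B x) :
    PB fun x => ((L x).map (g x)).sum := by
  refine (hL.mul hB).mono fun x => ?_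
  have := List.sum_le_card_nsmul ((L x).map (g x)) (B x) (by
    intro z hz
    obtain ⟨a, ha, rfl⟩ := List.mem_map.1 hz
    exact h x a ha)
  simpa using this

end PB

theorem length_toL_le (x : Val) : (toL x).length ≤ size x := by
  induction x with
  | leaf => simp [toL]
  | node a b _ hb =>
    simp only [toL, List.length_cons, Val.size]
    omega

theorem size_fst_le' (x : Val) : size x.fst ≤ size x := by
  cases x <;> simp [Val.fst, size]; omega

theorem size_snd_le' (x : Val) : size x.snd ≤ size x := by
  cases x <;> simp [Val.snd, size]; omega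

theorem size_ofL (L : List Val) : size (ofL L) = (L.map fun a => size a + 1).sum + 1 := by
  induction L with
  | nil => rfl
  | cons a l h =>
    simp only [ofL, size, h, List.map_cons, List.sum_cons]
    omega

theorem size_flat (L : List Val) : size (ofL (L.flatMap toL)) ≤ size (ofL L) := by
  induction L with
  | nil => simp [ofL]
  | cons a l h =>
    have h1 : ∀ (P Q : List Val), size (ofL (P ++ Q)) + 1 = size (ofL P) + size (ofL Q) := by
      intro P Q
      rw [size_ofL, size_ofL, size_ofL]
      simp
      omega
    have h2 := h1 (toL a) (l.flatMap toL)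
    simp only [List.flatMap_cons, ofL, size, ofL_toL] at h2 ⊢
    have h3 : size (ofL (toL a)) = size a := by rw [ofL_toL]
    omega

theorem size_zip (la lb : List Val) :
    size (ofL ((la.zip lb).map fun p => node p.1 p.2)) ≤ size (ofL la) + size (ofL lb) := by
  induction la generalizing lb with
  | nil => simp [ofL, size]
  | cons a l h =>
    cases lb with
    | nil => simp [ofL, size]
    | cons b m =>
      have := h m
      simp only [List.zip_cons_cons, List.map_cons, ofL, size]
      omega

theorem size_tails (x : Val) : size (ofL (tailsV x)) ≤ (size x + 1) * (size x + 1) := by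
  induction x with
  | leaf => simp [tailsV, ofL, size]
  | node a b _ hb =>
    simp only [tailsV, ofL, size]
    nlinarith [size_pos a, size_pos b]

theorem size_bits (l : List Bool) : size (ofL (l.map ofB)) ≤ 5 * l.length + 1 := by
  induction l with
  | nil => simp [ofL, size]
  | cons b l h =>
    have : size (ofB b) ≤ 3 := by
      cases b <;> simp [ofB, size]
    simp only [List.map_cons, ofL, size, List.length_cons]
    omega

theorem node_size_le {x a : Val} (h : a ∈ toL x.snd) : size (node x.fst a) ≤ size x := by
  cases x with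
  | leaf => simp [Val.snd, toL] at h
  | node y l =>
    simp only [Val.snd] at h
    have := mem_toL_size' l h
    simp only [Val.fst, size]
    omega
where
  mem_toL_size' {a : Val} (v : Val) (h : a ∈ toL v) : size a ≤ size v := by
    induction v with
    | leaf => simp [toL] at h
    | node p q _ hq =>
      simp only [toL, List.mem_cons] at h
      simp only [size]
      rcases h with rfl | h
      · omega
      · have := hq h
        omega

/-- Every term runs in polynomial time, with output of polynomial size. -/
theorem poly_term (e : E) : PB (fun x => size (eval e x)) ∧ PB (cost e) := by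
  induction e with
  | id =>
    refine ⟨PB.size, ?_⟩
    exact ((PB.const 7).mul PB.size |>.add (PB.const 4))
  | nil => exact ⟨PB.const 1, PB.const 1⟩
  | fst =>
    refine ⟨PB.size.mono size_fst_le', ?_⟩
    exact ((PB.const 30).mul PB.size |>.add (PB.const 30))
  | snd =>
    refine ⟨PB.size.mono size_snd_le', ?_⟩
    exact ((PB.const 30).mul PB.size |>.add (PB.const 30))
  | eq =>
    refine ⟨(PB.const 3).mono fun x => ?_, ?_⟩
    · simp only [eval]
      cases decide (x.fst = x.snd) <;> simp [ofB, size]
    · exact ((PB.const 50).mul PB.size |>.add (PB.const 50))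
  | flat =>
    have h1 : PB fun x => size (eval .flat x) := PB.size.mono fun x => by
      have := size_flat (toL x)
      rwa [ofL_toL] at this
    refine ⟨h1, ?_⟩
    exact ((PB.const 60).mul PB.size |>.add (PB.const 30)).add ((PB.const 3).mul h1)
  | zip =>
    have h1 : PB fun x => size (eval .zip x) := by
      refine (PB.size.add PB.size).mono fun x => ?_
      have := size_zip (toL x.fst) (toL x.snd)
      rw [ofL_toL, ofL_toL] at this
      have h2 := size_fst_le' x
      have h3 := size_snd_le' x
      simp only [eval]
      omega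
    refine ⟨h1, ?_⟩
    exact ((PB.const 60).mul PB.size |>.add (PB.const 60)).add ((PB.const 3).mul h1)
  | tails =>
    have h1 : PB fun x => size (eval .tails x) :=
      ((PB.size.add (PB.const 1)).mul (PB.size.add (PB.const 1))).mono size_tails
    refine ⟨h1, ?_⟩
    exact (((PB.const 60).mul PB.size).mul PB.size |>.add (PB.const 60)).add ((PB.const 3).mul h1)
  | bits =>
    have h1 : PB fun x => size (eval .bits x) := by
      refine (((PB.const 5).mul PB.size).add (PB.const 1)).mono fun x => ?_
      have := size_bits (code x)
      simpa [eval] using this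
    refine ⟨h1, ?_⟩
    exact ((PB.const 30).mul PB.size |>.add (PB.const 30)).add ((PB.const 3).mul h1)
  | comp f g hf hg =>
    have h1 : PB fun x => size (eval (.comp f g) x) := hf.1.comp hg.1
    refine ⟨h1, ?_⟩
    exact (((hg.2.add (hf.2.comp hg.1)).add ((PB.const 3).mul hg.1)).add (PB.const 2))
  | pair a b ha hb =>
    refine ⟨((ha.1.add hb.1).add (PB.const 1)), ?_⟩
    exact (ha.2.add hb.2).add (PB.const 1)
  | ite c a b hc ha hb =>
    refine ⟨(ha.1.add hb.1).mono fun x => ?_, ?_⟩
    · simp only [eval]
      split_ifs <;> omega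
    · refine (((hc.2.add ((PB.const 3).mul hc.1)).add (PB.const 4)).add (ha.2.add hb.2)).mono fun x => ?_
      simp only [cost]
      split_ifs <;> omega
  | map f hf =>
    have hL : PB fun x => (toL x.snd).length :=
      PB.size.mono fun x => (length_toL_le _).trans (size_snd_le' x)
    obtain ⟨d, hd⟩ := hf.1
    obtain ⟨d', hd'⟩ := hf.2
    have hB : PB fun x => (size x + 2) ^ d := ⟨d, fun x => le_rfl⟩
    have hB' : PB fun x => (size x + 2) ^ d' := ⟨d', fun x => le_rfl⟩
    have hsz : ∀ x, ∀ a ∈ toL x.snd, size (eval f (node x.fst a)) ≤ (size x + 2) ^ d := by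
      intro x a ha
      refine (hd _).trans (Nat.pow_le_pow_left ?_ _)
      have := node_size_le ha
      omega
    have hcs : ∀ x, ∀ a ∈ toL x.snd, cost f (node x.fst a) ≤ (size x + 2) ^ d' := by
      intro x a ha
      refine (hd' _).trans (Nat.pow_le_pow_left ?_ _)
      have := node_size_le ha
      omega
    have h1 : PB fun x => size (eval (.map f) x) := by
      have h2 := PB.sum_le (g := fun x a => size (eval f (node x.fst a)) + 1) hL
        (hB.add (PB.const 1)) (fun x a ha => by have := hsz x a ha; omega)
      refine (h2.add (PB.const 1)).mono fun x => ?_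
      simp only [eval, size_ofL, List.map_map]
      exact le_of_eq (by rfl)
    refine ⟨h1, ?_⟩
    have h3 := PB.sum_le (g := fun x a => cost f (node x.fst a) + 3 * size (eval f (node x.fst a)) +
        60 * size x + 60) hL
      (((hB'.add ((PB.const 3).mul hB)).add ((PB.const 60).mul PB.size)).add (PB.const 60))
      (fun x a ha => by
        have h4 := hsz x a ha
        have h5 := hcs x a ha
        omega)
    refine ((((PB.const 60).mul PB.size).add (PB.const 60)).add ((PB.const 3).mul h1)).add h3 |>.mono ?_
    intro x
    simp only [cost, eval]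
    exact le_rfl

end Vale.Agent.P310x
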