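import Vale.Agent.P310x.Frag
import Vale.Agent.P310x.Comp2
import Vale.Agent.P310x.Poly

/-!
# A stack program followed by a Turing machine

From a stack program `c` and a machine `A`, the machine `compose A c N`: it first moves the head of its
input tape to the end of the input, then runs `c` (stack `0` is the input tape, stack `1` is the
input tape of `A`), then moves the head of stack `1` back to position `0` and runs `A`.
-/

namespace Vale.Agent.P310x

open Function

open scoped Classical

namespace TM

variable {M : TM}

/-- A configuration from a state and a tape state. -/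
def mkC (M : TM) (q : M.St) (ts : TS M.Tp M.Sym) : M.Cfg := ⟨q, ts.head, ts.tape⟩

theorem step_mkC {q : M.St} (h1 : q ≠ M.acc) (h2 : q ≠ M.rej) (ts : TS M.Tp M.Sym) :
    Cfg.step (mkC M q ts) =
      mkC M (M.next q ts.read).1 (ts.act ((M.next q ts.read).2.1, (M.next q ts.read).2.2)) := by
  have : ¬ (q = M.acc ∨ q = M.rej) := by tauto
  simp only [Cfg.step, mkC, this, if_false]
  rfl

end TM

open TM

/-- The tape of a stack. -/
noncomputable def regMap (A : TM) (N : ℕ) : ℕ → Fin (N + 2) ⊕ A.Tp := fun r =>
  if r = 1 then Sum.inr A.input else if h : r < N + 2 then Sum.inl ⟨r, h⟩ else Sum.inl 0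

theorem regMap_inj (A : TM) (N : ℕ) (r r' : ℕ) (h1 : r < N + 2) (h2 : r' < N + 2)
    (e : regMap A N r = regMap A N r') : r = r' := by
  unfold regMap at e
  by_cases h3 : r = 1
  · by_cases h4 : r' = 1
    · omega
    · simp [h3, h4, h2] at e
  · by_cases h4 : r' = 1
    · simp [h3, h4, h1] at e
    · simp only [h3, h4, h1, h2, if_false, dif_pos, Sum.inl.injEq, Fin.mk.injEq] at e
      exact e

/-- The states of the composed machine. -/
abbrev DSt (A : TM) (c : Cmd) : Type := Unit ⊕ (CSt c ⊕ (Bool ⊕ A.St))

/-- The tapes of the composed machine. -/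
abbrev DTp (A : TM) (N : ℕ) : Type := Fin (N + 2) ⊕ A.Tp

/-- The transitions of the composed machine. -/
noncomputable def dNext (A : TM) (c : Cmd) (N : ℕ) :
    DSt A c → (DTp A N → A.Sym) → DSt A c × (DTp A N → A.Sym) × (DTp A N → Dir) := fun q s => match q with
  | Sum.inl () =>
    if s (regMap A N 0) = A.blank then (Sum.inr (Sum.inl (entry c)), s, fun _ => .stay)
    else (Sum.inl (), single (regMap A N 0) (s (regMap A N 0)) .right s)
  | Sum.inr (Sum.inl q) =>
    ((fstep (regMap A N) A.blank A.zero A.one c q s).2.elim (Sum.inr (Sum.inr (Sum.inl false)))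
        (fun q' => Sum.inr (Sum.inl q')), (fstep (regMap A N) A.blank A.zero A.one c q s).1)
  | Sum.inr (Sum.inr (Sum.inl false)) =>
    (Sum.inr (Sum.inr (Sum.inl true)), single (regMap A N 1) (s (regMap A N 1)) .left s)
  | Sum.inr (Sum.inr (Sum.inl true)) =>
    if s (regMap A N 1) = A.blank then
      (Sum.inr (Sum.inr (Sum.inr A.start)), single (regMap A N 1) (s (regMap A N 1)) .right s)
    else (Sum.inr (Sum.inr (Sum.inl true)), single (regMap A N 1) (s (regMap A N 1)) .left s)
  | Sum.inr (Sum.inr (Sum.inr q)) =>
    (Sum.inr (Sum.inr (Sum.inr (A.next q fun t => s (Sum.inr t)).1)),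
      Sum.elim (fun i => s (Sum.inl i)) (A.next q fun t => s (Sum.inr t)).2.1,
      Sum.elim (fun _ => .stay) (A.next q fun t => s (Sum.inr t)).2.2)

/-- The machine that runs a stack program and then `A`. -/
noncomputable def compose (A : TM) (c : Cmd) (N : ℕ) : TM where
  Tp := DTp A N
  St := DSt A c
  Sym := A.Sym
  finTp := by
    have := A.finTp
    infer_instance
  finSt := by
    have := A.finSt
    have := finite_CSt c
    infer_instance
  finSym := A.finSym
  input := regMap A N 0
  blank := A.blank
  zero := A.zero
  one := A.one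
  zero_ne_one := A.zero_ne_one
  zero_ne_blank := A.zero_ne_blank
  one_ne_blank := A.one_ne_blank
  start := Sum.inl ()
  acc := Sum.inr (Sum.inr (Sum.inr A.acc))
  rej := Sum.inr (Sum.inr (Sum.inr A.rej))
  acc_ne_rej := by
    simpa using A.acc_ne_rej
  next := dNext A c N

section

variable {A : TM} {c : Cmd} {N : ℕ}

/-- The tape state of the composed machine. -/
abbrev DTS (A : TM) (N : ℕ) : Type := TS (Fin (N + 2) ⊕ A.Tp) A.Sym

/-- A configuration of the composed machine during the run of `A`. -/
def liftCfg (fr : (Fin (N + 2) → ℤ) × (Fin (N + 2) → ℤ → A.Sym)) (x : A.Cfg) :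
    (compose A c N).Cfg where
  st := Sum.inr (Sum.inr (Sum.inr x.st))
  head := Sum.elim fr.1 x.head
  tape := Sum.elim fr.2 x.tape

theorem step_liftCfg (fr : (Fin (N + 2) → ℤ) × (Fin (N + 2) → ℤ → A.Sym)) (x : A.Cfg) :
    Cfg.step (liftCfg (c := c) fr x) = liftCfg fr (Cfg.step x) := by
  by_cases h : x.st = A.acc ∨ x.st = A.rej
  · have h' : (liftCfg (c := c) fr x).st = (compose A c N).acc ∨
        (liftCfg (c := c) fr x).st = (compose A c N).rej := by
      rcases h with h | h
      · left
        simp [liftCfg, h, compose]
      · right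
        simp [liftCfg, h, compose]
    simp only [Cfg.step, h, h', if_true]
  · have h' : ¬ ((liftCfg (c := c) fr x).st = (compose A c N).acc ∨
        (liftCfg (c := c) fr x).st = (compose A c N).rej) := by
      simpa [liftCfg, compose] using h
    simp only [Cfg.step, h, h', if_false]
    refine Cfg.ext ?_ ?_ ?_
    · rfl
    · funext t
      rcases t with i | t
      · show fr.1 i + (Dir.stay).toInt = fr.1 i
        simp [Dir.toInt]
      · rfl
    · funext t
      rcases t with i | t
      · show update (fr.2 i) (fr.1 i) (fr.2 i (fr.1 i)) = fr.2 i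
        simp
      · rfl

theorem run_liftCfg (fr : (Fin (N + 2) → ℤ) × (Fin (N + 2) → ℤ → A.Sym)) (x : A.Cfg) (s : ℕ) :
    Cfg.step^[s] (liftCfg (c := c) fr x) = liftCfg fr (Cfg.step^[s] x) := by
  induction s generalizing x with
  | zero => rfl
  | succ s ih =>
    rw [Function.iterate_succ_apply, Function.iterate_succ_apply, step_liftCfg, ih]

/-- A configuration of the composed machine. -/
def mkD (A : TM) (c : Cmd) (N : ℕ) (q : DSt A c) (ts : DTS A N) : (compose A c N).Cfg :=
  ⟨q, ts.head, ts.tape⟩

/-- One step of the composed machine, outside the halting states. -/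
theorem step_mkD {q : DSt A c} (h1 : ∀ a, q ≠ Sum.inr (Sum.inr (Sum.inr a))) (ts : DTS A N) :
    Cfg.step (mkD A c N q ts) =
      mkD A c N (dNext A c N q ts.read).1
        (ts.act ((dNext A c N q ts.read).2.1, (dNext A c N q ts.read).2.2)) :=
  step_mkC (M := compose A c N) (q := q) (h1 _) (h1 _) ts

theorem step_frag (q : CSt c) (ts : DTS A N) :
    Cfg.step (mkD A c N (Sum.inr (Sum.inl q)) ts) =
      mkD A c N
        ((fstep (regMap A N) A.blank A.zero A.one c q ts.read).2.elim (Sum.inr (Sum.inr (Sum.inl false)))
          (fun q' => Sum.inr (Sum.inl q')))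
        (ts.act (fstep (regMap A N) A.blank A.zero A.one c q ts.read).1) :=
  step_mkD (by simp) ts

/-- The run of the control unit inside the composed machine. -/
theorem run_reach {q : CSt c} {ts ts' : DTS A N} {t : ℕ}
    (h : Reach (regMap A N) A.blank A.zero A.one c q ts ts' t) :
    Cfg.step^[t] (mkD A c N (Sum.inr (Sum.inl q)) ts) =
      mkD A c N (Sum.inr (Sum.inr (Sum.inl false))) ts' := by
  induction h with
  | @done q ts e =>
    rw [Function.iterate_one, step_frag, e]
    rfl
  | @next q q' ts _ _ e _ ih =>
    rw [Function.iterate_succ_apply, step_frag, e]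
    exact ih

/-- The tape state at the start. -/
noncomputable def ts0 (A : TM) (N : ℕ) (x : List Bool) : DTS A N :=
  ⟨fun _ => 0, fun t p => if t = regMap A N 0 ∧ 0 ≤ p ∧ p < x.length then
    (if x.getD p.toNat false = true then A.one else A.zero) else A.blank⟩

theorem init_eq (x : List Bool) :
    (compose A c N).init x = mkD A c N (Sum.inl ()) (ts0 A N x) := by
  refine Cfg.ext rfl rfl ?_
  funext t p
  by_cases h : (t = regMap A N 0 ∧ 0 ≤ p ∧ p < (x.length : ℤ))
  · refine (if_pos h).trans ?_
    refine Eq.trans ?_ (if_pos h).symm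
    rfl
  · refine (if_neg h).trans ?_
    refine Eq.trans ?_ (if_neg h).symm
    rfl

/-- The tape state while the head moves to the end of the input. -/
noncomputable def tsSeek (A : TM) (N : ℕ) (x : List Bool) (j : ℕ) : DTS A N :=
  (ts0 A N x).setHead (regMap A N 0) (j : ℤ)

theorem tsSeek_zero (x : List Bool) : tsSeek A N x 0 = ts0 A N x := by
  ext t
  · simp [tsSeek, ts0, TS.setHead, Function.update_apply]
  · rfl

theorem tsSeek_read_lt (x : List Bool) (j : ℕ) (h : j < x.length) :
    (tsSeek A N x j).read (regMap A N 0) ≠ A.blank := by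
  have e : (tsSeek A N x j).read (regMap A N 0) =
      if x.getD j false = true then A.one else A.zero := by
    simp only [tsSeek, TS.setHead_read_self, ts0]
    rw [if_pos ⟨trivial, by omega, by omega⟩]
    simp
  rw [e]
  split_ifs
  · exact A.one_ne_blank
  · exact A.zero_ne_blank

theorem tsSeek_read_end (x : List Bool) :
    (tsSeek A N x x.length).read (regMap A N 0) = A.blank := by
  simp only [tsSeek, TS.setHead_read_self, ts0]
  rw [if_neg (by omega)]

theorem seek_step (x : List Bool) (j : ℕ) (h : j < x.length) :
    Cfg.step (mkD A c N (Sum.inl ()) (tsSeek A N x j)) =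
      mkD A c N (Sum.inl ()) (tsSeek A N x (j + 1)) := by
  rw [step_mkD (by simp)]
  have h1 := tsSeek_read_lt (A := A) (N := N) x j h
  have e : dNext A c N (Sum.inl ()) (tsSeek A N x j).read =
      (Sum.inl (), single (regMap A N 0) ((tsSeek A N x j).read (regMap A N 0)) .right
        (tsSeek A N x j).read) := by
    show (if (tsSeek A N x j).read (regMap A N 0) = A.blank then _ else _) = _
    rw [if_neg h1]
  rw [e]
  simp only [Prod.mk.eta]
  rw [right_act]
  simp [tsSeek]

theorem seek_end (x : List Bool) :
    Cfg.step (mkD A c N (Sum.inl ()) (tsSeek A N x x.length)) =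
      mkD A c N (Sum.inr (Sum.inl (entry c))) (tsSeek A N x x.length) := by
  rw [step_mkD (by simp)]
  have h1 := tsSeek_read_end (A := A) (N := N) x
  have e : dNext A c N (Sum.inl ()) (tsSeek A N x x.length).read =
      (Sum.inr (Sum.inl (entry c)), (tsSeek A N x x.length).read, fun _ => .stay) := by
    show (if (tsSeek A N x x.length).read (regMap A N 0) = A.blank then _ else _) = _
    rw [if_pos h1]
  rw [e]
  congr 1
  ext t
  · simp [TS.act, Dir.toInt]
  · simp [TS.act, TS.read]

theorem seek_run (x : List Bool) (j : ℕ) (h : j ≤ x.length) :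
    Cfg.step^[j] ((compose A c N).init x) = mkD A c N (Sum.inl ()) (tsSeek A N x j) := by
  induction j with
  | zero =>
    show (compose A c N).init x = _
    rw [tsSeek_zero, init_eq]
  | succ j ih =>
    rw [Function.iterate_succ_apply', ih (by omega), seek_step x j (by omega)]

/-- After `|x| + 1` steps the control unit starts. -/
theorem seek_full (x : List Bool) :
    Cfg.step^[x.length + 1] ((compose A c N).init x) =
      mkD A c N (Sum.inr (Sum.inl (entry c))) (tsSeek A N x x.length) := by
  rw [Function.iterate_succ_apply', seek_run x _ le_rfl, seek_end]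

/-- The stacks at the start of the control unit. -/
def startStk (x : List Bool) : Stk := update (fun _ => []) 0 x.reverse

theorem rep_start (x : List Bool) :
    Rep (regMap A N) A.blank A.zero A.one (N + 2) (startStk x) (tsSeek A N x x.length) := by
  constructor
  · intro r hr
    funext p
    by_cases h0 : r = 0
    · subst h0
      show (ts0 A N x).tape (regMap A N 0) p = repT A.zero A.one A.blank (startStk x 0) p
      simp only [ts0, startStk, Function.update_self, repT, List.length_reverse,
        List.reverse_reverse, true_and, bsym]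
    · have h1 : regMap A N r ≠ regMap A N 0 := fun e => h0 (regMap_inj A N _ _ hr (by omega) e)
      show (ts0 A N x).tape (regMap A N r) p = repT A.zero A.one A.blank (startStk x r) p
      simp only [ts0]
      rw [if_neg (fun h => h1 h.1)]
      simp [repT, startStk, Function.update_of_ne h0]
  · intro r hr
    by_cases h0 : r = 0
    · subst h0
      simp [tsSeek, startStk]
    · have h1 : regMap A N r ≠ regMap A N 0 := fun e => h0 (regMap_inj A N _ _ hr (by omega) e)
      rw [tsSeek, TS.setHead_head_ne _ _ h1]
      simp [ts0, startStk, Function.update_of_ne h0]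

/-- The tape state after the move back. -/
noncomputable def tsBack (ts : DTS A N) : DTS A N := ts.setHead (regMap A N 1) 0

theorem rew_run {ts : DTS A N} {y : List Bool}
    (ht : ts.tape (regMap A N 1) = repT A.zero A.one A.blank y.reverse)
    (hh : ts.head (regMap A N 1) = (y.length : ℤ)) :
    Cfg.step^[y.length + 2] (mkD A c N (Sum.inr (Sum.inr (Sum.inl false))) ts) =
      mkD A c N (Sum.inr (Sum.inr (Sum.inr A.start))) (tsBack ts) := by
  -- the states while moving left
  let tsJ : ℤ → DTS A N := fun j => ts.setHead (regMap A N 1) j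
  have hs0 : Cfg.step (mkD A c N (Sum.inr (Sum.inr (Sum.inl false))) ts) =
      mkD A c N (Sum.inr (Sum.inr (Sum.inl true))) (tsJ ((y.length : ℤ) - 1)) := by
    rw [step_mkD (by simp)]
    show mkD A c N (Sum.inr (Sum.inr (Sum.inl true))) (ts.act
      (single (regMap A N 1) (ts.read (regMap A N 1)) .left ts.read)) = _
    rw [left_act, hh]
  have hs1 : ∀ j : ℤ, 0 ≤ j → j < y.length →
      Cfg.step (mkD A c N (Sum.inr (Sum.inr (Sum.inl true))) (tsJ j)) =
      mkD A c N (Sum.inr (Sum.inr (Sum.inl true))) (tsJ (j - 1)) := by
    intro j hj1 hj2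
    rw [step_mkD (by simp)]
    have hb : (tsJ j).read (regMap A N 1) ≠ A.blank := by
      simp only [tsJ, TS.setHead_read_self, ht, repT, List.length_reverse]
      rw [if_pos ⟨hj1, hj2⟩]
      unfold bsym
      split_ifs
      · exact A.one_ne_blank
      · exact A.zero_ne_blank
    have e : dNext A c N (Sum.inr (Sum.inr (Sum.inl true))) (tsJ j).read =
        (Sum.inr (Sum.inr (Sum.inl true)), single (regMap A N 1) ((tsJ j).read (regMap A N 1)) .left (tsJ j).read) := by
      show (if (tsJ j).read (regMap A N 1) = A.blank then _ else _) = _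
      rw [if_neg hb]
    rw [e]
    simp only [Prod.mk.eta]
    rw [left_act]
    simp [tsJ]
  have hs2 : Cfg.step (mkD A c N (Sum.inr (Sum.inr (Sum.inl true))) (tsJ (-1))) =
      mkD A c N (Sum.inr (Sum.inr (Sum.inr A.start))) (tsBack ts) := by
    rw [step_mkD (by simp)]
    have hb : (tsJ (-1)).read (regMap A N 1) = A.blank := by
      simp only [tsJ, TS.setHead_read_self, ht]
      exact repT_neg _
    have e : dNext A c N (Sum.inr (Sum.inr (Sum.inl true))) (tsJ (-1)).read =
        (Sum.inr (Sum.inr (Sum.inr A.start)), single (regMap A N 1) ((tsJ (-1)).read (regMap A N 1)) .right (tsJ (-1)).read) := by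
      show (if (tsJ (-1)).read (regMap A N 1) = A.blank then _ else _) = _
      rw [if_pos hb]
    rw [e]
    simp only [Prod.mk.eta]
    rw [right_act]
    simp [tsJ, tsBack]
  have hs3 : ∀ k : ℕ, k ≤ y.length →
      Cfg.step^[k] (mkD A c N (Sum.inr (Sum.inr (Sum.inl true))) (tsJ ((y.length : ℤ) - 1))) =
        mkD A c N (Sum.inr (Sum.inr (Sum.inl true))) (tsJ ((y.length : ℤ) - 1 - k)) := by
    intro k
    induction k with
    | zero => intro _; simp
    | succ k ih =>
      intro hk
      rw [Function.iterate_succ_apply', ih (by omega), hs1 _ (by omega) (by omega)]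
      congr 2
      push_cast
      ring
  have e1 : y.length + 2 = (y.length + 1) + 1 := by omega
  rw [e1, Function.iterate_succ_apply, hs0, Function.iterate_succ_apply', hs3 _ le_rfl]
  have e2 : (y.length : ℤ) - 1 - y.length = -1 := by ring
  rw [e2, hs2]

/-- The configuration when `A` starts. -/
theorem start_eq {ts' : DTS A N} {y : List Bool}
    (ht : ts'.tape (regMap A N 1) = repT A.zero A.one A.blank y.reverse)
    (x : List Bool) (hf : Fr (regMap A N) (N + 2) (tsSeek A N x x.length) ts') :
    mkD A c N (Sum.inr (Sum.inr (Sum.inr A.start))) (tsBack ts') =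
      liftCfg (c := c) (fun i => ts'.head (Sum.inl i), fun i => ts'.tape (Sum.inl i)) (A.init y) := by
  have hρ1 : regMap A N 1 = Sum.inr A.input := by simp [regMap]
  have hout : ∀ t : A.Tp, t ≠ A.input → ∀ r, r < N + 2 → regMap A N r ≠ Sum.inr t := by
    intro t ht r _ e
    unfold regMap at e
    split_ifs at e
    · exact ht (Sum.inr.inj e).symm
  refine Cfg.ext rfl ?_ ?_
  · funext t
    rcases t with i | t
    · have : (Sum.inl i : DTp A N) ≠ regMap A N 1 := by rw [hρ1]; simp
      show (tsBack ts').head (Sum.inl i) = ts'.head (Sum.inl i)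
      rw [tsBack, TS.setHead_head_ne _ _ this]
    · by_cases h : t = A.input
      · subst h
        show (tsBack ts').head (Sum.inr A.input) = 0
        rw [tsBack, ← hρ1, TS.setHead_head_self]
      · have h1 : (Sum.inr t : DTp A N) ≠ regMap A N 1 := by
          rw [hρ1]
          simpa using h
        show (tsBack ts').head (Sum.inr t) = 0
        rw [tsBack, TS.setHead_head_ne _ _ h1, (hf _ (hout t h)).1]
        have h2 : (Sum.inr t : DTp A N) ≠ regMap A N 0 := by
          have := hout t h 0 (by omega)
          exact fun e => this e.symm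
        rw [tsSeek, TS.setHead_head_ne _ _ h2]
        rfl
  · funext t
    rcases t with i | t
    · rfl
    · funext p
      by_cases h : t = A.input
      · subst h
        show ts'.tape (Sum.inr A.input) p = _
        rw [← hρ1, ht]
        simp only [repT, List.length_reverse, List.reverse_reverse, bsym]
        by_cases h2 : 0 ≤ p ∧ p < (y.length : ℤ)
        · rw [if_pos h2]
          exact (if_pos ⟨rfl, h2⟩).symm
        · rw [if_neg h2]
          refine (if_neg ?_).symm
          exact fun h3 => h2 h3.2
      · show ts'.tape (Sum.inr t) p = _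
        rw [(hf _ (hout t h)).2]
        have h2 : (Sum.inr t : DTp A N) ≠ regMap A N 0 := by
          have := hout t h 0 (by omega)
          exact fun e => this e.symm
        have e1 : (tsSeek A N x x.length).tape (Sum.inr t) p = A.blank := by
          simp only [tsSeek, TS.setHead_tape, ts0]
          exact if_neg (fun h3 => h2 h3.1)
        rw [e1]
        exact (if_neg (fun h3 => h h3.1)).symm

/-- The run of the composed machine: after the stack program, which leaves `y` on stack `1`, it runs
like `A` on `y`. -/
theorem compose_run {x y : List Bool} {σ1 : Stk} {t : ℕ} (hreg : regsLt (N + 2) c)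
    (hrun : Run c (startStk x) σ1 t) (hy : σ1 1 = y.reverse) :
    ∃ fr, ∀ s, (compose A c N).run x (s + (y.length + 2 + (t + (x.length + 1)))) =
      liftCfg (c := c) fr (A.run y s) := by
  obtain ⟨ts', h1, h2, h3⟩ := sim (ρ := regMap A N) (blank := A.blank) (zero := A.zero) (one := A.one)
    (N := N + 2) A.zero_ne_one A.zero_ne_blank A.one_ne_blank (regMap_inj A N) hrun hreg _
    (rep_start (A := A) (N := N) x)
  refine ⟨(fun i => ts'.head (Sum.inl i), fun i => ts'.tape (Sum.inl i)), fun s => ?_⟩
  have hρ1 : regMap A N 1 = Sum.inr A.input := by simp [regMap]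
  have ht : ts'.tape (regMap A N 1) = repT A.zero A.one A.blank y.reverse := by
    rw [h2.tape 1 (by omega), hy]
  have hh : ts'.head (regMap A N 1) = (y.length : ℤ) := by
    rw [h2.head 1 (by omega), hy]
    simp
  have e1 := seek_full (A := A) (c := c) (N := N) x
  have e2 := run_reach h1
  have e3 := rew_run (c := c) ht hh
  have e4 := start_eq (c := c) ht x h3
  unfold TM.run
  rw [Function.iterate_add_apply _ s, Function.iterate_add_apply _ (y.length + 2),
    Function.iterate_add_apply _ t, e1, e2, e3, e4, run_liftCfg]

end

/-! ### The top level stack program -/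

/-- Unpack one truth value. -/
def unpackBody : Cmd :=
  .pop 3 (.push 1 false) (.seq (.pop 3 .nop .nop .nop) (.seq (.pop 3 .nop .nop .nop) (.push 1 true))) .nop

/-- The stack program of a term: turn the input on stack `0` over to stack `2`, run the term, and
unpack the result, a list of truth values, to stack `1`. -/
def topCmd (e : E) : Cmd := .seq (mv 0 2) (.seq (comp e 2 3 4) (forL 3 4 unpackBody))

theorem regsLt_mono {N M : ℕ} (h : N ≤ M) (c : Cmd) : regsLt N c → regsLt M c := by
  induction c with
  | nop => exact fun _ => trivial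
  | push r b => exact fun h1 => lt_of_lt_of_le h1 h
  | pop r c0 c1 cE h0 h1 hE =>
    exact fun h2 => ⟨lt_of_lt_of_le h2.1 h, h0 h2.2.1, h1 h2.2.2.1, hE h2.2.2.2⟩
  | seq a b ha hb => exact fun h2 => ⟨ha h2.1, hb h2.2⟩
  | loop r c0 c1 h0 h1 => exact fun h2 => ⟨lt_of_lt_of_le h2.1 h, h0 h2.2.1, h1 h2.2.2⟩

theorem exists_regsLt (c : Cmd) : ∃ N, regsLt (N + 2) c := by
  induction c with
  | nop => exact ⟨0, trivial⟩
  | push r b => exact ⟨r, by show r < r + 2; omega⟩
  | pop r c0 c1 cE h0 h1 hE =>
    obtain ⟨a, ha⟩ := h0
    obtain ⟨b, hb⟩ := h1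
    obtain ⟨d, hd⟩ := hE
    refine ⟨r + a + b + d, ?_, regsLt_mono (by omega) _ ha, regsLt_mono (by omega) _ hb,
      regsLt_mono (by omega) _ hd⟩
    omega
  | seq a b ha hb =>
    obtain ⟨x, hx⟩ := ha
    obtain ⟨y, hy⟩ := hb
    exact ⟨x + y, regsLt_mono (by omega) _ hx, regsLt_mono (by omega) _ hy⟩
  | loop r c0 c1 h0 h1 =>
    obtain ⟨a, ha⟩ := h0
    obtain ⟨b, hb⟩ := h1
    refine ⟨r + a + b, ?_, regsLt_mono (by omega) _ ha, regsLt_mono (by omega) _ hb⟩
    omega

open Val

section unpack

variable (B : Stk)

/-- The stacks during the unpacking. -/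
def unpS (A : List Bool) (ys : List Bool) : Stk :=
  update (update B 3 (code (ofL (ys.map ofB)))) 1 A

theorem unpack_aux (h4 : B 4 = []) (ys A : List Bool) :
    Runs (.loop 4 .nop (forBody 3 4 unpackBody)) (update (unpS B A ys) 4 [true])
      (update (unpS B (ys.reverse ++ A) []) 3 []) (14 * ys.length + 7) := by
  induction ys generalizing A with
  | nil =>
    have e1 : (update (unpS B A []) 4 [true]) 4 = true :: [] := by simp
    have e2 : update (update (unpS B A []) 4 [true]) 4 [] = unpS B A [] := by
      funext x
      simp only [unpS, Function.update_apply]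
      split_ifs <;> first | (exfalso; omega) | simp_all
    have e3 : unpS B A [] 3 = false :: [] := by
      simp [unpS, Function.update_apply, ofL, code]
    have h1 : Runs (forBody 3 4 unpackBody) (unpS B A []) (update (unpS B A []) 3 []) 3 :=
      Runs.pop0 e3 (Runs.nop _)
    have h2 : Runs (.loop 4 .nop (forBody 3 4 unpackBody)) (update (unpS B A []) 3 [])
        (update (unpS B A []) 3 []) 2 := Runs.loopE (by
      simp [unpS, Function.update_apply, h4])
    have h3 := Runs.loop1 (c0 := .nop) e1 (by rw [e2]; exact h1) h2
    exact h3.mono (by simp)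
  | cons b ys ih =>
    have e1 : (update (unpS B A (b :: ys)) 4 [true]) 4 = true :: [] := by simp
    have e2 : update (update (unpS B A (b :: ys)) 4 [true]) 4 [] = unpS B A (b :: ys) := by
      funext x
      simp only [unpS, Function.update_apply]
      split_ifs <;> first | (exfalso; omega) | simp_all
    have e3 : unpS B A (b :: ys) 3 = true :: (code (ofB b) ++ code (ofL (ys.map ofB))) := by
      simp [unpS, Function.update_apply, ofL, code]
    have h0 : Runs unpackBody (update (unpS B A (b :: ys)) 3 (code (ofB b) ++ code (ofL (ys.map ofB))))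
        (unpS B (b :: A) ys) 9 := by
      cases b
      · have e4 : (update (unpS B A (false :: ys)) 3 (code (ofB false) ++ code (ofL (ys.map ofB)))) 3 =
            false :: code (ofL (ys.map ofB)) := by simp [ofB, code]
        refine (Runs.pop0 e4 (Runs.push 1 false _)).cast ?_ (by norm_num)
        funext x
        simp only [unpS, Function.update_apply]
        split_ifs <;> first | (exfalso; omega) | simp_all
      · have e4 : (update (unpS B A (true :: ys)) 3 (code (ofB true) ++ code (ofL (ys.map ofB)))) 3 =
            true :: false :: false :: code (ofL (ys.map ofB)) := by simp [ofB, code]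
        let T1 : Stk := update (update (unpS B A (true :: ys)) 3 (code (ofB true) ++ code (ofL (ys.map ofB))))
          3 (false :: false :: code (ofL (ys.map ofB)))
        have e5 : T1 3 = false :: (false :: code (ofL (ys.map ofB))) := by simp [T1]
        let T2 : Stk := update T1 3 (false :: code (ofL (ys.map ofB)))
        have e6 : T2 3 = false :: code (ofL (ys.map ofB)) := by simp [T2]
        have s1 : Runs (.pop 3 .nop .nop .nop) T1 T2 3 := Runs.pop0 e5 (Runs.nop _)
        have s2 : Runs (.pop 3 .nop .nop .nop) T2 (update T2 3 (code (ofL (ys.map ofB)))) 3 :=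
          Runs.pop0 e6 (Runs.nop _)
        have s3 := Runs.push 1 true (update T2 3 (code (ofL (ys.map ofB))))
        refine (Runs.pop1 e4 (Runs.seq s1 (Runs.seq s2 s3))).cast ?_ (by norm_num)
        funext x
        simp only [T2, T1, unpS, Function.update_apply]
        split_ifs <;> first | (exfalso; omega) | simp_all
    have h5 : Runs (.seq unpackBody (.push 4 true))
        (update (unpS B A (b :: ys)) 3 (code (ofB b) ++ code (ofL (ys.map ofB))))
        (update (unpS B (b :: A) ys) 4 [true]) 10 := by
      have h6 := Runs.push 4 true (unpS B (b :: A) ys)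
      have h7 : unpS B (b :: A) ys 4 = [] := by simp [unpS, Function.update_apply, h4]
      rw [h7] at h6
      exact Runs.seq h0 h6
    have h1 : Runs (forBody 3 4 unpackBody) (unpS B A (b :: ys)) (update (unpS B (b :: A) ys) 4 [true]) 12 :=
      Runs.pop1 e3 h5
    have h3 := Runs.loop1 (c0 := .nop) e1 (by rw [e2]; exact h1) (ih (b :: A))
    refine h3.cast ?_ (by simp; omega)
    simp

end unpack

/-- The run of the top level stack program. -/
theorem top_runs (e : E) (v : Val) (y : List Bool) (he : eval e v = ofL (y.map ofB)) :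
    ∃ σ1 t, Run (topCmd e) (startStk (code v)) σ1 t ∧ σ1 1 = y.reverse ∧
      t ≤ 3 * size v + 3 + cost e v + 14 * y.length + 9 := by
  let σ0 : Stk := startStk (code v)
  have h1 := mv_runs (r := 0) (s := 2) (by omega) σ0
  let σa : Stk := update (fun _ => []) 2 (code v)
  have e1 : update (update σ0 0 []) 2 ((σ0 0).reverse ++ σ0 2) = σa := by
    funext x
    simp only [σ0, σa, startStk, Function.update_apply]
    split_ifs <;> first | (exfalso; omega) | simp_all
  rw [e1] at h1
  have hctx : Ctx σa 2 3 4 v := by
    refine ⟨by omega, by omega, by omega, ?_, by simp [σa]⟩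
    intro r hr
    simp only [σa, Function.update_apply]
    split_ifs <;> first | (exfalso; omega) | rfl
  have h2 := comp_spec e hctx
  rw [he] at h2
  have e2 : σa 3 = [] := by simp [σa]
  rw [e2, List.append_nil] at h2
  have e3 : update σa 3 (code (ofL (y.map ofB))) = unpS σa [] y := by
    funext x
    simp only [unpS, σa, Function.update_apply]
    split_ifs <;> first | (exfalso; omega) | simp_all
  rw [e3] at h2
  have h4 := Runs.push 4 true (unpS σa [] y)
  have e4 : unpS σa [] y 4 = [] := by
    simp only [unpS, σa, Function.update_apply]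
    split_ifs <;> first | (exfalso; omega) | simp_all
  rw [e4] at h4
  have h5 := unpack_aux σa (by simp [σa]) y []
  obtain ⟨t, ht, hrun⟩ := Runs.seq h1 (Runs.seq h2 (Runs.seq h4 h5))
  refine ⟨_, t, hrun, ?_, ?_⟩
  · simp [unpS, Function.update_apply]
  · have e5 : (σ0 0).length = size v := by simp [σ0, startStk]
    rw [e5] at ht
    omega

end Vale.Agent.P310x
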