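import Vale.Agent.P310x.GadB3

/-!
# The concrete inputs of the reduction
-/

namespace Vale.Agent.P310x

open List (range)
open Vale.Agent.P310u

/-- All bit lists of a given length. -/
def allBits : ℕ → List Lt
  | 0 => [[]]
  | n + 1 => (allBits n).flatMap fun l => [false :: l, true :: l]

theorem mem_allBits {n : ℕ} {l : Lt} : l ∈ allBits n ↔ l.length = n := by
  induction n generalizing l with
  | zero =>
    simp only [allBits, List.mem_singleton]
    exact ⟨fun h => by rw [h]; rfl, List.eq_nil_of_length_eq_zero⟩
  | succ n ih =>
    simp only [allBits, List.mem_flatMap, List.mem_cons, List.not_mem_nil, or_false]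
    constructor
    · rintro ⟨a, h1, rfl | rfl⟩
      · simp [ih.1 h1]
      · simp [ih.1 h1]
    · intro h
      cases l with
      | nil => simp at h
      | cons c t =>
        refine ⟨t, ih.2 (by simpa using h), ?_⟩
        cases c <;> simp

theorem nodup_allBits (n : ℕ) : (allBits n).Nodup := by
  induction n with
  | zero => simp [allBits]
  | succ n ih =>
    rw [allBits, List.nodup_flatMap]
    constructor
    · intro l _
      simp
    · refine ih.imp ?_
      intro a c h
      simp only [Function.onFun, List.disjoint_cons_left, List.disjoint_singleton, List.mem_cons,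
        List.not_mem_nil, or_false, List.cons.injEq, not_or, Bool.false_eq_true, Bool.true_eq_false,
        false_and, true_and, not_false_eq_true, and_true]
      simp [h]

theorem length_allBits (n : ℕ) : (allBits n).length = 2 ^ n := by
  induction n with
  | zero => rfl
  | succ n ih =>
    rw [allBits, List.length_flatMap]
    simp only [List.length_cons, List.length_nil, zero_add, List.map_const', List.sum_replicate, ih,
      smul_eq_mul, Nat.reduceAdd]
    rw [pow_succ]

theorem head_allBits (n : ℕ) : ∃ t, allBits n = List.replicate n false :: t := by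
  induction n with
  | zero => exact ⟨[], rfl⟩
  | succ n ih =>
    obtain ⟨t, ht⟩ := ih
    refine ⟨[true :: List.replicate n false] ++ t.flatMap fun l => [false :: l, true :: l], ?_⟩
    rw [allBits, ht, List.flatMap_cons]
    rfl

/-- The table of short bit lists with parities. -/
def advT (k : ℕ) : List (Lt × Bool) :=
  (allBits 2 ++ allBits 4 ++ allBits (2 * k)).map fun l => (l, parB l)

/-- The input of the reduction. -/
def mkInp (ds : Desc) (mT mP bh : ℕ) : Inp := (ds, mT, mP, bh, allBits bh, advT (mT + mP))

theorem advOK (ds : Desc) (mT mP bh : ℕ) (hk : 2 < mT + mP) : AdvOK (mkInp ds mT mP bh) := by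
  have e1 : xk (mkInp ds mT mP bh) = mT + mP := rfl
  have e2 : xadv (mkInp ds mT mP bh) = advT (mT + mP) := rfl
  constructor
  · intro l hl bl r h
    rw [e2, advT, List.mem_map]
    constructor
    · rintro ⟨a, _, h2⟩
      simp only [Prod.mk.injEq] at h2
      rw [← h2.1, h2.2]
    · rintro rfl
      refine ⟨bl, ?_, rfl⟩
      simp only [List.mem_append, mem_allBits]
      rw [e1] at hl
      omega
  · intro l hl
    rw [e1] at hl
    rw [e2, advT, advLen, List.filter_map, List.length_map, List.filter_append, List.filter_append,
      List.length_append, List.length_append]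
    have a1 : ∀ n, ((allBits n).filter ((fun a : Lt × Bool => decide (a.1.length = l)) ∘
        fun l => (l, parB l))).length = if n = l then 2 ^ l else 0 := by
      intro n
      by_cases h : n = l
      · subst h
        rw [if_pos rfl, List.filter_eq_self.2, length_allBits]
        intro a ha
        simpa using mem_allBits.1 ha
      · rw [if_neg h, List.length_eq_zero_iff, List.filter_eq_nil_iff]
        intro a ha
        simp only [Function.comp, decide_eq_true_eq]
        rw [mem_allBits.1 ha]
        exact h
    rw [a1, a1, a1]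
    rcases hl with rfl | rfl | rfl
    · rw [if_pos rfl, if_neg (by omega), if_neg (by omega)]
      simp
    · rw [if_neg (by omega), if_pos rfl, if_neg (by omega)]
      simp
    · rw [if_neg (by omega), if_neg (by omega), if_pos rfl]
      simp

section Letters

theorem length_ofF (x : Inp) (f : FF x) : (ofF x f).length = xb x := by
  simp [ofF]

theorem zmod_ite : ∀ z : ZMod 2, (if decide (z = 1) = true then (1 : ZMod 2) else 0) = z := by
  decide

theorem toF_ofF (x : Inp) (f : FF x) : toF (ofF x f) = f := by
  funext i
  have h : (ofF x f).getD i.val false = decide (f i = 1) := by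
    simp only [ofF]
    rw [getD_rng' _ _ i.isLt]
    simp [i.isLt]
  simp only [toF, h]
  exact zmod_ite _

theorem ofF_toF {x : Inp} {l : Lt} (h : l.length = xb x) : ofF x (toF l) = l := by
  apply List.ext_getElem
  · rw [length_ofF, h]
  · intro n h1 h2
    have h3 : n < xb x := by rwa [h] at h2
    simp only [ofF, List.getElem_map, List.getElem_range, h3, dif_pos, toF, List.getD,
      List.getElem?_eq_getElem h2, Option.getD_some]
    cases l[n] <;> simp

variable {ds : Desc} {mT mP bh : ℕ}

theorem mem_xL_mk {l : Lt} : l ∈ xL (mkInp ds mT mP bh) ↔ l.length = bh + bh := by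
  show l ∈ (allBits bh).flatMap (fun a => (allBits bh).map fun c => a ++ c) ↔ _
  simp only [List.mem_flatMap, List.mem_map, mem_allBits]
  constructor
  · rintro ⟨a, h1, c, h2, rfl⟩
    simp [h1, h2]
  · intro h
    refine ⟨l.take bh, ?_, l.drop bh, ?_, List.take_append_drop _ _⟩
    · simp [h]
    · simp [h]

theorem nodup_xL_mk : (xL (mkInp ds mT mP bh)).Nodup := by
  show ((allBits bh).flatMap (fun a => (allBits bh).map fun c => a ++ c)).Nodup
  rw [List.nodup_flatMap]
  constructor
  · intro a _
    refine List.Nodup.map ?_ (nodup_allBits bh)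
    intro c c' h
    exact List.append_cancel_left h
  · refine List.Pairwise.imp_of_mem ?_ (nodup_allBits bh)
    intro a c ha hc h
    simp only [Function.onFun, List.disjoint_left, List.mem_map, not_exists, not_and]
    rintro _ ⟨u, hu, rfl⟩ v hv e
    have h1 := congrArg (List.take bh) e
    rw [mem_allBits] at ha hc
    rw [List.take_left' hc, List.take_left' ha] at h1
    exact h h1.symm

theorem len_flat {l : List Lt} {H : List Lt} :
    (l.flatMap (fun a => H.map fun c => a ++ c)).length = l.length * H.length := by
  induction l with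
  | nil => simp
  | cons a t ih =>
    rw [List.flatMap_cons, List.length_append, ih, List.length_map, List.length_cons, add_mul, one_mul,
      add_comm]

theorem len_xL_mk : xB (mkInp ds mT mP bh) = 4 ^ bh := by
  show ((allBits bh).flatMap (fun a => (allBits bh).map fun c => a ++ c)).length = _
  rw [len_flat, length_allBits, ← mul_pow]
  norm_num

theorem lok_mk : LOK (mkInp ds mT mP bh) := by
  constructor
  · intro f
    exact List.mem_map.2 ⟨ofF _ f, mem_xL_mk.2 (length_ofF _ f), toF_ofF _ f⟩
  · intro a ha a' ha' h
    have e1 := ofF_toF (x := mkInp ds mT mP bh) (mem_xL_mk.1 ha)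
    have e2 := ofF_toF (x := mkInp ds mT mP bh) (mem_xL_mk.1 ha')
    rw [← e1, ← e2, h]

theorem lb_eq {x : Inp} {a : ℕ} (h : a < xB x) : lb x a = (xL x)[a]'h := by
  simp [lb, List.getD, List.getElem?_eq_getElem h]

theorem toF_zero {l : Lt} {b : ℕ} (h : ∀ c ∈ l, c = false) : toF (b := b) l = 0 := by
  funext i
  have h2 : l.getD i.val false = false := by
    by_cases h1 : i.val < l.length
    · rw [List.getD_eq_getElem _ _ h1]
      exact h _ (List.getElem_mem h1)
    · rw [List.getD_eq_default _ _ (by omega)]
  show (if l.getD i.val false = true then (1 : ZMod 2) else 0) = 0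
  rw [h2]
  simp

/-- The digit system of the letters. -/
noncomputable def dsOf (hb : 1 ≤ bh) : DS (FF (mkInp ds mT mP bh)) where
  B := xB (mkInp ds mT mP bh)
  lab := lab (mkInp ds mT mP bh)
  dv β := (xL (mkInp ds mT mP bh)).idxOf (ofF _ β)
  dv_lt β := List.idxOf_lt_length_iff.2 (mem_xL_mk.2 (length_ofF _ β))
  dv_lab a ha := by
    have h1 : lb (mkInp ds mT mP bh) a ∈ xL (mkInp ds mT mP bh) := by
      rw [lb_eq ha]
      exact List.getElem_mem _
    show (xL _).idxOf (ofF _ (toF (lb _ a))) = a
    rw [ofF_toF (mem_xL_mk.1 h1), lb_eq ha]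
    exact nodup_xL_mk.idxOf_getElem a ha
  lab_dv β := by
    have h1 : ofF (mkInp ds mT mP bh) β ∈ xL (mkInp ds mT mP bh) := mem_xL_mk.2 (length_ofF _ β)
    have h2 := List.idxOf_lt_length_iff.2 h1
    show toF (lb _ _) = β
    rw [lb_eq h2, List.getElem_idxOf, toF_ofF]
  lab_zero := by
    obtain ⟨t, ht⟩ := head_allBits bh
    have h0 : lb (mkInp ds mT mP bh) 0 = List.replicate bh false ++ List.replicate bh false := by
      show ((allBits bh).flatMap (fun a => (allBits bh).map fun c => a ++ c)).getD 0 [] = _
      rw [ht]
      simp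
    show toF (lb _ 0) = 0
    rw [h0]
    apply toF_zero
    intro c hc
    rcases List.mem_append.1 hc with h | h <;> exact (List.mem_replicate.1 h).2
  two_le := by
    rw [len_xL_mk]
    calc 2 ≤ 4 ^ 1 := by norm_num
      _ ≤ 4 ^ bh := Nat.pow_le_pow_right (by norm_num) hb

end Letters

/-! ### The description of a machine -/

section Desc

variable (M : TM)

/-- Numbers for the parts of a machine. -/
noncomputable def codeOf : Code M (@Nat.card M.Tp) (@Nat.card M.Sym) :=
  letI := M.finTp
  letI := M.finSym
  letI := M.finSt
  { tpc := fun t => (Finite.equivFin M.Tp t).val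
    dT := fun i => if h : i < Nat.card M.Tp then (Finite.equivFin M.Tp).symm ⟨i, h⟩ else M.input
    dT_tpc := fun t => by simp
    tpc_lt := fun t => (Finite.equivFin M.Tp t).isLt
    tpc_dT := fun i h => by simp [h]
    syc := fun t => (Finite.equivFin M.Sym t).val
    dS := fun i => if h : i < Nat.card M.Sym then (Finite.equivFin M.Sym).symm ⟨i, h⟩ else M.blank
    dS_syc := fun t => by simp
    syc_lt := fun t => (Finite.equivFin M.Sym t).isLt
    stc := fun t => (Finite.equivFin M.St t).val
    dQ := fun i => if h : i < Nat.card M.St then (Finite.equivFin M.St).symm ⟨i, h⟩ else M.start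
    dQ_stc := fun t => by simp }

open scoped Classical in
/-- The table of a machine. -/
noncomputable def entsOf : List Entry :=
  letI := M.finTp
  letI := M.finSym
  letI := M.finSt
  letI : Fintype (M.St × (M.Tp → M.Sym)) := Fintype.ofFinite _
  ((Finset.univ : Finset (M.St × (M.Tp → M.Sym))).toList.filter
    (fun p => decide (p.1 ≠ M.acc ∧ p.1 ≠ M.rej))).map fun p => (codeOf M).mkE p.1 p.2

theorem mem_entsOf {e : Entry} : e ∈ entsOf M ↔ ∃ q rd, q ≠ M.acc ∧ q ≠ M.rej ∧ e = (codeOf M).mkE q rd := by
  classical
  simp only [entsOf, List.mem_map, List.mem_filter, Finset.mem_toList, Finset.mem_univ, true_and,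
    decide_eq_true_eq, Prod.exists]
  constructor
  · rintro ⟨q, rd, ⟨h1, h2⟩, rfl⟩
    exact ⟨q, rd, h1, h2, rfl⟩
  · rintro ⟨q, rd, h1, h2, rfl⟩
    exact ⟨q, rd, ⟨h1, h2⟩, rfl⟩

/-- The description of a machine. -/
noncomputable def descOf : Desc :=
  (Nat.card M.Tp, Nat.card M.Sym, (codeOf M).tpc M.input, (codeOf M).syc M.blank, (codeOf M).syc M.zero,
    (codeOf M).syc M.one, (codeOf M).stc M.start, (codeOf M).stc M.acc, entsOf M)

/-- The hypotheses of the computation table hold for the description of the machine. -/
noncomputable def tabOf {mT mP bh : ℕ} (hb : 1 ≤ bh) (hm : mT + 2 ≤ mP)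
    (hin : (inBits (mkInp (descOf M) mT mP bh)).length ≤ 4 ^ bh) :
    TabOK M (mkInp (descOf M) mT mP bh) where
  C := codeOf M
  D := dsOf hb
  hB := rfl
  hlab := fun _ => rfl
  lok := lok_mk
  hm := hm
  hin := by rwa [len_xL_mk]
  hinp := rfl
  hblank := rfl
  hzero := rfl
  hone := rfl
  hstart := rfl
  hacc := rfl
  hE := fun e => mem_entsOf M

end Desc

end Vale.Agent.P310x
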