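import Mathlib

/-!
# Words of letters as numbers

A digit system for a finite set `F` of letters: a bijection with the numbers below `B`. A word is a
function `w : ℕ → F`; the block of `M` letters from `s` on is a number, lowest digit first.
-/

namespace Vale.Agent.P310x

open Function

/-- A digit system. -/
structure DS (F : Type) [Zero F] where
  B : ℕ
  lab : ℕ → F
  dv : F → ℕ
  dv_lt : ∀ β, dv β < B
  dv_lab : ∀ a, a < B → dv (lab a) = a
  lab_dv : ∀ β, lab (dv β) = β
  lab_zero : lab 0 = 0
  two_le : 2 ≤ B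

variable {F : Type} [Zero F] (D : DS F)

namespace DS

/-- The number of a block. -/
def num (w : ℕ → F) (s M : ℕ) : ℕ := ∑ j ∈ Finset.range M, D.dv (w (s + j)) * D.B ^ j

theorem num_zero (w : ℕ → F) (s : ℕ) : D.num w s 0 = 0 := rfl

theorem num_succ (w : ℕ → F) (s M : ℕ) :
    D.num w s (M + 1) = D.num w s M + D.dv (w (s + M)) * D.B ^ M := by
  simp [num, Finset.sum_range_succ]

theorem num_congr {w w' : ℕ → F} {s M : ℕ} (h : ∀ j, j < M → w (s + j) = w' (s + j)) :
    D.num w s M = D.num w' s M := by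
  apply Finset.sum_congr rfl
  intro j hj
  rw [h j (Finset.mem_range.1 hj)]

theorem pos_B : 0 < D.B := lt_of_lt_of_le (by norm_num) D.two_le

theorem num_lt (w : ℕ → F) (s M : ℕ) : D.num w s M < D.B ^ M := by
  induction M with
  | zero => simp [num]
  | succ M h =>
    rw [num_succ, pow_succ]
    have h1 := D.dv_lt (w (s + M))
    have h2 : (D.dv (w (s + M)) + 1) * D.B ^ M ≤ D.B * D.B ^ M := Nat.mul_le_mul_right _ h1
    nlinarith

theorem dv_inj : Injective D.dv := fun a b h => by
  rw [← D.lab_dv a, ← D.lab_dv b, h]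

theorem num_inj {w w' : ℕ → F} {s M : ℕ} (h : D.num w s M = D.num w' s M) :
    ∀ j, j < M → w (s + j) = w' (s + j) := by
  induction M with
  | zero => intro j hj; omega
  | succ M ih =>
    rw [num_succ, num_succ] at h
    have h1 := D.num_lt w s M
    have h2 := D.num_lt w' s M
    have hp : 0 < D.B ^ M := pow_pos D.pos_B _
    have e1 : D.dv (w (s + M)) = D.dv (w' (s + M)) := by
      have a1 := congrArg (· / D.B ^ M) h
      simp only [Nat.add_mul_div_right _ _ hp, Nat.div_eq_of_lt h1, Nat.div_eq_of_lt h2, zero_add] at a1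
      exact a1
    have e2 : D.num w s M = D.num w' s M := by
      rw [e1] at h
      omega
    intro j hj
    rcases Nat.lt_succ_iff_lt_or_eq.1 hj with h3 | h3
    · exact ih e2 j h3
    · subst h3
      exact D.dv_inj e1

theorem num_eq_zero_iff {w : ℕ → F} {s M : ℕ} :
    D.num w s M = 0 ↔ ∀ j, j < M → D.dv (w (s + j)) = 0 := by
  have hp : 0 < D.B := D.pos_B
  simp only [num, Finset.sum_eq_zero_iff, Finset.mem_range, mul_eq_zero]
  constructor
  · intro h j hj
    rcases h j hj with h1 | h1
    · exact h1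
    · exact absurd h1 (pow_pos hp j).ne'
  · intro h j hj
    exact Or.inl (h j hj)

theorem num_all_max {w : ℕ → F} {s M : ℕ} (h : ∀ j, j < M → D.dv (w (s + j)) = D.B - 1) :
    D.num w s M + 1 = D.B ^ M := by
  induction M with
  | zero => simp [num]
  | succ M ih =>
    rw [num_succ, h M (Nat.lt_succ_self M)]
    have := ih fun j hj => h j (Nat.lt_succ_of_lt hj)
    have hB := D.two_le
    obtain ⟨C, hC⟩ : ∃ C, D.B = C + 1 := ⟨D.B - 1, by omega⟩
    rw [hC] at this ⊢
    simp only [Nat.add_sub_cancel]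
    rw [pow_succ]
    nlinarith

/-- The carry: the lower block of `w` is zero, of `w'` is full, the next digit of `w` is one more than
that of `w'`, and the higher digits agree. -/
theorem carry {w w' : ℕ → F} {s t M a : ℕ} (ht : t < M)
    (h0 : ∀ j, j < t → D.dv (w (s + j)) = 0) (h1 : ∀ j, j < t → D.dv (w' (s + j)) = D.B - 1)
    (h2 : D.dv (w (s + t)) = a + 1) (h3 : D.dv (w' (s + t)) = a)
    (h4 : ∀ j, t < j → j < M → w (s + j) = w' (s + j)) :
    D.num w s M = D.num w' s M + 1 := by
  induction M with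
  | zero => omega
  | succ M ih =>
    rcases Nat.lt_succ_iff_lt_or_eq.1 ht with h5 | h5
    · rw [num_succ, num_succ, ih h5 fun j hj hj' => h4 j hj (Nat.lt_succ_of_lt hj'),
        h4 M h5 (Nat.lt_succ_self M)]
      omega
    · subst h5
      rw [num_succ, num_succ, h2, h3, D.num_eq_zero_iff.2 h0]
      have := D.num_all_max h1
      rw [add_mul, one_mul]
      omega

theorem exists_down {w : ℕ → F} {s M : ℕ} (h : D.num w s M ≠ 0) :
    ∃ t, t < M ∧ (∀ j, j < t → D.dv (w (s + j)) = 0) ∧ D.dv (w (s + t)) ≠ 0 := by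
  classical
  have h1 : ∃ j, j < M ∧ D.dv (w (s + j)) ≠ 0 := by
    by_contra h2
    push Not at h2
    exact h (D.num_eq_zero_iff.2 h2)
  refine ⟨Nat.find h1, (Nat.find_spec h1).1, fun j hj => ?_, (Nat.find_spec h1).2⟩
  have := Nat.find_min h1 hj
  push Not at this
  exact this (lt_trans hj (Nat.find_spec h1).1)

theorem exists_up {w : ℕ → F} {s M : ℕ} (h : D.num w s M + 1 < D.B ^ M) :
    ∃ t, t < M ∧ (∀ j, j < t → D.dv (w (s + j)) = D.B - 1) ∧ D.dv (w (s + t)) ≠ D.B - 1 := by
  classical
  have h1 : ∃ j, j < M ∧ D.dv (w (s + j)) ≠ D.B - 1 := by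
    by_contra h2
    push Not at h2
    have := D.num_all_max h2
    omega
  refine ⟨Nat.find h1, (Nat.find_spec h1).1, fun j hj => ?_, (Nat.find_spec h1).2⟩
  have := Nat.find_min h1 hj
  push Not at this
  exact this (lt_trans hj (Nat.find_spec h1).1)

/-- Each number has digits. -/
theorem exists_digits (M n : ℕ) (h : n < D.B ^ M) :
    ∃ d : ℕ → ℕ, (∀ j, d j < D.B) ∧ ∑ j ∈ Finset.range M, d j * D.B ^ j = n := by
  induction M generalizing n with
  | zero =>
    refine ⟨fun _ => 0, fun _ => D.pos_B, ?_⟩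
    simp at h
    simp [h]
  | succ M ih =>
    have hp : 0 < D.B ^ M := pow_pos D.pos_B _
    obtain ⟨d, hd, hs⟩ := ih (n % D.B ^ M) (Nat.mod_lt _ hp)
    refine ⟨fun j => if j = M then n / D.B ^ M else d j, fun j => ?_, ?_⟩
    · show (if j = M then n / D.B ^ M else d j) < D.B
      split_ifs
      · apply Nat.div_lt_of_lt_mul
        rw [← pow_succ]
        exact h
      · exact hd j
    · rw [Finset.sum_range_succ]
      have : ∑ j ∈ Finset.range M, (if j = M then n / D.B ^ M else d j) * D.B ^ j =
          ∑ j ∈ Finset.range M, d j * D.B ^ j := by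
        apply Finset.sum_congr rfl
        intro j hj
        rw [if_neg (Finset.mem_range.1 hj).ne]
      rw [this, hs]
      show n % D.B ^ M + (if M = M then n / D.B ^ M else d M) * D.B ^ M = n
      rw [if_pos rfl]
      exact Nat.mod_add_div' n _

end DS

/-! ### Words of a fixed length -/

variable {k : ℕ}

/-- The letter at a position of a word; zero beyond its end. -/
def dg (c : Fin k → F) (i : ℕ) : F := if h : i < k then c ⟨i, h⟩ else 0

theorem dg_lt (c : Fin k → F) {i : ℕ} (h : i < k) : dg c i = c ⟨i, h⟩ := dif_pos h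

@[simp] theorem dg_val (c : Fin k → F) (i : Fin k) : dg c i.val = c i := by
  simp [dg]

theorem dg_ge (c : Fin k → F) {i : ℕ} (h : k ≤ i) : dg c i = 0 := dif_neg (by omega)

theorem word_ext {c c' : Fin k → F} (h : ∀ i, i < k → dg c i = dg c' i) : c = c' := by
  funext i
  rw [← dg_val c, ← dg_val c', h _ i.isLt]

namespace DS

/-- A word with a block replaced by a given number. -/
theorem exists_block (c : Fin k → F) {s M n : ℕ} (hk : s + M ≤ k) (hn : n < D.B ^ M) :
    ∃ c' : Fin k → F, (∀ i, ¬ (s ≤ i ∧ i < s + M) → dg c' i = dg c i) ∧ D.num (dg c') s M = n := by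
  obtain ⟨d, hd, hs⟩ := D.exists_digits M n hn
  classical
  refine ⟨fun i => if s ≤ i.val ∧ i.val < s + M then D.lab (d (i.val - s)) else c i, ?_, ?_⟩
  · intro i hi
    by_cases h : i < k
    · rw [dg_lt _ h, dg_lt _ h]
      simp only [if_neg hi]
    · rw [dg_ge _ (by omega), dg_ge _ (by omega)]
  · rw [← hs]
    apply Finset.sum_congr rfl
    intro j hj
    have hj' := Finset.mem_range.1 hj
    rw [dg_lt _ (by omega)]
    simp only
    rw [if_pos ⟨by omega, by omega⟩]
    rw [show s + j - s = j by omega, D.dv_lab _ (hd j)]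

end DS

end Vale.Agent.P310x
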