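import Vale.Agent.P310x.Concrete

/-!
# The time lower bound: the machine of a diagonal argument

A machine `A` deciding the equivalence is composed with the reduction, and the composed machine `D`
is applied to its own description: the reduction turns a description of `D` into a pair of graphs
which says whether `D` accepts its description within the time `B ^ mT`.
-/

namespace Vale.Agent.P310x

open List (range)
open Vale.Agent.P310u Val Filter Asymptotics

/-! ### Sizes -/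

theorem size_enc_pair {α β : Type} [Enc α] [Enc β] (a : α) (b : β) :
    size (enc (a, b)) = size (enc a) + size (enc b) + 1 := rfl

theorem size_enc_nat (n : ℕ) : size (enc n) = 2 * n + 1 := by
  show size (ofL (List.replicate n leaf)) = _
  rw [size_ofL]
  simp [size]
  ring

theorem size_enc_list_le {α : Type} [Enc α] (l : List α) (C : ℕ) (h : ∀ a ∈ l, size (enc a) ≤ C) :
    size (enc l) ≤ l.length * (C + 1) + 1 := by
  show size (ofL (l.map enc)) ≤ _
  induction l with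
  | nil => simp [ofL, size]
  | cons a l ih =>
    have h1 := h a (by simp)
    have h2 := ih (fun b hb => h b (by simp [hb]))
    simp only [List.map_cons, ofL, size, List.length_cons]
    nlinarith

theorem size_enc_bits (l : List Bool) : size (enc l) ≤ 5 * l.length + 1 := size_bits l

theorem size_enc_allBits (bh : ℕ) : size (enc (allBits bh)) ≤ 2 ^ bh * (5 * bh + 2) + 1 := by
  have := size_enc_list_le (allBits bh) (5 * bh + 1) (fun a ha => by
    have h1 := size_enc_bits a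
    rwa [mem_allBits.1 ha] at h1)
  rwa [length_allBits] at this

theorem pow_two_ge {n : ℕ} (h : 6 ≤ n) : 5 * n + 12 ≤ 2 ^ n := by
  induction n, h using Nat.le_induction with
  | base => norm_num
  | succ n hn ih =>
    rw [pow_succ]
    omega

/-- The part of the size of the input which does not depend on the length of the letters. -/
def sizeK (ds : Desc) (mT mP : ℕ) : ℕ :=
  size (enc ds) + size (enc mT) + size (enc mP) + size (enc (advT (mT + mP))) + 5

theorem size_mkInp_le {ds : Desc} {mT mP bh : ℕ} (h6 : 6 ≤ bh) (h0 : sizeK ds mT mP ≤ bh) :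
    size (enc (mkInp ds mT mP bh)) + 2 ≤ 4 ^ bh := by
  have e1 : size (enc (mkInp ds mT mP bh)) = size (enc ds) + size (enc mT) + size (enc mP) +
      size (enc bh) + size (enc (allBits bh)) + size (enc (advT (mT + mP))) + 5 := by
    show size (enc (ds, mT, mP, bh, allBits bh, advT (mT + mP))) = _
    simp only [size_enc_pair]
    ring
  have e2 := size_enc_allBits bh
  have e3 := size_enc_nat bh
  have e4 := pow_two_ge h6
  have e5 : (4 : ℕ) ^ bh = 2 ^ bh * 2 ^ bh := by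
    rw [← mul_pow]
    norm_num
  have e6 : sizeK ds mT mP = size (enc ds) + size (enc mT) + size (enc mP) +
      size (enc (advT (mT + mP))) + 5 := rfl
  rw [e5, e1]
  nlinarith [Nat.zero_le (2 ^ bh * bh), Nat.lt_two_pow_self (n := bh)]

/-! ### Running times -/

theorem time_le_worst (A : TM) {n : ℕ} (G H : SimpleGraph (Fin n)) :
    A.time (TM.pairBits G H) ≤ A.worstTime n := by
  apply le_csSup
  · apply Set.Finite.bddAbove
    have h1 : Set.Finite (Set.range fun p : SimpleGraph (Fin n) × SimpleGraph (Fin n) =>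
        A.time (TM.pairBits p.1 p.2)) := Set.finite_range _
    refine h1.subset ?_
    rintro t ⟨G, H, rfl⟩
    exact ⟨(G, H), rfl⟩
  · exact ⟨G, H, rfl⟩

theorem length_adjBits {n : ℕ} (G : SimpleGraph (Fin n)) : (TM.adjBits G).length = n * n := by
  simp [TM.adjBits, List.length_flatMap]

theorem le_length_pairBits {n : ℕ} (G H : SimpleGraph (Fin n)) : n ≤ (TM.pairBits G H).length := by
  rw [TM.pairBits, List.length_append, length_adjBits, length_adjBits]
  nlinarith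

section Diag

variable {A : TM} {e : E} {N : ℕ}

theorem tab_main' {M : TM} {x : Inp} (T : TabOK M x) {bound : ℕ} (hB : T.D.B ^ xmT x = bound) :
    (tP x).Acc (tP x).s0 (tP x).c0 ↔ ∃ τ, τ < bound ∧ (cf M x τ).st = M.acc := by
  subst hB
  exact tab_main T

/-- The diagonal argument. -/
theorem diag_core {A : TM} {c : Cmd} {N : ℕ} {x : Inp} {y : List Bool} {T0 bound : ℕ} {W Q : Prop}
    (hW : W ↔ ¬ Q)
    (hmain : Q ↔ ∃ τ, τ < bound ∧ (cf (compose A c N) x τ).st = (compose A c N).acc)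
    (hdec : (A.run y (A.time y)).st = A.acc ↔ W)
    (hhalt : ∃ t, A.HaltedAt y t)
    {fr : (Fin (N + 2) → ℤ) × (Fin (N + 2) → ℤ → A.Sym)}
    (hT0 : ∀ s, (compose A c N).run (inBits x) (s + T0) = liftCfg fr (A.run y s)) :
    bound ≤ A.time y + T0 := by
  have hτ : A.HaltedAt y (A.time y) := Nat.sInf_mem hhalt
  by_contra hlt
  push Not at hlt
  have hst : (cf (compose A c N) x (A.time y + T0)).st =
      Sum.inr (Sum.inr (Sum.inr (A.run y (A.time y)).st)) := by
    rw [cf, hT0]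
    rfl
  rcases hτ with hacc | hrej
  · have hw := hdec.1 hacc
    apply hW.1 hw
    exact hmain.2 ⟨A.time y + T0, hlt, by rw [hst, hacc]; rfl⟩
  · have hna : (A.run y (A.time y)).st ≠ A.acc := by
      rw [hrej]
      exact A.acc_ne_rej.symm
    have hnw : ¬ W := fun h => hna (hdec.2 h)
    have hacc2 : Q := by
      by_contra h
      exact hnw (hW.2 h)
    obtain ⟨τ, _, hτ2⟩ := hmain.1 hacc2
    have hst2 : (cf (compose A c N) x (A.time y + T0)).st = (compose A c N).rej := by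
      rw [hst, hrej]
      rfl
    have hne : (compose A c N).acc ≠ (compose A c N).rej := (compose A c N).acc_ne_rej
    rcases le_total τ (A.time y + T0) with hle | hle
    · obtain ⟨n', hn'⟩ := Nat.exists_eq_add_of_le hle
      have h5 := halted_stays (M := compose A c N) (x := x) (τ := τ) (fun h => h.1 hτ2) n'
      rw [← hn'] at h5
      rw [h5, hτ2] at hst2
      exact hne hst2
    · obtain ⟨n', hn'⟩ := Nat.exists_eq_add_of_le hle
      have h5 := halted_stays (M := compose A c N) (x := x) (τ := A.time y + T0)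
        (fun h => h.2 hst2) n'
      rw [← hn'] at h5
      rw [h5, hst2] at hτ2
      exact hne hτ2.symm

/-- The lower bound for the composed machine on its own description. -/
theorem time_lb (he : ∀ x : Inp, eval e (enc x) = enc (outBits x))
    (hN : regsLt (N + 2) (topCmd e)) {mT mP bh : ℕ} (hk : 2 < mT + mP) (hm : mT + 2 ≤ mP)
    (hb : 1 ≤ bh) {x : Inp} (hx : x = mkInp (descOf (compose A (topCmd e) N)) mT mP bh)
    (hin : size (enc x) ≤ 4 ^ bh)
    (hA : A.Decides (2 * (mT + mP))) :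
    ∃ (n : ℕ) (G0 G1 : SimpleGraph (Fin n)),
      TM.pairBits G0 G1 = outBits x ∧
      ∃ t, t ≤ 3 * size (enc x) + 3 + cost e (enc x) + 14 * (outBits x).length + 9 ∧
        (4 ^ bh) ^ mT ≤ A.time (TM.pairBits G0 G1) +
          ((outBits x).length + 2 + (t + (size (enc x) + 1))) := by
  subst hx
  have hinb : (inBits (mkInp (descOf (compose A (topCmd e) N)) mT mP bh)).length ≤ 4 ^ bh := by
    rw [inBits, length_code]
    exact hin
  obtain ⟨n, G0, G1, hG, hW⟩ := red_correct (x := mkInp (descOf (compose A (topCmd e) N)) mT mP bh)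
    lok_mk.1 (advOK _ _ _ _ hk) (by show 0 < mT + mP; omega)
  refine ⟨n, G0, G1, hG, ?_⟩
  obtain ⟨σ1, t, h1, h2, h3⟩ := top_runs e (enc (mkInp (descOf (compose A (topCmd e) N)) mT mP bh))
    (outBits (mkInp (descOf (compose A (topCmd e) N)) mT mP bh)) (he _)
  refine ⟨t, h3, ?_⟩
  obtain ⟨fr, hfr⟩ := compose_run (A := A) (N := N) hN h1 h2
  obtain ⟨hhalt, hdec⟩ := hA n G0 G1
  rw [hG] at hhalt hdec ⊢
  refine diag_core (c := topCmd e) (N := N)
    (x := mkInp (descOf (compose A (topCmd e) N)) mT mP bh) (W := P310h2.WLEquiv G0 G1 (2 * (mT + mP)))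
    (fr := fr) hW ?_ hdec hhalt ?_
  · exact tab_main' (tabOf (compose A (topCmd e) N) hb hm hinb) (by
      show (xB (mkInp (descOf (compose A (topCmd e) N)) mT mP bh)) ^ mT = _
      rw [len_xL_mk])
  · intro s
    have := hfr s
    rwa [length_code] at this

end Diag

/-! ### The numbers -/

theorem worst_bound {A : TM} {G : ℝ} (hG : 0 ≤ G)
    (h : (fun n : ℕ => (A.worstTime n : ℝ)) =O[atTop] fun n : ℕ => (n : ℝ) ^ G) :
    ∃ K : ℝ, 0 ≤ K ∧ ∀ X n : ℕ, 1 ≤ X → n ≤ X → (A.worstTime n : ℝ) ≤ K * (X : ℝ) ^ G := by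
  obtain ⟨C, hC⟩ := h.bound
  obtain ⟨n0, hn0⟩ := eventually_atTop.1 hC
  have hW : 0 ≤ ∑ i ∈ Finset.range (n0 + 1), (A.worstTime i : ℝ) :=
    Finset.sum_nonneg (fun _ _ => Nat.cast_nonneg _)
  have hC0 : (0 : ℝ) ≤ max C 0 := le_max_right _ _
  refine ⟨(∑ i ∈ Finset.range (n0 + 1), (A.worstTime i : ℝ)) + max C 0, add_nonneg hW hC0, ?_⟩
  intro X n hX hn
  have hX1 : (1 : ℝ) ≤ X := by exact_mod_cast hX
  have hpow : 1 ≤ (X : ℝ) ^ G := Real.one_le_rpow hX1 hG
  by_cases h0 : n ≤ n0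
  · have h1 : (A.worstTime n : ℝ) ≤ ∑ i ∈ Finset.range (n0 + 1), (A.worstTime i : ℝ) :=
      Finset.single_le_sum (f := fun i => (A.worstTime i : ℝ)) (fun i _ => Nat.cast_nonneg _)
        (Finset.mem_range.2 (by omega))
    nlinarith
  · have h1 := hn0 n (by omega)
    have h2 : (n : ℝ) ^ G ≤ (X : ℝ) ^ G :=
      Real.rpow_le_rpow (Nat.cast_nonneg _) (by exact_mod_cast hn) hG
    have h3 : (0 : ℝ) ≤ (n : ℝ) ^ G := Real.rpow_nonneg (Nat.cast_nonneg _) _
    rw [Real.norm_natCast, Real.norm_of_nonneg h3] at h1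
    have h4 : C * (n : ℝ) ^ G ≤ max C 0 * (n : ℝ) ^ G :=
      mul_le_mul_of_nonneg_right (le_max_left _ _) h3
    have h5 : max C 0 * (n : ℝ) ^ G ≤ max C 0 * (X : ℝ) ^ G :=
      mul_le_mul_of_nonneg_left h2 hC0
    nlinarith

/-- The reduction as a term. -/
theorem exists_reduction : ∃ (e : E) (N d : ℕ), (∀ x : Inp, eval e (enc x) = enc (outBits x)) ∧
    regsLt (N + 2) (topCmd e) ∧ 1 ≤ d ∧ ∀ v, size (eval e v) ≤ (size v + 2) ^ d ∧
      cost e v ≤ (size v + 2) ^ d := by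
  obtain ⟨e, he⟩ : PT (fun x : Inp => outBits x) := outBits_pt (f := fun x : Inp => x) (by fun_prop)
  obtain ⟨N, hN⟩ := exists_regsLt (topCmd e)
  obtain ⟨⟨d1, h1⟩, ⟨d2, h2⟩⟩ := poly_term e
  refine ⟨e, N, d1 + d2 + 1, he, hN, by omega, fun v => ?_⟩
  have h3 : 1 ≤ size v + 2 := by omega
  exact ⟨(h1 v).trans (Nat.pow_le_pow_right h3 (by omega)),
    (h2 v).trans (Nat.pow_le_pow_right h3 (by omega))⟩

theorem length_le_size_enc (y : List Bool) : y.length ≤ size (enc y) := by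
  have h1 := length_toL_le (enc y)
  have h2 : toL (enc y) = y.map ofB := toL_ofL _
  rw [h2, List.length_map] at h1
  exact h1

/-- A bound for the time of the reduction. -/
theorem T0_bound {s cst yl t d B : ℕ} (hd : 1 ≤ d) (hw : s + 2 ≤ B) (hy : yl ≤ (s + 2) ^ d)
    (hc : cst ≤ (s + 2) ^ d) (ht : t ≤ 3 * s + 3 + cst + 14 * yl + 9) :
    yl + 2 + (t + (s + 1)) ≤ 35 * B ^ d := by
  have h1 : (s + 2) ^ d ≤ B ^ d := Nat.pow_le_pow_left hw d
  have h2 : s + 2 ≤ (s + 2) ^ d := Nat.le_self_pow (by omega) _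
  omega

/-- The contradiction in the real numbers. -/
theorem final_num {K : ℝ} {B mT d : ℕ} {G : ℝ} {τ T0 : ℕ} (hmT : 1 ≤ mT) (hB : 1 ≤ B)
    (hdm : d ≤ mT - 1)
    (hG : d * G ≤ ((mT - 1 : ℕ) : ℝ)) (hK0 : 0 ≤ K)
    (hτ : (τ : ℝ) ≤ K * ((B ^ d : ℕ) : ℝ) ^ G) (hT0 : T0 ≤ 35 * B ^ d)
    (hmain : B ^ mT ≤ τ + T0) : (B : ℝ) ≤ K + 35 := by
  have hB1 : (1 : ℝ) ≤ B := by exact_mod_cast hB
  have hB0 : (0 : ℝ) < B := by linarith
  have e1 : ((B ^ d : ℕ) : ℝ) ^ G ≤ (B : ℝ) ^ (mT - 1) := by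
    rw [Nat.cast_pow, ← Real.rpow_natCast (B : ℝ) d, ← Real.rpow_mul hB0.le,
      ← Real.rpow_natCast (B : ℝ) (mT - 1)]
    exact Real.rpow_le_rpow_of_exponent_le hB1 hG
  have e2 : ((B ^ d : ℕ) : ℝ) ≤ (B : ℝ) ^ (mT - 1) := by
    rw [Nat.cast_pow]
    exact pow_le_pow_right₀ hB1 hdm
  have e3 : (B : ℝ) ^ mT = (B : ℝ) ^ (mT - 1) * B := by
    rw [← pow_succ]
    congr 1
    omega
  have e4 : ((B ^ mT : ℕ) : ℝ) ≤ τ + T0 := by exact_mod_cast hmain
  have e5 : (T0 : ℝ) ≤ 35 * ((B ^ d : ℕ) : ℝ) := by exact_mod_cast hT0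
  have e6 : (0 : ℝ) < (B : ℝ) ^ (mT - 1) := by positivity
  rw [Nat.cast_pow, e3] at e4
  have e7 : (τ : ℝ) ≤ K * (B : ℝ) ^ (mT - 1) := hτ.trans (mul_le_mul_of_nonneg_left e1 hK0)
  have e8 : (B : ℝ) ^ (mT - 1) * B ≤ (B : ℝ) ^ (mT - 1) * (K + 35) := by
    rw [mul_add]
    nlinarith
  exact le_of_mul_le_mul_left e8 e6

/-- The lower bound for all large even dimensions. -/
theorem lower_bound : ∃ c : ℝ, 0 < c ∧ ∃ m0 : ℕ, ∀ m : ℕ, m0 ≤ m → Even m → ∀ M : TM, M.Decides m →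
    ¬ (fun n : ℕ => (M.worstTime n : ℝ)) =O[atTop] fun n : ℕ => (n : ℝ) ^ (c * m) := by
  obtain ⟨e, N, d, he, hN, hd1, hd⟩ := exists_reduction
  have hd0 : (0 : ℝ) < d := by exact_mod_cast hd1
  refine ⟨1 / (8 * d), by positivity, 4 * d + 20, ?_⟩
  rintro m hm ⟨k, rfl⟩ A hA hO
  have hG0 : 0 ≤ 1 / (8 * (d : ℝ)) * ((k + k : ℕ) : ℝ) := by positivity
  obtain ⟨K, hK0, hK⟩ := worst_bound hG0 hO
  obtain ⟨mT, hmT⟩ : ∃ mT, mT = k / 2 - 1 := ⟨_, rfl⟩
  obtain ⟨mP, hmP⟩ : ∃ mP, mP = k - mT := ⟨_, rfl⟩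
  have hk : 2 < mT + mP := by omega
  have hmm : mT + 2 ≤ mP := by omega
  have hAdec : A.Decides (2 * (mT + mP)) := by
    have h1 : 2 * (mT + mP) = k + k := by omega
    rwa [h1]
  obtain ⟨L, hL⟩ := exists_nat_gt (K + 35)
  obtain ⟨bh, hbh⟩ : ∃ bh, bh = L + 6 + sizeK (descOf (compose A (topCmd e) N)) mT mP := ⟨_, rfl⟩
  obtain ⟨x, hx⟩ : ∃ x, x = mkInp (descOf (compose A (topCmd e) N)) mT mP bh := ⟨_, rfl⟩
  have hsz : size (enc x) + 2 ≤ 4 ^ bh := by
    rw [hx]
    exact size_mkInp_le (by omega) (by omega)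
  obtain ⟨n, G0, G1, hG, t, ht, hmain⟩ := time_lb (A := A) he hN hk hmm (by omega) hx (by omega) hAdec
  have hy : (outBits x).length ≤ (size (enc x) + 2) ^ d := by
    refine (length_le_size_enc _).trans ?_
    rw [← he x]
    exact (hd _).1
  have hB1 : 1 ≤ 4 ^ bh := Nat.one_le_pow _ _ (by norm_num)
  have hT := T0_bound hd1 hsz hy (hd _).2 ht
  have hn : n ≤ (4 ^ bh) ^ d := by
    refine (le_length_pairBits G0 G1).trans ?_
    rw [hG]
    exact hy.trans (Nat.pow_le_pow_left hsz d)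
  have hτ : (A.time (TM.pairBits G0 G1) : ℝ) ≤ K * (((4 ^ bh) ^ d : ℕ) : ℝ) ^
      (1 / (8 * (d : ℝ)) * ((k + k : ℕ) : ℝ)) := by
    refine le_trans ?_ (hK _ n (Nat.one_le_pow _ _ hB1) hn)
    exact_mod_cast time_le_worst A G0 G1
  have hGd : (d : ℝ) * (1 / (8 * (d : ℝ)) * ((k + k : ℕ) : ℝ)) ≤ ((mT - 1 : ℕ) : ℝ) := by
    have h1 : (d : ℝ) * (1 / (8 * (d : ℝ)) * ((k + k : ℕ) : ℝ)) = (k : ℝ) / 4 := by
      push_cast
      field_simp
      ring
    rw [h1]
    have h2 : k ≤ 4 * (mT - 1) := by omega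
    have h3 : (k : ℝ) ≤ 4 * ((mT - 1 : ℕ) : ℝ) := by exact_mod_cast h2
    linarith
  have hfin := final_num (by omega) hB1 (by omega) hGd hK0 hτ hT hmain
  have h4 : L ≤ 4 ^ bh := by
    have h5 : bh < 4 ^ bh := Nat.lt_pow_self (by norm_num)
    omega
  have h6 : (L : ℝ) ≤ ((4 ^ bh : ℕ) : ℝ) := by exact_mod_cast h4
  linarith

/-- The first question: there is no exponent of smaller order. -/
theorem no_small_exponent : ¬ ∃ g : ℕ → ℝ, g =o[atTop] (fun k : ℕ => (k : ℝ)) ∧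
    ∀ k : ℕ, 2 ≤ k → ∃ M : TM, M.Decides k ∧
      (fun n : ℕ => (M.worstTime n : ℝ)) =O[atTop] fun n : ℕ => (n : ℝ) ^ g k := by
  rintro ⟨g, hg, hM⟩
  obtain ⟨c, hc, m0, hlb⟩ := lower_bound
  obtain ⟨n0, hn0⟩ := eventually_atTop.1 (hg.def hc)
  obtain ⟨m, hm⟩ : ∃ m, m = 2 * (m0 + n0 + 1) := ⟨_, rfl⟩
  obtain ⟨M, hdec, hO⟩ := hM m (by omega)
  refine hlb m (by omega) ⟨m0 + n0 + 1, by omega⟩ M hdec (hO.trans ?_)
  have h1 := hn0 m (by omega)
  rw [Real.norm_natCast] at h1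
  have h2 : g m ≤ c * m := (le_abs_self _).trans h1
  refine IsBigO.of_bound 1 ?_
  filter_upwards [eventually_ge_atTop 1] with n hn
  have h3 : (1 : ℝ) ≤ n := by exact_mod_cast hn
  have h4 : (n : ℝ) ^ g m ≤ (n : ℝ) ^ (c * m) := Real.rpow_le_rpow_of_exponent_le h3 h2
  have h5 : (0 : ℝ) ≤ (n : ℝ) ^ g m := Real.rpow_nonneg (by linarith) _
  have h6 : (0 : ℝ) ≤ (n : ℝ) ^ (c * m) := Real.rpow_nonneg (by linarith) _
  rw [Real.norm_of_nonneg h5, Real.norm_of_nonneg h6, one_mul]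
  exact h4

end Vale.Agent.P310x
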