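import Vale.Agent.P310h2.Defs

/-!
# Multi-tape Turing machines, and what it means to decide equivalence

A deterministic Turing machine with finitely many two-way infinite tapes, finitely many states, a
finite alphabet with a blank and two input symbols, a start state and two halting states. The input
is written on the input tape from position `0`, all heads start at position `0`, all other cells are
blank.

A machine decides `m`-dimensional equivalence if on each pair of graphs with `n` vertices each,
given by their adjacency matrices (row by row, first graph first), it halts, and it halts in the
accepting state exactly when the graphs are equivalent. Its worst case time is `worstTime`.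
-/

namespace Vale.Agent.P310x

open Function Vale.Agent.P310h2

open scoped Classical

/-- The movements of a head. -/
inductive Dir : Type
  | left
  | stay
  | right

/-- The change of the position of a head. -/
def Dir.toInt : Dir → ℤ
  | .left => -1
  | .stay => 0
  | .right => 1

/-- A deterministic multi-tape Turing machine. -/
structure TM where
  Tp : Type
  St : Type
  Sym : Type
  finTp : Finite Tp
  finSt : Finite St
  finSym : Finite Sym
  input : Tp
  blank : Sym
  zero : Sym
  one : Sym
  zero_ne_one : zero ≠ one
  zero_ne_blank : zero ≠ blank
  one_ne_blank : one ≠ blank
  start : St
  acc : St
  rej : St
  acc_ne_rej : acc ≠ rej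
  next : St → (Tp → Sym) → St × (Tp → Sym) × (Tp → Dir)

namespace TM

variable (M : TM)

/-- A configuration: the state, the positions of the heads, the contents of the tapes. -/
@[ext] structure Cfg where
  st : M.St
  head : M.Tp → ℤ
  tape : M.Tp → ℤ → M.Sym

variable {M}

/-- One step: a halted configuration stays; otherwise the machine reads the symbols under the heads,
and writes, moves and changes its state as `next` says. -/
noncomputable def Cfg.step (c : M.Cfg) : M.Cfg :=
  if c.st = M.acc ∨ c.st = M.rej then c else
    let r := M.next c.st (fun t => c.tape t (c.head t))
    { st := r.1
      head := fun t => c.head t + (r.2.2 t).toInt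
      tape := fun t => update (c.tape t) (c.head t) (r.2.1 t) }

variable (M)

/-- The symbol of an input bit. -/
def bitSym (b : Bool) : M.Sym := if b then M.one else M.zero

/-- The start configuration on the input `x`. -/
noncomputable def init (x : List Bool) : M.Cfg where
  st := M.start
  head := fun _ => 0
  tape := fun t p =>
    if t = M.input ∧ 0 ≤ p ∧ p < x.length then M.bitSym (x.getD p.toNat false) else M.blank

/-- The configuration after `n` steps on the input `x`. -/
noncomputable def run (x : List Bool) (n : ℕ) : M.Cfg := Cfg.step^[n] (M.init x)

/-- The machine has halted after `n` steps on the input `x`. -/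
def HaltedAt (x : List Bool) (n : ℕ) : Prop :=
  (M.run x n).st = M.acc ∨ (M.run x n).st = M.rej

/-- The running time on the input `x`: the first time at which it has halted. -/
noncomputable def time (x : List Bool) : ℕ := sInf {n | M.HaltedAt x n}

/-- The adjacency matrix of a graph on `Fin n`, row by row. -/
noncomputable def adjBits {n : ℕ} (G : SimpleGraph (Fin n)) : List Bool :=
  (List.finRange n).flatMap fun i => (List.finRange n).map fun j => decide (G.Adj i j)

/-- The input for a pair of graphs. -/
noncomputable def pairBits {n : ℕ} (G H : SimpleGraph (Fin n)) : List Bool :=
  adjBits G ++ adjBits H

/-- `M` decides `m`-dimensional equivalence: on each pair of graphs with `n` vertices each it halts,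
and it accepts exactly the equivalent pairs. -/
def Decides (m : ℕ) : Prop :=
  ∀ (n : ℕ) (G H : SimpleGraph (Fin n)),
    (∃ t, M.HaltedAt (pairBits G H) t) ∧
      ((M.run (pairBits G H) (M.time (pairBits G H))).st = M.acc ↔ WLEquiv G H m)

/-- The worst case running time over pairs of graphs with `n` vertices each. -/
noncomputable def worstTime (n : ℕ) : ℕ :=
  sSup {t | ∃ G H : SimpleGraph (Fin n), t = M.time (pairBits G H)}

end TM

end Vale.Agent.P310x
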