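import Vale.Agent.P310x.Cmd
import Vale.Agent.P310x.Model

/-!
# Stack programs as control units of Turing machines

Each stack is kept on a tape: the bottom at position `0`, the head just after the top.
-/

namespace Vale.Agent.P310x

open Function

open scoped Classical

/-- The control states of a stack program. -/
def CSt : Cmd → Type
  | .nop => Unit
  | .push _ _ => Unit
  | .pop _ c0 c1 cE => Bool ⊕ (CSt c0 ⊕ (CSt c1 ⊕ CSt cE))
  | .seq a b => CSt a ⊕ CSt b
  | .loop _ c0 c1 => Bool ⊕ (CSt c0 ⊕ CSt c1)

theorem finite_CSt (c : Cmd) : Finite (CSt c) := by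
  induction c with
  | nop => exact inferInstanceAs (Finite Unit)
  | push r b => exact inferInstanceAs (Finite Unit)
  | pop r c0 c1 cE h0 h1 hE =>
    have := h0; have := h1; have := hE
    exact inferInstanceAs (Finite (Bool ⊕ (CSt c0 ⊕ (CSt c1 ⊕ CSt cE))))
  | seq a b ha hb =>
    have := ha; have := hb
    exact inferInstanceAs (Finite (CSt a ⊕ CSt b))
  | loop r c0 c1 h0 h1 =>
    have := h0; have := h1
    exact inferInstanceAs (Finite (Bool ⊕ (CSt c0 ⊕ CSt c1)))

/-- The entry state. -/
def entry : (c : Cmd) → CSt c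
  | .nop => ()
  | .push _ _ => ()
  | .pop _ _ _ _ => Sum.inl false
  | .seq a _ => Sum.inl (entry a)
  | .loop _ _ _ => Sum.inl false

section

variable {T Γ : Type} (ρ : ℕ → T) (blank zero one : Γ)

/-- What a step does: the written symbols and the movements. -/
abbrev Act (T Γ : Type) : Type := (T → Γ) × (T → Dir)

/-- Act on one tape only. -/
noncomputable def single (u : T) (g : Γ) (dir : Dir) (s : T → Γ) : Act T Γ :=
  (fun t => if t = u then g else s t, fun t => if t = u then dir else .stay)

/-- The symbol of a bit. -/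
def bsym (b : Bool) : Γ := if b then one else zero

/-- One step of a control unit: what it does, and the next control state, or `none` at the end. -/
noncomputable def fstep : (c : Cmd) → CSt c → (T → Γ) → Act T Γ × Option (CSt c)
  | .nop, _, s => ((s, fun _ => .stay), none)
  | .push r b, _, s => (single (ρ r) (bsym zero one b) .right s, none)
  | .pop r _ _ _, Sum.inl false, s => (single (ρ r) (s (ρ r)) .left s, some (Sum.inl true))
  | .pop r c0 c1 cE, Sum.inl true, s =>
    if s (ρ r) = zero then (single (ρ r) blank .stay s, some (Sum.inr (Sum.inl (entry c0))))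
    else if s (ρ r) = one then
      (single (ρ r) blank .stay s, some (Sum.inr (Sum.inr (Sum.inl (entry c1)))))
    else (single (ρ r) (s (ρ r)) .right s, some (Sum.inr (Sum.inr (Sum.inr (entry cE)))))
  | .pop _ c0 _ _, Sum.inr (Sum.inl q), s =>
    ((fstep c0 q s).1, (fstep c0 q s).2.map fun q' => Sum.inr (Sum.inl q'))
  | .pop _ _ c1 _, Sum.inr (Sum.inr (Sum.inl q)), s =>
    ((fstep c1 q s).1, (fstep c1 q s).2.map fun q' => Sum.inr (Sum.inr (Sum.inl q')))
  | .pop _ _ _ cE, Sum.inr (Sum.inr (Sum.inr q)), s =>
    ((fstep cE q s).1, (fstep cE q s).2.map fun q' => Sum.inr (Sum.inr (Sum.inr q')))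
  | .seq a b, Sum.inl q, s =>
    ((fstep a q s).1, some ((fstep a q s).2.elim (Sum.inr (entry b)) Sum.inl))
  | .seq _ b, Sum.inr q, s => ((fstep b q s).1, (fstep b q s).2.map Sum.inr)
  | .loop r _ _, Sum.inl false, s => (single (ρ r) (s (ρ r)) .left s, some (Sum.inl true))
  | .loop r c0 c1, Sum.inl true, s =>
    if s (ρ r) = zero then (single (ρ r) blank .stay s, some (Sum.inr (Sum.inl (entry c0))))
    else if s (ρ r) = one then (single (ρ r) blank .stay s, some (Sum.inr (Sum.inr (entry c1))))
    else (single (ρ r) (s (ρ r)) .right s, none)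
  | .loop _ c0 _, Sum.inr (Sum.inl q), s =>
    ((fstep c0 q s).1, some ((fstep c0 q s).2.elim (Sum.inl false) fun q' => Sum.inr (Sum.inl q')))
  | .loop _ _ c1, Sum.inr (Sum.inr q), s =>
    ((fstep c1 q s).1, some ((fstep c1 q s).2.elim (Sum.inl false) fun q' => Sum.inr (Sum.inr q')))

/-- The heads and the tapes. -/
@[ext] structure TS (T Γ : Type) where
  head : T → ℤ
  tape : T → ℤ → Γ

/-- The symbols under the heads. -/
def TS.read (ts : TS T Γ) : T → Γ := fun t => ts.tape t (ts.head t)

/-- The effect of an action. -/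
def TS.act (ts : TS T Γ) (a : Act T Γ) : TS T Γ where
  head := fun t => ts.head t + (a.2 t).toInt
  tape := fun t => update (ts.tape t) (ts.head t) (a.1 t)

/-- Change the position of one head. -/
noncomputable def TS.setHead (ts : TS T Γ) (u : T) (v : ℤ) : TS T Γ := ⟨update ts.head u v, ts.tape⟩

@[simp] theorem TS.setHead_setHead (ts : TS T Γ) (u : T) (v w : ℤ) :
    (ts.setHead u v).setHead u w = ts.setHead u w := by
  simp [TS.setHead]

@[simp] theorem TS.setHead_tape (ts : TS T Γ) (u : T) (v : ℤ) : (ts.setHead u v).tape = ts.tape := rfl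

@[simp] theorem TS.setHead_head_self (ts : TS T Γ) (u : T) (v : ℤ) : (ts.setHead u v).head u = v := by
  simp [TS.setHead]

theorem TS.setHead_head_ne (ts : TS T Γ) {u t : T} (v : ℤ) (h : t ≠ u) :
    (ts.setHead u v).head t = ts.head t := by
  simp [TS.setHead, Function.update_of_ne h]

@[simp] theorem TS.setHead_read_self (ts : TS T Γ) (u : T) (v : ℤ) :
    (ts.setHead u v).read u = ts.tape u v := by
  simp [TS.read]

/-- The run of a control unit from a control state to its end, with the number of steps. -/
inductive Reach : (c : Cmd) → CSt c → TS T Γ → TS T Γ → ℕ → Prop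
  | done {c : Cmd} {q : CSt c} {ts : TS T Γ} :
      (fstep ρ blank zero one c q ts.read).2 = none →
      Reach c q ts (ts.act (fstep ρ blank zero one c q ts.read).1) 1
  | next {c : Cmd} {q q' : CSt c} {ts ts' : TS T Γ} {t : ℕ} :
      (fstep ρ blank zero one c q ts.read).2 = some q' →
      Reach c q' (ts.act (fstep ρ blank zero one c q ts.read).1) ts' t →
      Reach c q ts ts' (t + 1)

variable {ρ blank zero one}

/-- A part of a control unit, when its end is the end of the whole unit. -/
theorem Reach.lift_end {a c : Cmd} (f : CSt a → CSt c)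
    (hf : ∀ q s, fstep ρ blank zero one c (f q) s =
      ((fstep ρ blank zero one a q s).1, (fstep ρ blank zero one a q s).2.map f))
    {q : CSt a} {ts ts' : TS T Γ} {t : ℕ} (h : Reach ρ blank zero one a q ts ts' t) :
    Reach ρ blank zero one c (f q) ts ts' t := by
  induction h with
  | @done q ts e =>
    have e2 : (fstep ρ blank zero one c (f q) ts.read).2 = none := by rw [hf, e]; rfl
    have := Reach.done (ρ := ρ) (blank := blank) (zero := zero) (one := one) (c := c) e2
    rwa [hf] at this
  | @next q q' ts _ _ e _ ih =>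
    have e2 : (fstep ρ blank zero one c (f q) ts.read).2 = some (f q') := by rw [hf, e]; rfl
    refine Reach.next e2 ?_
    rw [hf]
    exact ih

/-- A part of a control unit, which continues at `q0` in the whole unit. -/
theorem Reach.lift_cont {a c : Cmd} (f : CSt a → CSt c) (q0 : CSt c)
    (hf : ∀ q s, fstep ρ blank zero one c (f q) s =
      ((fstep ρ blank zero one a q s).1, some ((fstep ρ blank zero one a q s).2.elim q0 f)))
    {q : CSt a} {ts ts' ts'' : TS T Γ} {t t' : ℕ} (h : Reach ρ blank zero one a q ts ts' t)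
    (h2 : Reach ρ blank zero one c q0 ts' ts'' t') :
    Reach ρ blank zero one c (f q) ts ts'' (t + t') := by
  induction h with
  | @done q ts e =>
    have e2 : (fstep ρ blank zero one c (f q) ts.read).2 = some q0 := by rw [hf, e]; rfl
    rw [add_comm]
    refine Reach.next e2 ?_
    rw [hf]
    exact h2
  | @next q q' ts _ _ e _ ih =>
    have e2 : (fstep ρ blank zero one c (f q) ts.read).2 = some (f q') := by rw [hf, e]; rfl
    have e3 : ∀ x y : ℕ, x + 1 + y = x + y + 1 := by intros; omega
    rw [e3]
    refine Reach.next e2 ?_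
    rw [hf]
    exact ih h2

theorem Reach.trans_seq {a b : Cmd} {ts ts1 ts2 : TS T Γ} {t1 t2 : ℕ} {q : CSt a}
    (h1 : Reach ρ blank zero one a q ts ts1 t1)
    (h2 : Reach ρ blank zero one b (entry b) ts1 ts2 t2) :
    Reach ρ blank zero one (.seq a b) (Sum.inl q) ts ts2 (t1 + t2) := by
  refine Reach.lift_cont (a := a) (c := .seq a b) Sum.inl (Sum.inr (entry b)) ?_ h1 ?_
  · intro q s
    rfl
  · exact Reach.lift_end (a := b) (c := .seq a b) Sum.inr (fun q s => rfl) h2

/-- The contents of a tape with a stack. -/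
noncomputable def repT (zero one blank : Γ) (l : List Bool) : ℤ → Γ := fun p =>
  if 0 ≤ p ∧ p < l.length then bsym zero one (l.reverse.getD p.toNat false) else blank

theorem repT_push (l : List Bool) (b : Bool) :
    update (repT zero one blank l) (l.length : ℤ) (bsym zero one b) =
      repT zero one blank (b :: l) := by
  funext p
  by_cases h : p = l.length
  · subst h
    simp [repT]
  · rw [Function.update_of_ne h]
    simp only [repT, List.length_cons, List.reverse_cons]
    by_cases h1 : 0 ≤ p ∧ p < l.length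
    · have h2 : 0 ≤ p ∧ p < ((l.length + 1 : ℕ) : ℤ) := by push_cast; omega
      rw [if_pos h1, if_pos h2]
      have h3 : p.toNat < l.reverse.length := by simp; omega
      rw [List.getD_append _ _ _ _ h3]
    · have h2 : ¬ (0 ≤ p ∧ p < ((l.length + 1 : ℕ) : ℤ)) := by push_cast; omega
      rw [if_neg h1, if_neg h2]

theorem repT_read (l : List Bool) (b : Bool) :
    repT zero one blank (b :: l) (l.length : ℤ) = bsym zero one b := by
  simp [repT]

theorem repT_neg (l : List Bool) : repT zero one blank l (-1) = blank := by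
  simp [repT]

theorem repT_pop (l : List Bool) (b : Bool) :
    update (repT zero one blank (b :: l)) (l.length : ℤ) blank = repT zero one blank l := by
  funext p
  by_cases h : p = l.length
  · subst h
    simp [repT]
  · rw [Function.update_of_ne h]
    simp only [repT, List.length_cons, List.reverse_cons]
    by_cases h1 : 0 ≤ p ∧ p < l.length
    · have h2 : 0 ≤ p ∧ p < ((l.length + 1 : ℕ) : ℤ) := by push_cast; omega
      rw [if_pos h1, if_pos h2]
      have h3 : p.toNat < l.reverse.length := by simp; omega
      rw [List.getD_append _ _ _ _ h3]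
    · have h2 : ¬ (0 ≤ p ∧ p < ((l.length + 1 : ℕ) : ℤ)) := by push_cast; omega
      rw [if_neg h1, if_neg h2]

theorem act_single (ts : TS T Γ) (u : T) (g : Γ) (dir : Dir) :
    ts.act (single u g dir ts.read) =
      { head := update ts.head u (ts.head u + dir.toInt)
        tape := update ts.tape u (update (ts.tape u) (ts.head u) g) } := by
  ext t
  · simp only [TS.act, single]
    by_cases h : t = u
    · subst h
      simp
    · simp [h, Dir.toInt]
  · rename_i p
    simp only [TS.act, single]
    by_cases h : t = u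
    · subst h
      simp
    · simp [h, TS.read]

/-- All stacks used by a program are below `N`. -/
def regsLt (N : ℕ) : Cmd → Prop
  | .nop => True
  | .push r _ => r < N
  | .pop r c0 c1 cE => r < N ∧ regsLt N c0 ∧ regsLt N c1 ∧ regsLt N cE
  | .seq a b => regsLt N a ∧ regsLt N b
  | .loop r c0 c1 => r < N ∧ regsLt N c0 ∧ regsLt N c1

variable (ρ blank zero one)

/-- The tapes hold the stacks. -/
structure Rep (N : ℕ) (σ : Stk) (ts : TS T Γ) : Prop where
  tape : ∀ r, r < N → ts.tape (ρ r) = repT zero one blank (σ r)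
  head : ∀ r, r < N → ts.head (ρ r) = ((σ r).length : ℤ)

/-- The tapes that do not hold a stack do not change. -/
def Fr (N : ℕ) (ts ts' : TS T Γ) : Prop :=
  ∀ u, (∀ r, r < N → ρ r ≠ u) → ts'.head u = ts.head u ∧ ts'.tape u = ts.tape u

variable {ρ blank zero one}

theorem Fr.refl (N : ℕ) (ts : TS T Γ) : Fr ρ N ts ts := fun _ _ => ⟨rfl, rfl⟩

theorem Fr.trans {N : ℕ} {a b c : TS T Γ} (h1 : Fr ρ N a b) (h2 : Fr ρ N b c) : Fr ρ N a c := by
  intro u hu
  obtain ⟨e1, e2⟩ := h1 u hu
  obtain ⟨e3, e4⟩ := h2 u hu
  exact ⟨e3.trans e1, e4.trans e2⟩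

theorem Fr.single {N r : ℕ} (hr : r < N) (ts ts' : TS T Γ)
    (h : ∀ u, u ≠ ρ r → ts'.head u = ts.head u ∧ ts'.tape u = ts.tape u) : Fr ρ N ts ts' := by
  intro u hu
  exact h u (fun e => hu r hr e.symm)

variable {N : ℕ}

/-- Moving left on a stack and back. -/
theorem left_act (ts : TS T Γ) (u : T) :
    ts.act (single u (ts.read u) .left ts.read) = ts.setHead u (ts.head u - 1) := by
  rw [act_single]
  have : update (ts.tape u) (ts.head u) (ts.read u) = ts.tape u := by
    simp [TS.read]
  rw [this]
  simp [Dir.toInt, sub_eq_add_neg, TS.setHead]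

theorem right_act (ts : TS T Γ) (u : T) :
    ts.act (single u (ts.read u) .right ts.read) = ts.setHead u (ts.head u + 1) := by
  rw [act_single]
  have : update (ts.tape u) (ts.head u) (ts.read u) = ts.tape u := by
    simp [TS.read]
  rw [this]
  simp [Dir.toInt, TS.setHead]

theorem blank_act (ts : TS T Γ) (u : T) (g : Γ) :
    ts.act (single u g .stay ts.read) =
      { head := ts.head, tape := update ts.tape u (update (ts.tape u) (ts.head u) g) } := by
  rw [act_single]
  simp [Dir.toInt]

section two

variable {σ : Stk} {ts : TS T Γ} {r : ℕ} (hρ : ∀ r r', r < N → r' < N → ρ r = ρ r' → r = r')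
  (hr : r < N) (hR : Rep ρ blank zero one N σ ts)

include hρ hr hR

theorem rep_after_pop {b : Bool} {l : List Bool} (e : σ r = b :: l) :
    Rep ρ blank zero one N (update σ r l)
      { head := update ts.head (ρ r) (l.length : ℤ)
        tape := update ts.tape (ρ r) (repT zero one blank l) } := by
  constructor
  · intro r' hr'
    by_cases h : r' = r
    · subst h
      simp
    · have h2 : ρ r' ≠ ρ r := fun e => h (hρ _ _ hr' hr e)
      simp only [Function.update_of_ne h2, Function.update_of_ne h]
      exact hR.tape r' hr'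
  · intro r' hr'
    by_cases h : r' = r
    · subst h
      simp
    · have h2 : ρ r' ≠ ρ r := fun e => h (hρ _ _ hr' hr e)
      simp only [Function.update_of_ne h2, Function.update_of_ne h]
      exact hR.head r' hr'

theorem rep_after_push (b : Bool) :
    Rep ρ blank zero one N (update σ r (b :: σ r))
      { head := update ts.head (ρ r) (((σ r).length : ℤ) + 1)
        tape := update ts.tape (ρ r) (repT zero one blank (b :: σ r)) } := by
  constructor
  · intro r' hr'
    by_cases h : r' = r
    · subst h
      simp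
    · have h2 : ρ r' ≠ ρ r := fun e => h (hρ _ _ hr' hr e)
      simp only [Function.update_of_ne h2, Function.update_of_ne h]
      exact hR.tape r' hr'
  · intro r' hr'
    by_cases h : r' = r
    · subst h
      simp
    · have h2 : ρ r' ≠ ρ r := fun e => h (hρ _ _ hr' hr e)
      simp only [Function.update_of_ne h2, Function.update_of_ne h]
      exact hR.head r' hr'

end two

section steps

variable {σ : Stk} {ts : TS T Γ} {r : ℕ}

/-- The tape state after moving left on the stack `r`. -/
noncomputable def ts1 (ρ : ℕ → T) (r : ℕ) (σ : Stk) (ts : TS T Γ) : TS T Γ :=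
  ts.setHead (ρ r) (((σ r).length : ℤ) - 1)

/-- The tape state after a pop. -/
noncomputable def ts2 (ρ : ℕ → T) (blank zero one : Γ) (r : ℕ) (l : List Bool) (ts : TS T Γ) : TS T Γ :=
  { head := update ts.head (ρ r) (l.length : ℤ)
    tape := update ts.tape (ρ r) (repT zero one blank l) }

theorem ts_left (hr : r < N) (hR : Rep ρ blank zero one N σ ts) :
    ts.act (single (ρ r) (ts.read (ρ r)) .left ts.read) = ts1 ρ r σ ts := by
  rw [left_act, hR.head r hr]
  rfl

theorem ts1_tape : (ts1 ρ r σ ts).tape = ts.tape := rfl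

theorem read1 (hr : r < N) (hR : Rep ρ blank zero one N σ ts) {b : Bool} {l : List Bool}
    (e : σ r = b :: l) : (ts1 ρ r σ ts).read (ρ r) = bsym zero one b := by
  simp only [ts1, TS.setHead_read_self, hR.tape r hr, e, List.length_cons]
  have : (((l.length + 1 : ℕ) : ℤ) - 1) = (l.length : ℤ) := by push_cast; omega
  rw [this, repT_read]

theorem read1E (hr : r < N) (hR : Rep ρ blank zero one N σ ts) (e : σ r = []) :
    (ts1 ρ r σ ts).read (ρ r) = blank := by
  simp only [ts1, TS.setHead_read_self, hR.tape r hr, e, List.length_nil]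
  exact repT_neg (zero := zero) (one := one) (blank := blank) []

theorem ts_pop (hr : r < N) (hR : Rep ρ blank zero one N σ ts) {b : Bool} {l : List Bool}
    (e : σ r = b :: l) :
    (ts1 ρ r σ ts).act (single (ρ r) blank .stay (ts1 ρ r σ ts).read) = ts2 ρ blank zero one r l ts := by
  rw [blank_act]
  have e1 : (ts1 ρ r σ ts).head = update ts.head (ρ r) (l.length : ℤ) := by
    simp only [ts1, e, List.length_cons]
    have : (((l.length + 1 : ℕ) : ℤ) - 1) = (l.length : ℤ) := by push_cast; omega
    rw [this]
    rfl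
  have e2 : (ts1 ρ r σ ts).tape (ρ r) = repT zero one blank (b :: l) := by
    simp only [ts1, TS.setHead_tape, hR.tape r hr, e]
  rw [e1, e2]
  simp only [ts1, ts2, TS.setHead_tape, Function.update_self, repT_pop]

theorem ts_back (hr : r < N) (hR : Rep ρ blank zero one N σ ts) :
    (ts1 ρ r σ ts).act (single (ρ r) ((ts1 ρ r σ ts).read (ρ r)) .right (ts1 ρ r σ ts).read) = ts := by
  rw [right_act]
  ext t
  · simp only [ts1, TS.setHead, Function.update_self, Function.update_apply]
    split_ifs with h
    · subst h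
      rw [hR.head r hr]
      omega
    · rfl
  · rfl

theorem ts2_fr (hr : r < N) (l : List Bool) : Fr ρ N ts (ts2 ρ blank zero one r l ts) := by
  refine Fr.single hr _ _ fun u hu => ?_
  simp [ts2, Function.update_of_ne hu]

end steps

theorem Reach.step' {c : Cmd} {q q' : CSt c} {ts ts1 ts' : TS T Γ} {t : ℕ} {a : Act T Γ}
    (e : fstep ρ blank zero one c q ts.read = (a, some q')) (ea : ts.act a = ts1)
    (h : Reach ρ blank zero one c q' ts1 ts' t) : Reach ρ blank zero one c q ts ts' (t + 1) := by
  refine Reach.next (q' := q') (by rw [e]) ?_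
  rw [e]
  subst ea
  exact h

/-- A stack program is simulated by its control unit, in exactly the same number of steps. -/
theorem sim (hz1 : zero ≠ one) (hz2 : zero ≠ blank) (hz3 : one ≠ blank)
    (hρ : ∀ r r', r < N → r' < N → ρ r = ρ r' → r = r') {c : Cmd} {σ σ' : Stk} {t : ℕ}
    (h : Run c σ σ' t) : regsLt N c → ∀ ts : TS T Γ, Rep ρ blank zero one N σ ts →
      ∃ ts', Reach ρ blank zero one c (entry c) ts ts' t ∧ Rep ρ blank zero one N σ' ts' ∧
        Fr ρ N ts ts' := by
  induction h with
  | nop s =>
    intro _ ts hR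
    refine ⟨ts, ?_, hR, Fr.refl _ _⟩
    have h1 := Reach.done (ρ := ρ) (blank := blank) (zero := zero) (one := one) (c := .nop) (q := ())
      (ts := ts) rfl
    have h2 : ts.act (fstep ρ blank zero one .nop () ts.read).1 = ts := by
      ext t
      · simp [TS.act, fstep, Dir.toInt]
      · simp [TS.act, fstep, TS.read]
    rwa [h2] at h1
  | push r b s =>
    intro hreg ts hR
    have hreg' : r < N := hreg
    have h1 := Reach.done (ρ := ρ) (blank := blank) (zero := zero) (one := one) (c := .push r b)
      (q := ()) (ts := ts) rfl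
    have h2 : ts.act (fstep ρ blank zero one (.push r b) () ts.read).1 =
        { head := update ts.head (ρ r) (((s r).length : ℤ) + 1)
          tape := update ts.tape (ρ r) (repT zero one blank (b :: s r)) } := by
      have : (fstep ρ blank zero one (.push r b) () ts.read).1 =
          single (ρ r) (bsym zero one b) .right ts.read := rfl
      rw [this, act_single, hR.head r hreg', hR.tape r hreg', repT_push]
      rfl
    rw [h2] at h1
    refine ⟨_, h1, rep_after_push hρ hreg' hR b, ?_⟩
    refine Fr.single hreg' _ _ fun u hu => ?_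
    simp [Function.update_of_ne hu]
  | seq _ _ ih1 ih2 =>
    intro hreg ts hR
    obtain ⟨ts1, h1, h2, h3⟩ := ih1 hreg.1 ts hR
    obtain ⟨ts2, h4, h5, h6⟩ := ih2 hreg.2 ts1 h2
    exact ⟨ts2, Reach.trans_seq h1 h4, h5, h3.trans h6⟩
  | @pop0 r c0 c1 cE s s' l t e _ ih =>
    intro hreg ts hR
    have hr : r < N := hreg.1
    obtain ⟨ts', h1, h2, h3⟩ := ih hreg.2.1 _ (rep_after_pop hρ hr hR e)
    refine ⟨ts', ?_, h2, (ts2_fr hr l).trans h3⟩
    have h4 : Reach ρ blank zero one (.pop r c0 c1 cE) (Sum.inr (Sum.inl (entry c0)))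
        (ts2 ρ blank zero one r l ts) ts' t :=
      Reach.lift_end (a := c0) (c := .pop r c0 c1 cE) (fun q => Sum.inr (Sum.inl q)) (fun _ _ => rfl) h1
    have r1 := read1 hr hR e
    have h5 : (fstep ρ blank zero one (.pop r c0 c1 cE) (Sum.inl true) (ts1 ρ r s ts).read) =
        (single (ρ r) blank .stay (ts1 ρ r s ts).read, some (Sum.inr (Sum.inl (entry c0)))) := by
      simp [fstep, r1, bsym]
      rfl
    have h6 : Reach ρ blank zero one (.pop r c0 c1 cE) (Sum.inl true) (ts1 ρ r s ts) ts' (t + 1) := by
      exact Reach.step' h5 (ts_pop hr hR e) h4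
    exact Reach.step' rfl (ts_left hr hR) h6
  | @pop1 r c0 c1 cE s s' l t e _ ih =>
    intro hreg ts hR
    have hr : r < N := hreg.1
    obtain ⟨ts', h1, h2, h3⟩ := ih hreg.2.2.1 _ (rep_after_pop hρ hr hR e)
    refine ⟨ts', ?_, h2, (ts2_fr hr l).trans h3⟩
    have h4 : Reach ρ blank zero one (.pop r c0 c1 cE) (Sum.inr (Sum.inr (Sum.inl (entry c1))))
        (ts2 ρ blank zero one r l ts) ts' t :=
      Reach.lift_end (a := c1) (c := .pop r c0 c1 cE) (fun q => Sum.inr (Sum.inr (Sum.inl q)))
        (fun _ _ => rfl) h1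
    have r1 := read1 hr hR e
    have h5 : (fstep ρ blank zero one (.pop r c0 c1 cE) (Sum.inl true) (ts1 ρ r s ts).read) =
        (single (ρ r) blank .stay (ts1 ρ r s ts).read, some (Sum.inr (Sum.inr (Sum.inl (entry c1))))) := by
      simp [fstep, r1, bsym, hz1.symm]
      rfl
    have h6 : Reach ρ blank zero one (.pop r c0 c1 cE) (Sum.inl true) (ts1 ρ r s ts) ts' (t + 1) := by
      exact Reach.step' h5 (ts_pop hr hR e) h4
    exact Reach.step' rfl (ts_left hr hR) h6
  | @popE r c0 c1 cE s s' t e _ ih =>
    intro hreg ts hR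
    have hr : r < N := hreg.1
    obtain ⟨ts', h1, h2, h3⟩ := ih hreg.2.2.2 ts hR
    refine ⟨ts', ?_, h2, h3⟩
    have h4 : Reach ρ blank zero one (.pop r c0 c1 cE) (Sum.inr (Sum.inr (Sum.inr (entry cE))))
        ts ts' t :=
      Reach.lift_end (a := cE) (c := .pop r c0 c1 cE) (fun q => Sum.inr (Sum.inr (Sum.inr q)))
        (fun _ _ => rfl) h1
    have r1 := read1E hr hR e
    have h5 : (fstep ρ blank zero one (.pop r c0 c1 cE) (Sum.inl true) (ts1 ρ r s ts).read) =
        (single (ρ r) ((ts1 ρ r s ts).read (ρ r)) .right (ts1 ρ r s ts).read,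
          some (Sum.inr (Sum.inr (Sum.inr (entry cE))))) := by
      simp [fstep, r1, hz2.symm, hz3.symm]
      rfl
    have h6 : Reach ρ blank zero one (.pop r c0 c1 cE) (Sum.inl true) (ts1 ρ r s ts) ts' (t + 1) := by
      exact Reach.step' h5 (ts_back hr hR) h4
    exact Reach.step' rfl (ts_left hr hR) h6
  | @loopE r c0 c1 s e =>
    intro hreg ts hR
    have hr : r < N := hreg.1
    refine ⟨ts, ?_, hR, Fr.refl _ _⟩
    have r1 := read1E hr hR e
    have h5 : (fstep ρ blank zero one (.loop r c0 c1) (Sum.inl true) (ts1 ρ r s ts).read) =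
        (single (ρ r) ((ts1 ρ r s ts).read (ρ r)) .right (ts1 ρ r s ts).read, none) := by
      simp [fstep, r1, hz2.symm, hz3.symm]
    have h6 : Reach ρ blank zero one (.loop r c0 c1) (Sum.inl true) (ts1 ρ r s ts) ts 1 := by
      have := Reach.done (ρ := ρ) (blank := blank) (zero := zero) (one := one) (c := .loop r c0 c1)
        (q := Sum.inl true) (ts := ts1 ρ r s ts) (by rw [h5])
      rw [h5] at this
      simp only at this
      rwa [ts_back hr hR] at this
    exact Reach.step' rfl (ts_left hr hR) h6
  | @loop0 r c0 c1 s s1 s2 l t1 t2 e _ _ ih1 ih2 =>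
    intro hreg ts hR
    have hr : r < N := hreg.1
    obtain ⟨ts', h1, h2, h3⟩ := ih1 hreg.2.1 _ (rep_after_pop hρ hr hR e)
    obtain ⟨ts'', h8, h9, h10⟩ := ih2 hreg ts' h2
    refine ⟨ts'', ?_, h9, ((ts2_fr hr l).trans h3).trans h10⟩
    have h4 : Reach ρ blank zero one (.loop r c0 c1) (Sum.inr (Sum.inl (entry c0)))
        (ts2 ρ blank zero one r l ts) ts'' (t1 + t2) :=
      Reach.lift_cont (a := c0) (c := .loop r c0 c1) (fun q => Sum.inr (Sum.inl q)) (Sum.inl false)
        (fun _ _ => rfl) h1 h8
    have r1 := read1 hr hR e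
    have h5 : (fstep ρ blank zero one (.loop r c0 c1) (Sum.inl true) (ts1 ρ r s ts).read) =
        (single (ρ r) blank .stay (ts1 ρ r s ts).read, some (Sum.inr (Sum.inl (entry c0)))) := by
      simp [fstep, r1, bsym]
      rfl
    have h6 : Reach ρ blank zero one (.loop r c0 c1) (Sum.inl true) (ts1 ρ r s ts) ts'' (t1 + t2 + 1) := by
      exact Reach.step' h5 (ts_pop hr hR e) h4
    exact Reach.step' rfl (ts_left hr hR) h6
  | @loop1 r c0 c1 s s1 s2 l t1 t2 e _ _ ih1 ih2 =>
    intro hreg ts hR
    have hr : r < N := hreg.1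
    obtain ⟨ts', h1, h2, h3⟩ := ih1 hreg.2.2 _ (rep_after_pop hρ hr hR e)
    obtain ⟨ts'', h8, h9, h10⟩ := ih2 hreg ts' h2
    refine ⟨ts'', ?_, h9, ((ts2_fr hr l).trans h3).trans h10⟩
    have h4 : Reach ρ blank zero one (.loop r c0 c1) (Sum.inr (Sum.inr (entry c1)))
        (ts2 ρ blank zero one r l ts) ts'' (t1 + t2) :=
      Reach.lift_cont (a := c1) (c := .loop r c0 c1) (fun q => Sum.inr (Sum.inr q)) (Sum.inl false)
        (fun _ _ => rfl) h1 h8
    have r1 := read1 hr hR e
    have h5 : (fstep ρ blank zero one (.loop r c0 c1) (Sum.inl true) (ts1 ρ r s ts).read) =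
        (single (ρ r) blank .stay (ts1 ρ r s ts).read, some (Sum.inr (Sum.inr (entry c1)))) := by
      simp [fstep, r1, bsym, hz1.symm]
      rfl
    have h6 : Reach ρ blank zero one (.loop r c0 c1) (Sum.inl true) (ts1 ρ r s ts) ts'' (t1 + t2 + 1) := by
      exact Reach.step' h5 (ts_pop hr hR e) h4
    exact Reach.step' rfl (ts_left hr hR) h6

end

end Vale.Agent.P310x
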