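import Vale.Agent.P310x.SpoilC
import Vale.Agent.P310u.Horn

/-!
# Programs and equivalence of their graphs, with any injective numbering of the equations
-/

set_option linter.unusedSectionVars false
set_option linter.unusedVariables false

namespace Vale.Agent.P310u

open Function Vale.Agent.P310h2 Vale.Agent.P310x

open scoped Classical

variable {k q n : ℕ} {F : Type}

namespace Prog

variable (P : Prog k q n F)

variable [AddCommGroup F] [Module (ZMod 2) F] [Fintype F] [NumG P.gs]

/-- All hubs with a tag agree on a word. -/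
def AgN (t : Tag q n k) (c : Fin k → F) : Prop := ∀ τ : Fin 3, Vale.Agent.P310x.HC.GS.Agr P.gs (τ, t) c

theorem fin3_casesN : ∀ d : Fin 3, d = 0 ∨ d = 1 ∨ d = 2 := by decide

/-- One gadget of three hubs. -/
theorem agr_ruleN (hk : 0 < k) (l : Lam q n k) (c : Fin k → F) (hleg : ∀ i, P.lamAllow l i (c i))
    (hb : P.AgN (P.tB l) (fun i => c i + P.oB l i)) (hc : P.AgN (P.tC l) (fun i => c i + P.oC l i)) :
    P.AgN (P.tA l) c := by
  intro τ
  have hg : (Gad.tri l τ : Gad q n k) ≠ P.gs.twist := by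
    show Gad.tri l τ ≠ Gad.tw
    simp
  have hH : (τ, P.tA l) ∈ P.gs.hubs (Gad.tri l τ) := by
    apply P.mem_hubs_tri.2
    show _ = P.slotTag l (τ - τ)
    rw [(fin3_sub τ).1]
    rfl
  have h1 := Vale.Agent.P310x.HC.GS.agr_step hk P.gs_pair hg (c0 := c) hleg hH (by
    rintro ⟨j, t⟩ hm hne
    have h2 := P.mem_hubs_tri.1 hm
    simp only at h2
    subst h2
    show Vale.Agent.P310x.HC.GS.Agr P.gs (j, P.slotTag l (j - τ)) (fun i => c i + P.slotOff l (j - τ) i)
    rcases fin3_casesN (j - τ) with e | e | e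
    · exfalso
      apply hne
      have e1 := (fin3_sub2 j τ).1 e
      subst e1
      rw [e]
      rfl
    · rw [e]
      exact hc j
    · rw [e]
      exact hb j)
  have e : P.gs.wd (Gad.tri l τ) (τ, P.tA l) c = c := by
    funext i
    show c i + P.slotOff l (τ - τ) i = c i
    rw [(fin3_sub τ).1]
    show c i + 0 = c i
    rw [add_zero]
  rw [e] at h1
  exact h1

/-- A gadget of three hubs without offsets. -/
theorem agr_rule0N (hk : 0 < k) (l : Lam q n k) (c : Fin k → F) (hleg : ∀ i, P.lamAllow l i (c i))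
    (hB : P.oB l = 0) (hC : P.oC l = 0) (hb : P.AgN (P.tB l) c) (hc : P.AgN (P.tC l) c) :
    P.AgN (P.tA l) c := by
  have e : ∀ w : Fin k → F, w = 0 → (fun i => c i + w i) = c := by
    rintro w rfl
    funext i
    simp
  apply P.agr_ruleN hk l c hleg
  · rw [e _ hB]
    exact hb
  · rw [e _ hC]
    exact hc

/-- The base. -/
theorem ag_baseN (hk : 0 < k) : P.AgN Tag.base P.cB := by
  intro τ
  have hg : (Gad.mono τ : Gad q n k) ≠ P.gs.twist := by
    show Gad.mono τ ≠ Gad.tw
    simp
  have hH : (τ, Tag.base) ∈ P.gs.hubs (Gad.mono τ : Gad q n k) := Finset.mem_singleton_self _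
  have h1 := Vale.Agent.P310x.HC.GS.agr_step hk P.gs_pair hg (c0 := 0) (fun i => rfl) hH (by
    intro H' hm hne
    exact (hne (Finset.mem_singleton.1 hm)).elim)
  have e : P.gs.wd (Gad.mono τ) (τ, Tag.base) 0 = P.cB := by
    funext i
    show (0 : Fin k → F) i + P.cB i = P.cB i
    simp
  rw [e] at h1
  exact h1

/-- From a state to its copies. -/
theorem ag_cpN (hk : 0 < k) {t : Fin q} {c : Fin k → F} (h : P.AgN (Tag.orig t) c) :
    ∀ (m : ℕ) (hm : m < 2 * n + 3), P.AgN (Tag.cp t ⟨m, hm⟩) c := by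
  intro m
  induction m with
  | zero =>
    intro hm
    exact P.agr_rule0N hk (Lam.cz t) c (fun _ => trivial) rfl rfl h h
  | succ m ih =>
    intro hm
    have h1 := ih (by omega)
    exact P.agr_rule0N hk (Lam.cs t ⟨m, by omega⟩) c (fun _ => trivial) rfl rfl h1 h1

/-- The children of rules. -/
theorem ag_useN (hk : 0 < k) {r : Fin (n + 1)} {s : Bool} {c : Fin k → F}
    (h : P.AgN (Tag.orig (P.src r s)) c) : P.AgN (Tag.use r s) c :=
  P.agr_rule0N hk (Lam.us r s) c (fun _ => trivial) rfl rfl h (P.ag_cpN hk h _ _)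

/-- Accepted words agree. -/
theorem ag_of_accN (hk : 0 < k) {t : Fin q} {c : Fin k → F} (h : P.Acc t c) :
    P.AgN (Tag.orig t) c := by
  induction h with
  | base =>
    exact P.agr_rule0N hk Lam.bas P.cB (fun _ => rfl) rfl rfl (P.ag_baseN hk) (P.ag_baseN hk)
  | step r c hg _ _ ih1 ih2 =>
    have h1 : P.AgN (Tag.use r.castSucc false) (fun i => c i + P.δ1 r i) :=
      P.ag_useN hk (by rw [P.src_false]; exact ih1)
    have h2 : P.AgN (Tag.use r.castSucc true) (fun i => c i + P.δ2 r i) :=
      P.ag_useN hk (by rw [P.src_true]; exact ih2)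
    have h3 : P.AgN (Tag.prv r) c := P.agr_ruleN hk (Lam.andR r) c hg h1 h2
    exact P.agr_rule0N hk (Lam.orR r) c (fun _ => trivial) rfl rfl h3 h3

/-- Along the delay line. -/
theorem ag_dlyN (hk : 0 < k) (h : P.Acc P.s0 P.c0) :
    ∀ (m j : ℕ) (hj : j < 6 * k + 12), j + m = 6 * k + 11 → P.AgN (Tag.dly ⟨j, hj⟩) P.c0 := by
  intro m
  induction m with
  | zero =>
    intro j hj e
    have h0 := P.ag_of_accN hk h
    have h1 : ∀ s, P.AgN (Tag.use (Fin.last n) s) (fun i => P.c0 i + (0 : Fin k → F) i) := by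
      intro s
      have : (fun i => P.c0 i + (0 : Fin k → F) i) = P.c0 := by
        funext i
        simp
      rw [this]
      exact P.ag_useN hk (by rw [P.src_last]; exact h0)
    have h2 := P.agr_ruleN hk Lam.las P.c0 (fun _ => rfl) (h1 false) (h1 true)
    have e2 : (⟨j, hj⟩ : Fin (6 * k + 12)) = Fin.last _ := Fin.ext (by simpa using e)
    rw [e2]
    exact h2
  | succ m ih =>
    intro j hj e
    have h1 := ih (j + 1) (by omega) (by omega)
    exact P.agr_rule0N hk (Lam.del ⟨j, by omega⟩) P.c0 (fun _ => rfl) rfl rfl h1 h1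

/-- The mainN theorem: a program accepts if and only if its graphs are not equivalent. -/
theorem mainN (hk : 0 < k) :
    P.Acc P.s0 P.c0 ↔ ¬ WLEquiv ((xsN P.gs).graph false) ((xsN P.gs).graph true) (2 * k) := by
  constructor
  · intro h hW
    have h1 := P.ag_dlyN hk h (6 * k + 11) 0 (by omega) (by omega) 0
    have h2 := Vale.Agent.P310x.HC.GS.agr_twist hk hW (Hs := (0, Tag.dly ⟨0, by omega⟩)) rfl (c0 := 0) (fun _ => rfl)
    apply h2
    have e : P.gs.wd P.gs.twist (0, Tag.dly ⟨0, by omega⟩) 0 = P.c0 := by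
      funext i
      show (0 : Fin k → F) i + P.c0 i = P.c0 i
      simp
    rw [e]
    exact h1
  · intro h
    by_contra hne
    exact h (Vale.Agent.P310x.HC.GS.dup_main (P.gs_nice hk hne) P.gs_tw)

end Prog

end Vale.Agent.P310u
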