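import Vale.Agent.P310x.GadD
import Vale.Agent.P310x.HornC

/-!
# The lists of gadgets are the gadgets of the program: tags, kinds, offsets
-/

namespace Vale.Agent.P310x

open List (range)
open Vale.Agent.P310u

/-- The letters, as group elements. -/
abbrev FF (x : Inp) := Fin (xb x) → ZMod 2

/-- The program of the computation table. -/
def tP (x : Inp) : Prog (xk x) (nQ x) (nR x) (FF x) := tabProg x

theorem toNat_inj' {a c : Bool} (h : a.toNat = c.toNat) : a = c := by
  cases a <;> cases c <;> simp_all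

/-- The name of a tag. -/
def tagNm {x : Inp} : Tag (nQ x) (nR x) (xk x) → Nm
  | .orig t => nO t
  | .cp t i => nC t i
  | .use r s => nU r s.toNat
  | .prv r => nV r
  | .base => nB
  | .dly j => nD j

theorem tagNm_inj {x : Inp} : Function.Injective (tagNm (x := x)) := by
  intro a c h
  cases a <;> cases c <;> simp_all [tagNm, nO, nC, nU, nV, nB, nD, Fin.ext_iff] <;>
    first
    | exact toNat_inj' h.2
    | skip

/-- The name of a kind of gadgets, with its tags, offsets and letters. -/
def lamD (x : Inp) : Lam (nQ x) (nR x) (xk x) → LamD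
  | .orR r => dOr x r
  | .andR r => dAn x r
  | .cz t => dCz x t
  | .cs t i => dCs x t i
  | .us r s => dUs x r s.toNat
  | .bas => dBs x
  | .del j => dDl x j
  | .las => dLs x

theorem lamD_name_inj {x : Inp} {l l' : Lam (nQ x) (nR x) (xk x)} (h : (lamD x l).1 = (lamD x l').1) : l = l' := by
  cases l <;> cases l' <;> simp_all [lamD, dOr, dAn, dCz, dCs, dUs, dBs, dDl, dLs, Fin.ext_iff] <;>
    first
    | exact toNat_inj' h.2
    | skip

theorem src_val (x : Inp) (r : Fin (nR x + 1)) (s : Bool) :
    ((tP x).src r s).val = srcN x r.val s.toNat := by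
  unfold Prog.src srcN
  by_cases h : r.val < nR x
  · simp only [h, dif_pos, decide_true, cond_true]
    cases s
    · simp [ch1N]
      rfl
    · simp [ch2N]
      rfl
  · simp only [h, dif_neg, decide_false, cond_false, not_false_iff]
    rfl

theorem idx_val {n : ℕ} (r : Fin (n + 1)) (s : Bool) : (idx r s).val = 2 * r.val + s.toNat + 1 := by
  cases s <;> rfl

theorem tA_nm (x : Inp) (l : Lam (nQ x) (nR x) (xk x)) : tagNm ((tP x).tA l) = (lamD x l).2.1 := by
  cases l <;> rfl

theorem tB_nm (x : Inp) (l : Lam (nQ x) (nR x) (xk x)) : tagNm ((tP x).tB l) = (lamD x l).2.2.1 := by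
  cases l with
  | us r s =>
    show nO ((tP x).src r s).val = nO (srcN x r.val s.toNat)
    rw [src_val]
  | _ => rfl

theorem tC_nm (x : Inp) (l : Lam (nQ x) (nR x) (xk x)) : tagNm ((tP x).tC l) = (lamD x l).2.2.2.1 := by
  cases l with
  | us r s =>
    show nC ((tP x).src r s).val (idx r s).val = nC (srcN x r.val s.toNat) (2 * r.val + s.toNat + 1)
    rw [src_val, idx_val]
  | _ => rfl

theorem slot_nm (x : Inp) (l : Lam (nQ x) (nR x) (xk x)) (u : Fin 3) :
    tagNm ((tP x).slotTag l u) = slotN (lamD x l) u.val := by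
  fin_cases u
  · show tagNm ((tP x).tA l) = _
    rw [tA_nm]
    rfl
  · show tagNm ((tP x).tC l) = _
    rw [tC_nm]
    rfl
  · show tagNm ((tP x).tB l) = _
    rw [tB_nm]
    rfl

theorem oB_toF (x : Inp) (l : Lam (nQ x) (nR x) (xk x)) (i : Fin (xk x)) :
    toF ((lamD x l).2.2.2.2.1.getD i.val []) = (tP x).oB l i := by
  cases l with
  | andR r => rfl
  | _ => simp [lamD, dOr, dCz, dCs, dUs, dBs, dDl, dLs, Prog.oB]

theorem oC_toF (x : Inp) (l : Lam (nQ x) (nR x) (xk x)) (i : Fin (xk x)) :
    toF ((lamD x l).2.2.2.2.2.1.getD i.val []) = (tP x).oC l i := by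
  cases l with
  | andR r => rfl
  | _ => simp [lamD, dOr, dCz, dCs, dUs, dBs, dDl, dLs, Prog.oC]

theorem slot_off (x : Inp) (l : Lam (nQ x) (nR x) (xk x)) (u : Fin 3) (i : Fin (xk x)) :
    toF ((slotO (lamD x l) u.val).getD i.val []) = (tP x).slotOff l u i := by
  fin_cases u
  · show toF (([] : List Lt).getD i.val []) = 0
    simp
  · exact oC_toF x l i
  · exact oB_toF x l i

theorem getD_k {x : Inp} {β : Type} (f : ℕ → β) (i : Fin (xk x)) (d : β) :
    ((range (xk x)).map f).getD i.val d = f i.val := by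
  simp [List.getD]

theorem mem_zeroW {x : Inp} {i : Fin (xk x)} {β : FF x} :
    β ∈ ((zeroW x).getD i.val []).map toF ↔ β = 0 := by
  unfold zeroW
  simp [List.getD]

theorem lam_allow {x : Inp} (hc : ∀ f : FF x, f ∈ (xL x).map toF) (l : Lam (nQ x) (nR x) (xk x))
    (i : Fin (xk x)) (β : FF x) :
    β ∈ ((lamD x l).2.2.2.2.2.2.getD i.val []).map toF ↔ (tP x).lamAllow l i β := by
  have h1 : β ∈ ((freeW x).getD i.val []).map toF := by
    unfold freeW
    rw [getD_k]
    exact hc β
  cases l with
  | orR r => exact ⟨fun _ => trivial, fun _ => h1⟩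
  | andR r => rfl
  | cz t => exact ⟨fun _ => trivial, fun _ => h1⟩
  | cs t j => exact ⟨fun _ => trivial, fun _ => h1⟩
  | us r s => exact ⟨fun _ => trivial, fun _ => h1⟩
  | bas => exact mem_zeroW
  | del j => exact mem_zeroW
  | las => exact mem_zeroW

end Vale.Agent.P310x
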