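import Vale.Agent.P310x.GadB

/-!
# The lists of gadgets are the gadgets of the program: gadgets, variables, equations
-/

namespace Vale.Agent.P310x

open List (range)
open Vale.Agent.P310u Vale.Agent.P310u.GS

variable {x : Inp}

/-- The gadget in list form. -/
def gadD (x : Inp) : Gad (nQ x) (nR x) (xk x) → GadD
  | .tri l τ => triD (lamD x l) τ.val
  | .mono τ => monoD x τ.val
  | .tw => twD x

theorem gadD_name_inj {G G' : Gad (nQ x) (nR x) (xk x)} (h : (gadD x G).1 = (gadD x G').1) : G = G' := by
  cases G with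
  | tri l τ =>
    cases G' with
    | tri l' τ' =>
      simp only [gadD, triD, List.cons.injEq, true_and] at h
      rw [lamD_name_inj h.2, Fin.ext h.1]
    | mono τ' => simp [gadD, triD, monoD] at h
    | tw => simp [gadD, triD, twD] at h
  | mono τ =>
    cases G' with
    | tri l' τ' => simp [gadD, triD, monoD] at h
    | mono τ' =>
      simp only [gadD, monoD, List.cons.injEq, and_true] at h
      rw [Fin.ext h]
    | tw => simp [gadD, monoD, twD] at h
  | tw =>
    cases G' with
    | tri l' τ' => simp [gadD, triD, twD] at h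
    | mono τ' => simp [gadD, monoD, twD] at h
    | tw => rfl

/-- The hub of a name. -/
def hubNm (H : Fin 3 × Tag (nQ x) (nR x) (xk x)) : Nm := H.1.val :: tagNm H.2

theorem hubNm_inj : Function.Injective (hubNm (x := x)) := by
  rintro ⟨j, t⟩ ⟨j', t'⟩ h
  simp only [hubNm, List.cons.injEq] at h
  rw [Fin.ext h.1, tagNm_inj h.2]

/-- The hubs of a gadget. -/
def hubL (x : Inp) : Gad (nQ x) (nR x) (xk x) → List (Fin 3 × Tag (nQ x) (nR x) (xk x))
  | .tri l τ => (List.finRange 3).map fun j => (j, (tP x).slotTag l (j - τ))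
  | .mono τ => [(τ, .base)]
  | .tw => [(0, .dly ⟨0, by omega⟩)]

/-- The offsets of a gadget, in list form. -/
def offW (x : Inp) : Gad (nQ x) (nR x) (xk x) → Fin 3 × Tag (nQ x) (nR x) (xk x) → List Lt
  | .tri l τ, H => slotO (lamD x l) (H.1 - τ).val
  | .mono _, _ => []
  | .tw, _ => []

theorem sub3_val : ∀ j τ : Fin 3, (j - τ).val = sub3 j.val τ.val := by decide

theorem hub_data (G : Gad (nQ x) (nR x) (xk x)) :
    (gadD x G).2.1 = (hubL x G).map fun H => (hubNm H, offW x G H) := by
  cases G with
  | tri l τ =>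
    show (range 3).map (fun j => (j :: slotN (lamD x l) (sub3 j τ.val), slotO (lamD x l) (sub3 j τ.val))) =
      ((List.finRange 3).map fun j => (j, (tP x).slotTag l (j - τ))).map fun H =>
        (H.1.val :: tagNm H.2, slotO (lamD x l) (H.1 - τ).val)
    rw [← List.map_coe_finRange_eq_range, List.map_map, List.map_map]
    apply List.map_congr_left
    intro j _
    simp only [Function.comp, slot_nm, sub3_val]
  | mono τ => rfl
  | tw => rfl

theorem off_toF (G : Gad (nQ x) (nR x) (xk x)) (H : Fin 3 × Tag (nQ x) (nR x) (xk x)) (i : Fin (xk x)) :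
    toF ((offW x G H).getD i.val []) = (tP x).gs.off G H i := by
  cases G with
  | tri l τ => exact slot_off x l _ i
  | mono τ =>
    show toF (([] : List Lt).getD i.val []) = 0
    simp
  | tw =>
    show toF (([] : List Lt).getD i.val []) = 0
    simp

theorem mem_hubL {G : Gad (nQ x) (nR x) (xk x)} {H : Fin 3 × Tag (nQ x) (nR x) (xk x)} :
    H ∈ hubL x G ↔ H ∈ (tP x).gs.hubs G := by
  cases G with
  | tri l τ =>
    rw [Prog.mem_hubs_tri]
    simp only [hubL, List.mem_map, List.mem_finRange, true_and]
    constructor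
    · rintro ⟨j, rfl⟩
      rfl
    · intro h
      exact ⟨H.1, by rw [← h]⟩
  | mono τ =>
    show H ∈ [(τ, Tag.base)] ↔ H ∈ ({(τ, Tag.base)} : Finset _)
    simp
  | tw =>
    show H ∈ [((0 : Fin 3), Tag.dly ⟨0, by omega⟩)] ↔ H ∈ ({((0 : Fin 3), Tag.dly ⟨0, by omega⟩)} : Finset _)
    simp

theorem nodup_hubL (G : Gad (nQ x) (nR x) (xk x)) : (hubL x G).Nodup := by
  cases G with
  | tri l τ =>
    refine List.Nodup.map ?_ (List.nodup_finRange 3)
    intro a b h
    exact congrArg Prod.fst h
  | mono τ => simp [hubL]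
  | tw => simp [hubL]

theorem hubL_ne (G : Gad (nQ x) (nR x) (xk x)) : ∃ H, H ∈ hubL x G := by
  cases G with
  | tri l τ => exact ⟨_, List.mem_map.2 ⟨0, List.mem_finRange 0, rfl⟩⟩
  | mono τ => exact ⟨_, List.mem_singleton.2 rfl⟩
  | tw => exact ⟨_, List.mem_singleton.2 rfl⟩

theorem hubL_len (G : Gad (nQ x) (nR x) (xk x)) : (hubL x G).length = 1 ∨ (hubL x G).length = 3 := by
  cases G with
  | tri l τ => right; simp [hubL]
  | mono τ => left; rfl
  | tw => left; rfl

/-- The bit list of a letter. -/
def ofF (x : Inp) (f : FF x) : Lt :=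
  (range (xb x)).map fun i => if h : i < xb x then decide (f ⟨i, h⟩ = 1) else false

theorem xor_bit : ∀ p q : Bool, Bool.xor p q =
    decide (((if p = true then (1 : ZMod 2) else 0) + (if q = true then 1 else 0)) = 1) := by
  decide

theorem xorL_eq (a c : Lt) : xorL x a c = ofF x (toF a + toF c) := by
  unfold xorL ofF
  apply List.map_congr_left
  intro i hi
  have h : i < xb x := List.mem_range.1 hi
  rw [dif_pos h]
  simp only [toF, Pi.add_apply]
  exact xor_bit _ _

theorem ofF_inj : Function.Injective (ofF x) := by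
  intro f g h
  funext i
  have h1 := congrArg (fun l => l.getD i.val false) h
  simp only [ofF] at h1
  rw [getD_rng' _ _ i.isLt, getD_rng' _ _ i.isLt] at h1
  simp only [i.isLt, dif_pos] at h1
  exact zmod2_of_decide h1

/-- Variables of the system. -/
abbrev GV (x : Inp) := GVar (xk x) (FF x) (Fin 3 × Tag (nQ x) (nR x) (xk x)) (Gad (nQ x) (nR x) (xk x))

/-- The name of a variable. -/
def nmV (x : Inp) : GV x → VN
  | Sum.inl (p, H, α) => xvN p.1.val p.2.toNat (hubNm H) (ofF x α)
  | Sum.inr (G, p) => yvN p.1.val p.2.toNat (gadD x G).1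

theorem nmV_inj : Function.Injective (nmV x) := by
  rintro (⟨⟨i, s⟩, H, α⟩ | ⟨G, ⟨i, s⟩⟩) (⟨⟨i', s'⟩, H', α'⟩ | ⟨G', ⟨i', s'⟩⟩) h
  · simp only [nmV, xvN, Prod.mk.injEq, List.cons.injEq, true_and] at h
    obtain ⟨⟨h1, h2, h3⟩, h4⟩ := h
    rw [Fin.ext h1, toNat_inj' h2, hubNm_inj h3, ofF_inj h4]
  · simp [nmV, xvN, yvN] at h
  · simp [nmV, xvN, yvN] at h
  · simp only [nmV, yvN, Prod.mk.injEq, List.cons.injEq, true_and, and_true] at h
    obtain ⟨h1, h2, h3⟩ := h
    rw [Fin.ext h1, toNat_inj' h2, gadD_name_inj h3]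

/-- The positions in order. -/
def posL (k : ℕ) : List (Pos k) := List.product (List.finRange k) [false, true]

theorem mem_posL {k : ℕ} (p : Pos k) : p ∈ posL k := by
  obtain ⟨i, s⟩ := p
  refine List.pair_mem_product.2 ⟨List.mem_finRange i, ?_⟩
  cases s <;> simp

theorem nodup_posL (k : ℕ) : (posL k).Nodup :=
  List.Nodup.product (List.nodup_finRange k) (by simp)

theorem posL_len (k : ℕ) : (posL k).length = 2 * k := by
  have := List.length_product (List.finRange k) [false, true]
  rw [posL]
  simp only [List.length_finRange, List.length_cons, List.length_nil] at this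
  rw [mul_comm]
  exact this

/-- The variables of an equation, in order. -/
noncomputable def varL (x : Inp) : GItem (tP x).gs → List (GV x)
  | .e p G β _ => yv G p :: (hubL x G).map fun H => xv p H (β + (tP x).gs.off G H p.1)
  | .h G => (posL (xk x)).map fun p => yv G p

theorem mem_varL (c : GItem (tP x).gs) (d : GV x) : d ∈ (tP x).gs.gvars c ↔ d ∈ varL x c := by
  cases c with
  | e p G β h =>
    rw [mem_gvars_e]
    simp only [varL, List.mem_cons, List.mem_map, mem_hubL]
    constructor
    · rintro (h1 | ⟨H, h1, rfl⟩)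
      · exact Or.inl h1
      · exact Or.inr ⟨H, h1, rfl⟩
    · rintro (h1 | ⟨H, h1, rfl⟩)
      · exact Or.inl h1
      · exact Or.inr ⟨H, h1, rfl⟩
  | h G =>
    rw [mem_gvars_h]
    simp only [varL, List.mem_map]
    constructor
    · rintro ⟨p, rfl⟩
      exact ⟨p, mem_posL p, rfl⟩
    · rintro ⟨p, _, rfl⟩
      exact ⟨p, rfl⟩

theorem nodup_varL (c : GItem (tP x).gs) : (varL x c).Nodup := by
  cases c with
  | e p G β h =>
    rw [varL, List.nodup_cons]
    constructor
    · intro h1
      obtain ⟨H, _, h2⟩ := List.mem_map.1 h1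
      exact xv_ne_yv h2
    · refine List.Nodup.map ?_ (nodup_hubL G)
      intro H H' h1
      exact (xv_inj h1).2.1
  | h G =>
    refine List.Nodup.map ?_ (nodup_posL _)
    intro p p' h1
    exact (yv_inj h1).2

open scoped Classical in
/-- The flag of an equation in the twisted system. -/
noncomputable def twB {x : Inp} : GItem (tP x).gs → Bool
  | .e _ _ _ _ => false
  | .h G => decide (G = .tw)

open scoped Classical in
theorem gtw_eq (c : GItem (tP x).gs) : (tP x).gs.gtw c = if twB c then 1 else 0 := by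
  cases c with
  | e p G β h => rfl
  | h G =>
    show (if G = Gad.tw then 1 else 0) = _
    simp [twB]

/-- The equation in list form. -/
noncomputable def itmOf (x : Inp) (c : GItem (tP x).gs) : It := ((varL x c).map (nmV x), twB c)

theorem eItem_eq {p : Pos (xk x)} {G : Gad (nQ x) (nR x) (xk x)} {β : FF x}
    {h : (tP x).gs.allow G p.1 β} {β' : Lt} (hβ : toF β' = β) :
    eItem x (gadD x G) p.1.val p.2.toNat β' = itmOf x (.e p G β h) := by
  unfold eItem itmOf
  simp only [varL, List.map_cons, twB, Prod.mk.injEq, and_true, List.cons.injEq]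
  constructor
  · rfl
  · rw [hub_data, List.map_map, List.map_map]
    apply List.map_congr_left
    intro H _
    simp only [Function.comp]
    show xvN _ _ (hubNm H) (xorL x β' ((offW x G H).getD p.1.val [])) = xvN _ _ (hubNm H) (ofF x _)
    rw [xorL_eq, hβ, off_toF]

theorem hItem_eq (G : Gad (nQ x) (nR x) (xk x)) : hItem x (gadD x G) = itmOf x (.h G) := by
  unfold hItem itmOf
  simp only [varL, twB, Prod.mk.injEq]
  constructor
  · rw [List.map_map, posL, ← List.map_coe_finRange_eq_range (n := xk x), List.flatMap_map]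
    simp only [List.product, List.map_flatMap, List.map_cons, List.map_nil]
    apply List.flatMap_congr
    intro i _
    rfl
  · apply decide_eq_decide.2
    constructor
    · intro h1
      exact gadD_name_inj (by rw [h1]; rfl)
    · rintro rfl
      rfl

end Vale.Agent.P310x
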