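import Vale.Agent.P310x.GadB2

/-!
# The lists of gadgets are the gadgets of the program: all equations, and the main theorem for lists
-/

namespace Vale.Agent.P310x

open List (range)
open Vale.Agent.P310u Vale.Agent.P310u.GS Vale.Agent.P310h2

variable {x : Inp}

theorem mem_lams {d : LamD} : d ∈ lams x ↔ ∃ l, lamD x l = d := by
  constructor
  · intro h
    simp only [lams, List.mem_append, List.mem_map, List.mem_flatMap, List.mem_range,
      List.mem_singleton] at h
    rcases h with ((((((⟨r, hr, rfl⟩ | ⟨r, hr, rfl⟩) | ⟨t, ht, rfl⟩) | ⟨t, ht, i, hi, rfl⟩) |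
      ⟨r, hr, s, hs, rfl⟩) | rfl) | ⟨j, hj, rfl⟩) | rfl
    · exact ⟨.orR ⟨r, hr⟩, rfl⟩
    · exact ⟨.andR ⟨r, hr⟩, rfl⟩
    · exact ⟨.cz ⟨t, ht⟩, rfl⟩
    · exact ⟨.cs ⟨t, ht⟩ ⟨i, hi⟩, rfl⟩
    · interval_cases s
      · exact ⟨.us ⟨r, hr⟩ false, rfl⟩
      · exact ⟨.us ⟨r, hr⟩ true, rfl⟩
    · exact ⟨.bas, rfl⟩
    · exact ⟨.del ⟨j, hj⟩, rfl⟩
    · exact ⟨.las, rfl⟩
  · rintro ⟨l, rfl⟩
    simp only [lams, List.mem_append, List.mem_map, List.mem_flatMap, List.mem_range,
      List.mem_singleton]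
    cases l with
    | orR r => exact Or.inl (Or.inl (Or.inl (Or.inl (Or.inl (Or.inl (Or.inl ⟨r.val, r.isLt, rfl⟩))))))
    | andR r => exact Or.inl (Or.inl (Or.inl (Or.inl (Or.inl (Or.inl (Or.inr ⟨r.val, r.isLt, rfl⟩))))))
    | cz t => exact Or.inl (Or.inl (Or.inl (Or.inl (Or.inl (Or.inr ⟨t.val, t.isLt, rfl⟩)))))
    | cs t i => exact Or.inl (Or.inl (Or.inl (Or.inl (Or.inr ⟨t.val, t.isLt, i.val, i.isLt, rfl⟩))))
    | us r s =>
      exact Or.inl (Or.inl (Or.inl (Or.inr ⟨r.val, r.isLt, s.toNat, Bool.toNat_lt s, rfl⟩)))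
    | bas => exact Or.inl (Or.inl (Or.inr rfl))
    | del j => exact Or.inl (Or.inr ⟨j.val, j.isLt, rfl⟩)
    | las => exact Or.inr rfl

theorem mem_gads {g : GadD} : g ∈ gads x ↔ ∃ G, gadD x G = g := by
  constructor
  · intro h
    simp only [gads, List.mem_append, List.mem_map, List.mem_flatMap, List.mem_range,
      List.mem_singleton] at h
    rcases h with (⟨d, hd, τ, hτ, rfl⟩ | ⟨τ, hτ, rfl⟩) | rfl
    · obtain ⟨l, rfl⟩ := mem_lams.1 hd
      exact ⟨.tri l ⟨τ, hτ⟩, rfl⟩
    · exact ⟨.mono ⟨τ, hτ⟩, rfl⟩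
    · exact ⟨.tw, rfl⟩
  · rintro ⟨G, rfl⟩
    simp only [gads, List.mem_append, List.mem_map, List.mem_flatMap, List.mem_range,
      List.mem_singleton]
    cases G with
    | tri l τ => exact Or.inl (Or.inl ⟨_, mem_lams.2 ⟨l, rfl⟩, τ.val, τ.isLt, rfl⟩)
    | mono τ => exact Or.inl (Or.inr ⟨τ.val, τ.isLt, rfl⟩)
    | tw => exact Or.inr rfl

theorem gad_allow (hc : ∀ f : FF x, f ∈ (xL x).map toF) (G : Gad (nQ x) (nR x) (xk x)) (i : Fin (xk x))
    (β : FF x) : β ∈ ((gadD x G).2.2.getD i.val []).map toF ↔ (tP x).gs.allow G i β := by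
  cases G with
  | tri l τ => exact lam_allow hc l i β
  | mono τ => exact mem_zeroW
  | tw => exact mem_zeroW

theorem toNat_decide {s : ℕ} (hs : s < 2) : (decide (s = 1)).toNat = s := by
  interval_cases s <;> rfl

theorem mem_items (hc : ∀ f : FF x, f ∈ (xL x).map toF) {it : It} :
    it ∈ items0 x ↔ ∃ c, itmOf x c = it := by
  constructor
  · intro h
    simp only [items0, List.mem_append, List.mem_map, List.mem_flatMap, List.mem_range] at h
    rcases h with ⟨g, hg, i, hi, s, hs, β', hβ, rfl⟩ | ⟨g, hg, rfl⟩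
    · obtain ⟨G, rfl⟩ := mem_gads.1 hg
      have h1 : (toF β' : FF x) ∈ ((gadD x G).2.2.getD (⟨i, hi⟩ : Fin (xk x)).val []).map toF :=
        List.mem_map.2 ⟨β', hβ, rfl⟩
      have h2 := (gad_allow hc G ⟨i, hi⟩ _).1 h1
      refine ⟨.e (⟨i, hi⟩, decide (s = 1)) G (toF β') h2, ?_⟩
      have h3 := eItem_eq (p := (⟨i, hi⟩, decide (s = 1))) (h := h2) (β' := β') rfl
      rw [← h3]
      show eItem x (gadD x G) i (decide (s = 1)).toNat β' = _
      rw [toNat_decide hs]
    · obtain ⟨G, rfl⟩ := mem_gads.1 hg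
      exact ⟨.h G, (hItem_eq G).symm⟩
  · rintro ⟨c, rfl⟩
    simp only [items0, List.mem_append, List.mem_map, List.mem_flatMap, List.mem_range]
    cases c with
    | e p G β h =>
      obtain ⟨β', hβ, e⟩ := List.mem_map.1 ((gad_allow hc G p.1 β).2 h)
      exact Or.inl ⟨_, mem_gads.2 ⟨G, rfl⟩, p.1.val, p.1.isLt, p.2.toNat, Bool.toNat_lt _, β', hβ,
        eItem_eq e⟩
    | h G => exact Or.inr ⟨_, mem_gads.2 ⟨G, rfl⟩, hItem_eq G⟩

theorem mem_its (hc : ∀ f : FF x, f ∈ (xL x).map toF) {it : It} : it ∈ its x ↔ ∃ c, itmOf x c = it := by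
  rw [its, mem_dedupD, mem_items hc]

theorem varL_inj (hk : 0 < xk x) {c c' : GItem (tP x).gs} (h : varL x c = varL x c') : c = c' := by
  cases c with
  | e p G β a =>
    cases c' with
    | e p' G' β' a' =>
      simp only [varL, List.cons.injEq] at h
      obtain ⟨h1, h2⟩ := h
      obtain ⟨e1, e2⟩ := yv_inj h1
      subst e1
      subst e2
      obtain ⟨H, hH⟩ := hubL_ne G
      have h3 := List.map_inj_left.1 h2 H hH
      have h4 := (xv_inj h3).2.2
      have h5 : β = β' := add_right_cancel h4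
      subst h5
      rfl
    | h G' =>
      exfalso
      obtain ⟨H, hH⟩ := hubL_ne G
      have h1 : xv p H (β + (tP x).gs.off G H p.1) ∈ varL x (.e p G β a) :=
        List.mem_cons_of_mem _ (List.mem_map.2 ⟨H, hH, rfl⟩)
      rw [h] at h1
      obtain ⟨p', _, h2⟩ := List.mem_map.1 h1
      exact xv_ne_yv h2.symm
  | h G =>
    cases c' with
    | e p' G' β' a' =>
      exfalso
      obtain ⟨H, hH⟩ := hubL_ne G'
      have h1 : xv p' H (β' + (tP x).gs.off G' H p'.1) ∈ varL x (.e p' G' β' a') :=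
        List.mem_cons_of_mem _ (List.mem_map.2 ⟨H, hH, rfl⟩)
      rw [← h] at h1
      obtain ⟨p, _, h2⟩ := List.mem_map.1 h1
      exact xv_ne_yv h2.symm
    | h G' =>
      have h1 : (yv G (⟨0, hk⟩, false) : GV x) ∈ varL x (.h G) :=
        List.mem_map.2 ⟨_, mem_posL _, rfl⟩
      rw [h] at h1
      obtain ⟨p', _, h2⟩ := List.mem_map.1 h1
      have := (yv_inj h2).1
      subst this
      rfl

theorem itm_inj (hk : 0 < xk x) : Function.Injective (itmOf x) := by
  intro c c' h
  apply varL_inj hk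
  exact List.map_injective_iff.2 nmV_inj (congrArg Prod.fst h)

theorem varL_len (c : GItem (tP x).gs) :
    (varL x c).length = 2 ∨ (varL x c).length = 4 ∨ (varL x c).length = 2 * xk x := by
  cases c with
  | e p G β h =>
    simp only [varL, List.length_cons, List.length_map]
    rcases hubL_len (x := x) G with h1 | h1 <;> omega
  | h G =>
    right
    right
    simp only [varL, List.length_map, posL_len]

/-- The table of bit lists is right. -/
structure AdvOK (x : Inp) : Prop where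
  mem : ∀ l, (l = 2 ∨ l = 4 ∨ l = 2 * xk x) → ∀ (bl : Lt) (r : Bool), bl.length = l →
    ((bl, r) ∈ xadv x ↔ r = parB bl)
  count : ∀ l, (l = 2 ∨ l = 4 ∨ l = 2 * xk x) → (advLen (xadv x) l).length = 2 ^ l

/-- The numbering of the equations by the list of equations. -/
@[instance_reducible] noncomputable def numG (hc : ∀ f : FF x, f ∈ (xL x).map toF) (hk : 0 < xk x) : NumG (tP x).gs where
  code c := (its x).idxOf (itmOf x c)
  inj := fun c c' h =>
    itm_inj hk ((List.idxOf_inj ((mem_its hc).2 ⟨c, rfl⟩)).1 h)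

/-- The linear system of the program is given by the lists. -/
noncomputable def lstX (hc : ∀ f : FF x, f ∈ (xL x).map toF) (ha : AdvOK x) (hk : 0 < xk x) :
    letI := numG hc hk
    Lst (xsN (tP x).gs) (its x) (xadv x) :=
  letI := numG hc hk
  { nm := nmV x
    nm_inj := nmV_inj
    varL := varL x
    nodup := nodup_varL
    mem_vars := mem_varL
    twB := twB
    tw_eq := gtw_eq
    its_nodup := by
      rw [its]
      exact nodup_dedupD _
    its_iff := fun _ => mem_its hc
    item_inj := fun _ _ h => itm_inj hk h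
    code_eq := fun _ => rfl
    adv_iff := fun c bl r h => ha.mem _ (varL_len c) bl r h
    adv_count := fun c => ha.count _ (varL_len c) }

theorem card_vs {V I : Type} [Fintype I] [Finite V] {S : XS V I} {its : List It} {adv : List (Lt × Bool)}
    (L : Lst S its adv) (b : Bool) : Nat.card (S.Vtx b) = (vsD its adv b).length := by
  rw [Nat.card_congr (L.eqvL b),
    ← Nat.card_congr (List.Nodup.getEquiv (vsD its adv b) (nodup_dedupD _))]
  simp

/-- The main theorem for lists: the output is the pair of adjacency matrices of two graphs with `N`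
vertices, which are equivalent if and only if the program does not accept. -/
theorem red_correct (hc : ∀ f : FF x, f ∈ (xL x).map toF) (ha : AdvOK x) (hk : 0 < xk x) :
    ∃ (N : ℕ) (G0 G1 : SimpleGraph (Fin N)), TM.pairBits G0 G1 = outBits x ∧
      (WLEquiv G0 G1 (2 * xk x) ↔ ¬ (tP x).Acc (tP x).s0 (tP x).c0) := by
  let _ := numG hc hk
  have L := lstX hc ha hk
  have e1 : (vsD (its x) (xadv x) true).length = (vsD (its x) (xadv x) false).length := by
    rw [← card_vs L, ← card_vs L]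
    symm
    apply XS.card_eq
    intro c
    cases c with
    | e p G β h => exact ⟨yv G p, (mem_gvars_e (h := h)).2 (Or.inl rfl)⟩
    | h G => exact ⟨yv G (⟨0, hk⟩, false), (mem_gvars_h (S := (tP x).gs) (b := G)).2 ⟨_, rfl⟩⟩
  obtain ⟨G0, e0, h0, m0⟩ := L.exists_graph false _ rfl
  obtain ⟨G1, e1', h1, m1⟩ := L.exists_graph true _ e1
  refine ⟨_, G0, G1, ?_, ?_⟩
  · rw [TM.pairBits, m0, m1]
    rfl
  · rw [wlEquiv_iso e0 e1' h0 h1, Prog.mainN (tP x) hk]
    tauto

end Vale.Agent.P310x
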