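import Vale.Agent.P310x.TabComp2

/-!
# The program of a computation table accepts exactly if the machine accepts in time
-/

namespace Vale.Agent.P310x

variable {M : TM} {x : Inp}

theorem lb_mem (T : TabOK M x) : lb x 0 ∈ xL x ∧ lb x 1 ∈ xL x := by
  have h := two_le_B T
  have e : ∀ a, a < (xL x).length → lb x a ∈ xL x := by
    intro a ha
    simp only [lb, List.getD, List.getElem?_eq_getElem ha, Option.getD_some]
    exact List.getElem_mem ha
  exact ⟨e 0 (by unfold xB at h; omega), e 1 (by unfold xB at h; omega)⟩

/-- The program of the computation table. -/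
def tabProg (x : Inp) : Vale.Agent.P310u.Prog (xk x) (tagsL (rules x) (tZ 0) (tFn (xmT x))).length
    (rules x).length (Fin (xb x) → ZMod 2) :=
  lprog (xk x) (xb x) (rules x) (tZ 0) (tFn (xmT x))

/-- The program accepts exactly if the machine accepts within the time bound. -/
theorem tab_main (T : TabOK M x) :
    (tabProg x).Acc (tabProg x).s0 (tabProg x).c0 ↔
      ∃ τ, τ < T.D.B ^ xmT x ∧ (cf M x τ).st = M.acc := by
  unfold tabProg
  rw [lprog_start]
  constructor
  · intro h
    obtain ⟨c', _, h2⟩ : semFn T 0 (xmT x) := accN_min (S := Sem T) (sem_base T)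
      (closed_of_fam T.lok (lb_mem T) (sem_closed T)) h
    exact ⟨tT T c', T.D.num_lt _ _ _, h2⟩
  · rintro ⟨τ, h1, h2⟩
    exact comp_main T (fam_of_closed T.lok (lb_mem T) (fun r hr => accN_rc hr)) accN_base h1 h2

end Vale.Agent.P310x
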