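import Vale.Agent.P310x.XSList
import Vale.Agent.P310x.Tab

/-!
# The graphs of the program of a computation table, as lists

All functions here are built from list comprehensions over the tuple `x`, so they are polynomial time
computable.
-/

namespace Vale.Agent.P310x

open List (range)

/-- The list of names of states. -/
def xTags (x : Inp) : List Nm := tagsL (rules x) (tZ 0) (tFn (xmT x))

/-- The number of states. -/
def nQ (x : Inp) : ℕ := (xTags x).length

/-- The number of rules. -/
def nR (x : Inp) : ℕ := (rules x).length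

/-- The rule with a number. -/
def rAt (x : Inp) (r : ℕ) : Rule := ruleAt (rules x) r

def parN (x : Inp) (r : ℕ) : ℕ := (xTags x).idxOf (rAt x r).1
def ch1N (x : Inp) (r : ℕ) : ℕ := (xTags x).idxOf (rAt x r).2.1
def ch2N (x : Inp) (r : ℕ) : ℕ := (xTags x).idxOf (rAt x r).2.2.1
def acN (x : Inp) : ℕ := (xTags x).idxOf (tZ 0)
def s0N (x : Inp) : ℕ := (xTags x).idxOf (tFn (xmT x))

/-- The state of a child of a rule. -/
def srcN (x : Inp) (r s : ℕ) : ℕ :=
  bif decide (r < nR x) then (bif decide (s = 1) then ch2N x r else ch1N x r) else s0N x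

/-! Names of the tags of hubs. -/

def nO (t : ℕ) : Nm := [0, t]
def nC (t i : ℕ) : Nm := [1, t, i]
def nU (r s : ℕ) : Nm := [2, r, s]
def nV (r : ℕ) : Nm := [3, r]
def nB : Nm := [4]
def nD (j : ℕ) : Nm := [5, j]

/-- A kind of gadgets: its name, the three tags, two offsets, and the allowed letters. -/
abbrev LamD := Nm × Nm × Nm × Nm × List Lt × List Lt × List (List Lt)

/-- All letters at each digit. -/
def freeW (x : Inp) : List (List Lt) := (range (xk x)).map fun _ => xL x

/-- The zero letter at each digit. -/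
def zeroW (x : Inp) : List (List Lt) := (range (xk x)).map fun _ => [[]]

def dOr (x : Inp) (r : ℕ) : LamD := ([0, r], nO (parN x r), nV r, nV r, [], [], freeW x)
def dAn (x : Inp) (r : ℕ) : LamD :=
  ([1, r], nV r, nU r 0, nU r 1, (rAt x r).2.2.2.2.1, (rAt x r).2.2.2.2.2, (rAt x r).2.2.2.1)
def dCz (x : Inp) (t : ℕ) : LamD := ([2, t], nC t 0, nO t, nO t, [], [], freeW x)
def dCs (x : Inp) (t i : ℕ) : LamD := ([3, t, i], nC t (i + 1), nC t i, nC t i, [], [], freeW x)
def dUs (x : Inp) (r s : ℕ) : LamD :=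
  ([4, r, s], nU r s, nO (srcN x r s), nC (srcN x r s) (2 * r + s + 1), [], [], freeW x)
def dBs (x : Inp) : LamD := ([5], nO (acN x), nB, nB, [], [], zeroW x)
def dDl (x : Inp) (j : ℕ) : LamD := ([6, j], nD j, nD (j + 1), nD (j + 1), [], [], zeroW x)
def dLs (x : Inp) : LamD :=
  ([7], nD (6 * xk x + 11), nU (nR x) 0, nU (nR x) 1, [], [], zeroW x)

/-- All kinds of gadgets. -/
def lams (x : Inp) : List LamD :=
  (range (nR x)).map (dOr x) ++ (range (nR x)).map (dAn x) ++ (range (nQ x)).map (dCz x) ++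
    ((range (nQ x)).flatMap fun t => (range (2 * nR x + 2)).map fun i => dCs x t i) ++
    ((range (nR x + 1)).flatMap fun r => (range 2).map fun s => dUs x r s) ++ [dBs x] ++
    (range (6 * xk x + 11)).map (dDl x) ++ [dLs x]

/-- A gadget: its name, its hubs with offsets, and the allowed letters. -/
abbrev GadD := Nm × List (Nm × List Lt) × List (List Lt)

/-- The difference of two numbers modulo three. -/
def sub3 (j τ : ℕ) : ℕ := bif decide (τ ≤ j) then j - τ else j + 3 - τ

/-- The tag at a place. -/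
def slotN (d : LamD) (u : ℕ) : Nm :=
  bif decide (u = 0) then d.2.1 else bif decide (u = 1) then d.2.2.2.1 else d.2.2.1

/-- The offset at a place. -/
def slotO (d : LamD) (u : ℕ) : List Lt :=
  bif decide (u = 0) then [] else bif decide (u = 1) then d.2.2.2.2.2.1 else d.2.2.2.2.1

/-- The gadget of a kind and a rotation. -/
def triD (d : LamD) (τ : ℕ) : GadD :=
  (τ :: 0 :: d.1, (range 3).map (fun j => (j :: slotN d (sub3 j τ), slotO d (sub3 j τ))), d.2.2.2.2.2.2)

/-- The gadget on the base of a type. -/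
def monoD (x : Inp) (τ : ℕ) : GadD := ([τ, 1], [(τ :: nB, [])], zeroW x)

/-- The twisted gadget. -/
def twD (x : Inp) : GadD := ([0, 2], [(0 :: nD 0, [])], zeroW x)

/-- All gadgets. -/
def gads (x : Inp) : List GadD :=
  (lams x).flatMap (fun d => (range 3).map (triD d)) ++ (range 3).map (monoD x) ++ [twD x]

/-- The name of a variable of a hub. -/
def xvN (i s : ℕ) (h : Nm) (α : Lt) : VN := (0 :: i :: s :: h, α)

/-- The name of a token. -/
def yvN (i s : ℕ) (g : Nm) : VN := (1 :: i :: s :: g, [])

/-- The equation of a gadget, a position and an allowed letter. -/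
def eItem (x : Inp) (g : GadD) (i s : ℕ) (β : Lt) : It :=
  (yvN i s g.1 :: g.2.1.map (fun h => xvN i s h.1 (xorL x β (h.2.getD i []))), false)

/-- The equation of the tokens of a gadget. -/
def hItem (x : Inp) (g : GadD) : It :=
  ((range (xk x)).flatMap (fun i => (range 2).map (fun s => yvN i s g.1)), decide (g.1 = [0, 2]))

/-- All equations, perhaps with repetitions. -/
def items0 (x : Inp) : List It :=
  (gads x).flatMap (fun g => (range (xk x)).flatMap (fun i => (range 2).flatMap (fun s =>
    (g.2.2.getD i []).map (fun β => eItem x g i s β)))) ++ (gads x).map (hItem x)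

/-- All equations. -/
@[irreducible] def its (x : Inp) : List It := dedupD (items0 x)

/-- The output of the reduction: the two adjacency matrices. -/
def outBits (x : Inp) : List Bool := matD (its x) (xadv x) false ++ matD (its x) (xadv x) true

section PTd

open PT

variable {α : Type} [Enc α] {f : α → Inp} (hf : PT f) {r s t i j τ u : α → ℕ} {d : α → LamD} {g : α → GadD}
  {h : α → Nm} {a : α → Lt}

include hf

@[fun_prop] theorem xTags_pt : PT (fun y => xTags (f y)) := by unfold xTags tagsL; fun_prop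
@[fun_prop] theorem nQ_pt : PT (fun y => nQ (f y)) := by unfold nQ; fun_prop
@[fun_prop] theorem nR_pt : PT (fun y => nR (f y)) := by unfold nR; fun_prop
@[fun_prop] theorem rAt_pt (hr : PT r) : PT (fun y => rAt (f y) (r y)) := by
  unfold rAt ruleAt; fun_prop
@[fun_prop] theorem rP_pt (hr : PT r) : PT (fun y => (rAt (f y) (r y)).1) := PT.fst (rAt_pt hf hr)
@[fun_prop] theorem rA_pt (hr : PT r) : PT (fun y => (rAt (f y) (r y)).2.1) := PT.fst (PT.snd (rAt_pt hf hr))
@[fun_prop] theorem rB_pt (hr : PT r) : PT (fun y => (rAt (f y) (r y)).2.2.1) :=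
  PT.fst (PT.snd (PT.snd (rAt_pt hf hr)))
@[fun_prop] theorem rG_pt (hr : PT r) : PT (fun y => (rAt (f y) (r y)).2.2.2.1) :=
  PT.fst (PT.snd (PT.snd (PT.snd (rAt_pt hf hr))))
@[fun_prop] theorem rD1_pt (hr : PT r) : PT (fun y => (rAt (f y) (r y)).2.2.2.2.1) :=
  PT.fst (PT.snd (PT.snd (PT.snd (PT.snd (rAt_pt hf hr)))))
@[fun_prop] theorem rD2_pt (hr : PT r) : PT (fun y => (rAt (f y) (r y)).2.2.2.2.2) :=
  PT.snd (PT.snd (PT.snd (PT.snd (PT.snd (rAt_pt hf hr)))))
@[fun_prop] theorem parN_pt (hr : PT r) : PT (fun y => parN (f y) (r y)) :=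
  PT.idxOf (xTags_pt hf) (rP_pt hf hr)
@[fun_prop] theorem ch1N_pt (hr : PT r) : PT (fun y => ch1N (f y) (r y)) :=
  PT.idxOf (xTags_pt hf) (rA_pt hf hr)
@[fun_prop] theorem ch2N_pt (hr : PT r) : PT (fun y => ch2N (f y) (r y)) :=
  PT.idxOf (xTags_pt hf) (rB_pt hf hr)
@[fun_prop] theorem acN_pt : PT (fun y => acN (f y)) := by unfold acN; fun_prop
@[fun_prop] theorem s0N_pt : PT (fun y => s0N (f y)) := by unfold s0N; fun_prop
@[fun_prop] theorem srcN_pt (hr : PT r) (hs : PT s) : PT (fun y => srcN (f y) (r y) (s y)) := by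
  unfold srcN; fun_prop

omit hf

@[fun_prop] theorem nO_pt (ht : PT t) : PT (fun y => nO (t y)) := by unfold nO; fun_prop
@[fun_prop] theorem nC_pt (ht : PT t) (hi : PT i) : PT (fun y => nC (t y) (i y)) := by unfold nC; fun_prop
@[fun_prop] theorem nU_pt (hr : PT r) (hs : PT s) : PT (fun y => nU (r y) (s y)) := by unfold nU; fun_prop
@[fun_prop] theorem nV_pt (hr : PT r) : PT (fun y => nV (r y)) := by unfold nV; fun_prop
@[fun_prop] theorem nD_pt (hj : PT j) : PT (fun y => nD (j y)) := by unfold nD; fun_prop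
@[fun_prop] theorem sub3_pt (hj : PT j) (hτ : PT τ) : PT (fun y => sub3 (j y) (τ y)) := by
  unfold sub3; fun_prop
@[fun_prop] theorem slotN_pt (hd : PT d) (hu : PT u) : PT (fun y => slotN (d y) (u y)) := by
  unfold slotN; fun_prop
@[fun_prop] theorem slotO_pt (hd : PT d) (hu : PT u) : PT (fun y => slotO (d y) (u y)) := by
  unfold slotO; fun_prop
@[fun_prop] theorem triD_pt (hd : PT d) (hτ : PT τ) : PT (fun y => triD (d y) (τ y)) := by
  unfold triD; fun_prop
@[fun_prop] theorem xvN_pt (hi : PT i) (hs : PT s) (hh : PT h) (ha : PT a) :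
    PT (fun y => xvN (i y) (s y) (h y) (a y)) := by
  unfold xvN; fun_prop
@[fun_prop] theorem yvN_pt (hi : PT i) (hs : PT s) (hh : PT h) : PT (fun y => yvN (i y) (s y) (h y)) := by
  unfold yvN; fun_prop

include hf

@[fun_prop] theorem freeW_pt : PT (fun y => freeW (f y)) := by unfold freeW; fun_prop
@[fun_prop] theorem zeroW_pt : PT (fun y => zeroW (f y)) := by unfold zeroW; fun_prop
@[fun_prop] theorem dOr_pt (hr : PT r) : PT (fun y => dOr (f y) (r y)) := by unfold dOr; fun_prop
@[fun_prop] theorem dAn_pt (hr : PT r) : PT (fun y => dAn (f y) (r y)) := by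
  unfold dAn
  have h1 := rG_pt hf hr
  have h2 := rD1_pt hf hr
  have h3 := rD2_pt hf hr
  fun_prop
@[fun_prop] theorem dCz_pt (ht : PT t) : PT (fun y => dCz (f y) (t y)) := by unfold dCz; fun_prop
@[fun_prop] theorem dCs_pt (ht : PT t) (hi : PT i) : PT (fun y => dCs (f y) (t y) (i y)) := by
  unfold dCs; fun_prop
@[fun_prop] theorem dUs_pt (hr : PT r) (hs : PT s) : PT (fun y => dUs (f y) (r y) (s y)) := by
  unfold dUs; fun_prop
@[fun_prop] theorem dBs_pt : PT (fun y => dBs (f y)) := by unfold dBs; fun_prop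
@[fun_prop] theorem dDl_pt (hj : PT j) : PT (fun y => dDl (f y) (j y)) := by unfold dDl; fun_prop
@[fun_prop] theorem dLs_pt : PT (fun y => dLs (f y)) := by unfold dLs; fun_prop
@[fun_prop] theorem lams_pt : PT (fun y => lams (f y)) := by unfold lams; fun_prop
@[fun_prop] theorem monoD_pt (hτ : PT τ) : PT (fun y => monoD (f y) (τ y)) := by unfold monoD; fun_prop
@[fun_prop] theorem twD_pt : PT (fun y => twD (f y)) := by unfold twD; fun_prop
@[fun_prop] theorem gads_pt : PT (fun y => gads (f y)) := by unfold gads; fun_prop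
@[fun_prop] theorem eItem_pt (hg : PT g) (hi : PT i) (hs : PT s) (ha : PT a) :
    PT (fun y => eItem (f y) (g y) (i y) (s y) (a y)) := by
  unfold eItem; fun_prop
@[fun_prop] theorem hItem_pt (hg : PT g) : PT (fun y => hItem (f y) (g y)) := by unfold hItem; fun_prop
@[fun_prop] theorem items0_pt : PT (fun y => items0 (f y)) := by unfold items0; fun_prop
@[fun_prop] theorem its_pt : PT (fun y => its (f y)) := by unfold its; fun_prop

/-- The reduction is computed by a term. -/
@[fun_prop] theorem outBits_pt : PT (fun y => outBits (f y)) := by unfold outBits; fun_prop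

end PTd

end Vale.Agent.P310x
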