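import Vale.Agent.P310x.PT
import Vale.Agent.P310x.Digits
import Vale.Agent.P310u.Prog

/-!
# Programs given by lists of rules, with names for the states
-/

namespace Vale.Agent.P310x

open Vale.Agent.P310u

/-- Letters as bit lists. -/
abbrev Lt := List Bool

/-- Names of states. -/
abbrev Nm := List ℕ

/-- A rule: the names of the state and its two children, the allowed letters of each digit, the two
offsets. -/
abbrev Rule := Nm × Nm × Nm × List (List Lt) × List Lt × List Lt

/-- Words. -/
abbrev Wd (k b : ℕ) := Fin k → Fin b → ZMod 2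

/-- The group element of a bit list. -/
def toF {b : ℕ} (l : Lt) : Fin b → ZMod 2 := fun i => if l.getD i.val false then 1 else 0

@[simp] theorem toF_nil {b : ℕ} : toF (b := b) [] = 0 := by
  funext i
  simp [toF]

variable {k b : ℕ}

/-- The set `S` of pairs of a name and a word is closed under the rule. -/
def RC (S : Nm → Wd k b → Prop) (r : Rule) : Prop :=
  ∀ c : Wd k b, (∀ i : Fin k, c i ∈ (r.2.2.2.1.getD i.val []).map toF) →
    S r.2.1 (fun i => c i + toF (r.2.2.2.2.1.getD i.val [])) →
    S r.2.2.1 (fun i => c i + toF (r.2.2.2.2.2.getD i.val [])) → S r.1 c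

/-- All names of a list of rules. -/
def tagsL (R : List Rule) (a s : Nm) : List Nm :=
  R.flatMap (fun r => [r.1, r.2.1, r.2.2.1]) ++ [a, s]

/-- The rule with a given number. -/
def ruleAt (R : List Rule) (r : ℕ) : Rule := R.getD r ([], [], [], [], [], [])

theorem ruleAt_eq {R : List Rule} {r : ℕ} (h : r < R.length) : ruleAt R r = R[r] := by
  simp [ruleAt, List.getD, List.getElem?_eq_getElem h]

theorem ruleAt_mem {R : List Rule} {r : ℕ} (h : r < R.length) : ruleAt R r ∈ R := by
  rw [ruleAt_eq h]
  exact List.getElem_mem h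

section

variable {R : List Rule} {a s : Nm}

theorem mem_tags_p {r : Rule} (h : r ∈ R) : r.1 ∈ tagsL R a s := by
  simp only [tagsL, List.mem_append, List.mem_flatMap]
  exact Or.inl ⟨r, h, by simp⟩

theorem mem_tags_a {r : Rule} (h : r ∈ R) : r.2.1 ∈ tagsL R a s := by
  simp only [tagsL, List.mem_append, List.mem_flatMap]
  exact Or.inl ⟨r, h, by simp⟩

theorem mem_tags_b {r : Rule} (h : r ∈ R) : r.2.2.1 ∈ tagsL R a s := by
  simp only [tagsL, List.mem_append, List.mem_flatMap]
  exact Or.inl ⟨r, h, by simp⟩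

theorem mem_tags_acc : a ∈ tagsL R a s := by simp [tagsL]

theorem mem_tags_s0 : s ∈ tagsL R a s := by simp [tagsL]

end

/-- The number of a name. -/
def tg (R : List Rule) (a s nm : Nm) (h : nm ∈ tagsL R a s) : Fin (tagsL R a s).length :=
  ⟨(tagsL R a s).idxOf nm, List.idxOf_lt_length_iff.2 h⟩

/-- The program of a list of rules: the base word and the start word are zero. -/
def lprog (k b : ℕ) (R : List Rule) (a s : Nm) :
    Prog k (tagsL R a s).length R.length (Fin b → ZMod 2) where
  par r := tg R a s _ (mem_tags_p (ruleAt_mem r.isLt))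
  ch1 r := tg R a s _ (mem_tags_a (ruleAt_mem r.isLt))
  ch2 r := tg R a s _ (mem_tags_b (ruleAt_mem r.isLt))
  guard r i β := β ∈ ((ruleAt R r).2.2.2.1.getD i.val []).map toF
  δ1 r i := toF ((ruleAt R r).2.2.2.2.1.getD i.val [])
  δ2 r i := toF ((ruleAt R r).2.2.2.2.2.getD i.val [])
  acc := tg R a s a mem_tags_acc
  cB := 0
  s0 := tg R a s s mem_tags_s0
  c0 := 0

/-- Acceptance, with names. -/
def AccN (k b : ℕ) (R : List Rule) (a s : Nm) (nm : Nm) (c : Wd k b) : Prop :=
  ∃ h, (lprog k b R a s).Acc (tg R a s nm h) c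

variable {R : List Rule} {a s : Nm}

theorem accN_base : AccN k b R a s a 0 := ⟨mem_tags_acc, Prog.Acc.base⟩

theorem accN_rc {r : Rule} (hr : r ∈ R) : RC (AccN k b R a s) r := by
  obtain ⟨n, hn, rfl⟩ := List.getElem_of_mem hr
  have e : ruleAt R n = R[n] := ruleAt_eq hn
  intro c hg h1 h2
  obtain ⟨_, h1⟩ := h1
  obtain ⟨_, h2⟩ := h2
  refine ⟨mem_tags_p hr, ?_⟩
  have := Prog.Acc.step (P := lprog k b R a s) ⟨n, hn⟩ c (by
    intro i
    show c i ∈ ((ruleAt R n).2.2.2.1.getD i.val []).map toF
    rw [e]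
    exact hg i) (by
    convert h1 using 2
    · simp only [lprog, e]
    · simp only [lprog, e]) (by
    convert h2 using 2
    · simp only [lprog, e]
    · simp only [lprog, e])
  convert this using 2
  simp only [lprog, e]

theorem lprog_min {S : Nm → Wd k b → Prop} (hb : S a 0) (hc : ∀ r ∈ R, RC S r)
    {t : Fin (tagsL R a s).length} {c : Wd k b} (h : (lprog k b R a s).Acc t c) :
    S ((tagsL R a s)[t.val]) c := by
  induction h with
  | base =>
    have : (tagsL R a s)[(tagsL R a s).idxOf a]'(List.idxOf_lt_length_iff.2 mem_tags_acc) = a :=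
      List.getElem_idxOf _
    show S ((tagsL R a s)[(tagsL R a s).idxOf a]'(List.idxOf_lt_length_iff.2 mem_tags_acc)) 0
    rw [this]
    exact hb
  | step r c hg _ _ ih1 ih2 =>
    have hm := ruleAt_mem r.isLt
    have e0 : ∀ nm (h : nm ∈ tagsL R a s),
        (tagsL R a s)[(tagsL R a s).idxOf nm]'(List.idxOf_lt_length_iff.2 h) = nm :=
      fun nm h => List.getElem_idxOf _
    have e1 := e0 _ (mem_tags_p (a := a) (s := s) hm)
    have e2 := e0 _ (mem_tags_a (a := a) (s := s) hm)
    have e3 := e0 _ (mem_tags_b (a := a) (s := s) hm)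
    show S ((tagsL R a s)[(tagsL R a s).idxOf (ruleAt R r.val).1]'
      (List.idxOf_lt_length_iff.2 (mem_tags_p hm))) c
    rw [e1]
    apply hc _ hm c hg
    · have := ih1
      show S _ _
      change S ((tagsL R a s)[(tagsL R a s).idxOf (ruleAt R r.val).2.1]'
        (List.idxOf_lt_length_iff.2 (mem_tags_a hm))) _ at this
      rw [e2] at this
      exact this
    · have := ih2
      show S _ _
      change S ((tagsL R a s)[(tagsL R a s).idxOf (ruleAt R r.val).2.2.1]'
        (List.idxOf_lt_length_iff.2 (mem_tags_b hm))) _ at this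
      rw [e3] at this
      exact this

/-- Acceptance is the least set closed under the rules. -/
theorem accN_min {S : Nm → Wd k b → Prop} (hb : S a 0) (hc : ∀ r ∈ R, RC S r)
    {nm : Nm} {c : Wd k b} (h : AccN k b R a s nm c) : S nm c := by
  obtain ⟨h1, h2⟩ := h
  have := lprog_min hb hc h2
  have e : (tagsL R a s)[(tagsL R a s).idxOf nm]'(List.idxOf_lt_length_iff.2 h1) = nm :=
    List.getElem_idxOf _
  have e' : (tagsL R a s)[(tg R a s nm h1).val] = nm := e
  rw [e'] at this
  exact this

theorem lprog_start :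
    (lprog k b R a s).Acc (lprog k b R a s).s0 (lprog k b R a s).c0 ↔ AccN k b R a s s 0 :=
  ⟨fun h => ⟨mem_tags_s0, h⟩, fun ⟨_, h⟩ => h⟩

end Vale.Agent.P310x
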