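import Vale.Agent.P310x.Cmd

/-!
# A small list language, compiled to stack programs

Values are binary trees, programs are terms `E` with one input and one output, with a semantics
`eval` and a cost `cost`. All list operations are of bounded kind (no general recursion), so that
every term runs in polynomial time (proved in `Poly`). Every term is compiled to a stack program, with
the number of steps bounded by the cost.
-/

namespace Vale.Agent.P310x

open Function

/-- Values: binary trees. -/
inductive Val : Type
  | leaf : Val
  | node (a b : Val) : Val
  deriving DecidableEq

namespace Val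

/-- The bits of a value. -/
def code : Val → List Bool
  | leaf => [false]
  | node a b => true :: (code a ++ code b)

/-- The size of a value. -/
def size : Val → ℕ
  | leaf => 1
  | node a b => size a + size b + 1

@[simp] theorem length_code (v : Val) : (code v).length = size v := by
  induction v with
  | leaf => rfl
  | node a b ha hb => simp [code, size, ha, hb]

theorem size_pos (v : Val) : 0 < size v := by
  cases v <;> simp [size]

def fst : Val → Val
  | leaf => leaf
  | node a _ => a

def snd : Val → Val
  | leaf => leaf
  | node _ b => b

/-- A value as a list: its right spine. -/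
def toL : Val → List Val
  | leaf => []
  | node a b => a :: toL b

/-- The value of a list. -/
def ofL : List Val → Val
  | [] => leaf
  | a :: l => node a (ofL l)

@[simp] theorem toL_ofL (l : List Val) : toL (ofL l) = l := by
  induction l with
  | nil => rfl
  | cons a l h => simp [ofL, toL, h]

@[simp] theorem ofL_toL (v : Val) : ofL (toL v) = v := by
  induction v with
  | leaf => rfl
  | node a b _ hb => simp [ofL, toL, hb]

/-- The value of a truth value. -/
def ofB (b : Bool) : Val := if b then node leaf leaf else leaf

/-- All nonempty final segments of the list of a value. -/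
def tailsV : Val → List Val
  | leaf => []
  | node a b => node a b :: tailsV b

/-- The bits of the list of a value. -/
def cells (P : List Val) : List Bool := P.flatMap fun a => true :: code a

theorem code_ofL (P : List Val) : code (ofL P) = cells P ++ [false] := by
  induction P with
  | nil => rfl
  | cons a l h => simp [ofL, code, cells, h]

theorem cells_append (P Q : List Val) : cells (P ++ Q) = cells P ++ cells Q := by
  simp [cells]

end Val

open Val

/-- The terms of the list language. -/
inductive E : Type
  | id | nil | fst | snd | eq | flat | zip | tails | bits
  | comp (f g : E)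
  | pair (a b : E)
  | ite (c a b : E)
  | map (f : E)

/-- The semantics. -/
def eval : E → Val → Val
  | .id, x => x
  | .nil, _ => leaf
  | .fst, x => x.fst
  | .snd, x => x.snd
  | .eq, x => ofB (decide (x.fst = x.snd))
  | .flat, x => ofL ((toL x).flatMap toL)
  | .zip, x => ofL (((toL x.fst).zip (toL x.snd)).map fun p => node p.1 p.2)
  | .tails, x => ofL (tailsV x)
  | .bits, x => ofL ((code x).map ofB)
  | .comp f g, x => eval f (eval g x)
  | .pair a b, x => node (eval a x) (eval b x)
  | .ite c a b, x => if eval c x = leaf then eval b x else eval a x
  | .map f, x => ofL ((toL x.snd).map fun a => eval f (node x.fst a))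

/-- A bound for the steps of the compiled program. -/
def cost : E → Val → ℕ
  | .id, x => 7 * size x + 4
  | .nil, _ => 1
  | .fst, x => 30 * size x + 30
  | .snd, x => 30 * size x + 30
  | .eq, x => 50 * size x + 50
  | .flat, x => 60 * size x + 30 + 3 * size (ofL ((toL x).flatMap toL))
  | .zip, x => 60 * size x + 60 +
      3 * size (ofL (((toL x.fst).zip (toL x.snd)).map fun p => node p.1 p.2))
  | .tails, x => 60 * size x * size x + 60 + 3 * size (ofL (tailsV x))
  | .bits, x => 30 * size x + 30 + 3 * size (ofL ((code x).map ofB))
  | .comp f g, x => cost g x + cost f (eval g x) + 3 * size (eval g x) + 2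
  | .pair a b, x => cost a x + cost b x + 1
  | .ite c a b, x => cost c x + 3 * size (eval c x) + 4 + (if eval c x = leaf then cost b x else cost a x)
  | .map f, x => 60 * size x + 60 +
      3 * size (ofL ((toL x.snd).map fun a => eval f (node x.fst a))) +
      ((toL x.snd).map fun a => cost f (node x.fst a) + 3 * size (eval f (node x.fst a)) +
        60 * size x + 60).sum

/-! ### Scanning a value on a stack -/

/-- One step of the scan. -/
def scanBody (r s c : ℕ) : Cmd :=
  .pop r (.push s false) (.seq (.push s true) (.seq (.push c true) (.push c true))) .nop

/-- Move the value on top of `r` to `s`, which reverses its bits; `c` is a free stack. -/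
def scan (r s c : ℕ) : Cmd := .seq (.push c true) (.loop c .nop (scanBody r s c))

theorem scan_aux {r s c : ℕ} (h1 : r ≠ s) (h2 : r ≠ c) (h3 : s ≠ c) (v : Val) :
    ∀ (σ σ2 : Stk) (l : List Bool) (u : List Bool) (B : ℕ), σ c = true :: u → σ r = code v ++ l →
      Runs (.loop c .nop (scanBody r s c))
        (update (update (update σ r l) s ((code v).reverse ++ σ s)) c u) σ2 B →
      Runs (.loop c .nop (scanBody r s c)) σ σ2 (B + 7 * size v) := by
  induction v with
  | leaf =>
    intro σ σ2 l u B e1 e2 h
    have e2' : (update σ c u) r = false :: l := by
      rw [Function.update_of_ne h2, e2]; rfl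
    have hp : Runs (.push s false) (update (update σ c u) r l)
        (update (update (update σ r l) s (false :: σ s)) c u) 1 := by
      refine (Runs.push s false _).cast ?_ le_rfl
      funext x
      simp only [Function.update_apply]
      split_ifs <;> simp_all
    have hb : Runs (scanBody r s c) (update σ c u)
        (update (update (update σ r l) s (false :: σ s)) c u) 3 := Runs.pop0 e2' hp
    have := Runs.loop1 (c0 := .nop) e1 hb h
    exact this.mono (by simp [size]; omega)
  | node a b ha hb =>
    intro σ σ2 l u B e1 e2 h
    have e2' : (update σ c u) r = true :: (code a ++ code b ++ l) := by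
      rw [Function.update_of_ne h2, e2]; simp [code]
    let σa : Stk := update (update (update σ c (true :: true :: u)) r (code a ++ code b ++ l)) s
      (true :: σ s)
    have hp : Runs (.seq (.push s true) (.seq (.push c true) (.push c true)))
        (update (update σ c u) r (code a ++ code b ++ l)) σa 3 := by
      refine (Runs.seq (Runs.push s true _) (Runs.seq (Runs.push c true _) (Runs.push c true _))).cast
        ?_ le_rfl
      funext x
      simp only [σa, Function.update_apply]
      split_ifs <;> simp_all
    have hb0 : Runs (scanBody r s c) (update σ c u) σa 5 := Runs.pop1 e2' hp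
    let σb : Stk := update (update (update σa r (code b ++ l)) s ((code a).reverse ++ σa s)) c
      (true :: u)
    have h' : Runs (.loop c .nop (scanBody r s c))
        (update (update (update σb r l) s ((code b).reverse ++ σb s)) c u) σ2 B := by
      have e : update (update (update σb r l) s ((code b).reverse ++ σb s)) c u =
          update (update (update σ r l) s ((code (node a b)).reverse ++ σ s)) c u := by
        funext x
        simp only [σb, σa, Function.update_apply, code]
        split_ifs <;> simp_all
      rw [e]
      exact h
    have h4 := hb σb σ2 l u B (by simp [σb]) (by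
      simp only [σb, σa, Function.update_apply]
      split_ifs <;> simp_all) h'
    have h5 := ha σa σ2 (code b ++ l) (true :: u) _ (by
      simp only [σa, Function.update_apply]
      split_ifs <;> simp_all) (by
      simp only [σa, Function.update_apply]
      split_ifs <;> simp_all) h4
    have := Runs.loop1 (c0 := .nop) e1 hb0 h5
    exact this.mono (by simp [size]; omega)

theorem scan_runs {r s c : ℕ} (h1 : r ≠ s) (h2 : r ≠ c) (h3 : s ≠ c) (v : Val) (σ : Stk)
    (l : List Bool) (ec : σ c = []) (er : σ r = code v ++ l) :
    Runs (scan r s c) σ (update (update σ r l) s ((code v).reverse ++ σ s)) (7 * size v + 3) := by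
  have h4 : Runs (.loop c .nop (scanBody r s c))
      (update (update (update (update σ c [true]) r l) s
        ((code v).reverse ++ (update σ c [true]) s)) c [])
      (update (update σ r l) s ((code v).reverse ++ σ s)) 2 := by
    have e : update (update (update (update σ c [true]) r l) s
        ((code v).reverse ++ (update σ c [true]) s)) c [] =
        update (update σ r l) s ((code v).reverse ++ σ s) := by
      funext x
      simp only [Function.update_apply]
      split_ifs <;> simp_all
    rw [e]
    refine Runs.loopE ?_
    simp only [Function.update_apply]
    split_ifs <;> simp_all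
  have h5 := scan_aux h1 h2 h3 v (update σ c [true]) _ l [] 2 (by simp) (by
    rw [Function.update_of_ne h2, er]) h4
  have h6 : Runs (.push c true) σ (update σ c [true]) 1 := by
    have := Runs.push c true σ
    rwa [ec] at this
  refine (Runs.seq h6 h5).mono (by omega)

/-! ### Loops over a list on a stack -/

/-- The body of a loop over a list on the stack `n`, with the flag `g`. -/
def forBody (n g : ℕ) (body : Cmd) : Cmd := .pop n .nop (.seq body (.push g true)) .nop

/-- Run `body` for each element of the list on top of the stack `n`: when it starts, the list cell
is removed, so that the element is on top of the stack, and it has to remove it. -/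
def forL (n g : ℕ) (body : Cmd) : Cmd := .seq (.push g true) (.loop g .nop (forBody n g body))

/-- The sum of a budget over all final segments. -/
def sumB (b : List Val → ℕ) : List Val → ℕ
  | [] => 0
  | a :: l => b (a :: l) + sumB b l

/-- The accumulator after a loop. -/
def foldSt {α : Type} (st : α → Val → List Val → α) : α → List Val → α
  | A, [] => A
  | A, a :: L => foldSt st (st A a L) L

theorem forL_aux {n g : ℕ} (hng : n ≠ g) {body : Cmd} {α : Type} (S : α → List Val → Stk)
    (st : α → Val → List Val → α) (τ : List Bool) (b : List Val → ℕ)
    (hn : ∀ A L, S A L n = code (ofL L) ++ τ) (hg : ∀ A L, S A L g = [])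
    (hb : ∀ A a L, Runs body (update (S A (a :: L)) n (code a ++ code (ofL L) ++ τ))
      (S (st A a L) L) (b (a :: L)))
    (L : List Val) (A : α) :
    Runs (.loop g .nop (forBody n g body)) (update (S A L) g [true])
      (update (S (foldSt st A L) []) n τ) (sumB (fun P => b P + 5) L + 7) := by
  induction L generalizing A with
  | nil =>
    have e1 : (update (S A []) g [true]) g = true :: [] := by simp
    have e2 : update (update (S A []) g [true]) g [] = S A [] := by
      have := hg A []
      funext x
      simp only [Function.update_apply]
      split_ifs <;> simp_all
    have e3 : S A [] n = false :: τ := by rw [hn]; rfl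
    have h1 : Runs (forBody n g body) (S A []) (update (S A []) n τ) 3 :=
      Runs.pop0 e3 (Runs.nop _)
    have h2 : Runs (.loop g .nop (forBody n g body)) (update (S A []) n τ) (update (S A []) n τ) 2 :=
      Runs.loopE (by rw [Function.update_of_ne hng.symm, hg])
    have h3 := Runs.loop1 (c0 := .nop) e1 (by rw [e2]; exact h1) h2
    exact h3.mono (by simp [sumB])
  | cons a L ih =>
    have e1 : (update (S A (a :: L)) g [true]) g = true :: [] := by simp
    have e2 : update (update (S A (a :: L)) g [true]) g [] = S A (a :: L) := by
      have := hg A (a :: L)
      funext x
      simp only [Function.update_apply]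
      split_ifs <;> simp_all
    have e3 : S A (a :: L) n = true :: (code a ++ code (ofL L) ++ τ) := by rw [hn]; simp [ofL, code]
    have h0 : Runs (.seq body (.push g true)) (update (S A (a :: L)) n (code a ++ code (ofL L) ++ τ))
        (update (S (st A a L) L) g [true]) (b (a :: L) + 1) := by
      have := Runs.push g true (S (st A a L) L)
      rw [hg] at this
      exact Runs.seq (hb A a L) this
    have h1 : Runs (forBody n g body) (S A (a :: L)) (update (S (st A a L) L) g [true])
        (b (a :: L) + 1 + 2) := Runs.pop1 e3 h0
    have h3 := Runs.loop1 (c0 := .nop) e1 (by rw [e2]; exact h1) (ih (st A a L))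
    exact h3.mono (by simp [sumB, foldSt]; omega)

theorem forL_runs {n g : ℕ} (hng : n ≠ g) {body : Cmd} {α : Type} (S : α → List Val → Stk)
    (st : α → Val → List Val → α) (τ : List Bool) (b : List Val → ℕ)
    (hn : ∀ A L, S A L n = code (ofL L) ++ τ) (hg : ∀ A L, S A L g = [])
    (hb : ∀ A a L, Runs body (update (S A (a :: L)) n (code a ++ code (ofL L) ++ τ))
      (S (st A a L) L) (b (a :: L)))
    (L : List Val) (A : α) :
    Runs (forL n g body) (S A L) (update (S (foldSt st A L) []) n τ)
      (sumB (fun P => b P + 5) L + 8) := by
  have := Runs.push g true (S A L)
  rw [hg] at this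
  exact (Runs.seq this (forL_aux hng S st τ b hn hg hb L A)).mono (by omega)

theorem sumB_le_sum (b : List Val → ℕ) (g : Val → ℕ) (L : List Val)
    (h : ∀ a l, a ∈ L → b (a :: l) ≤ g a) : sumB b L ≤ (L.map g).sum := by
  induction L with
  | nil => simp [sumB]
  | cons a l ih =>
    have h1 := h a l (by simp)
    have h2 := ih (fun a' l' ha' => h a' l' (by simp [ha']))
    simp only [sumB, List.map_cons, List.sum_cons]
    omega

theorem sumB_le_mul (b : List Val → ℕ) (B : ℕ) (L : List Val)
    (h : ∀ P, P <:+ L → b P ≤ B) : sumB b L ≤ L.length * B := by
  induction L with
  | nil => simp [sumB]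
  | cons a l ih =>
    have h1 := h (a :: l) (List.suffix_refl _)
    have h2 := ih (fun P hP => h P (hP.trans (List.suffix_cons a l)))
    simp only [sumB, List.length_cons]
    nlinarith

/-- The last part of a loop that builds a list on `u`. -/
def finish (u d : ℕ) : Cmd := .seq (.push u false) (mv u d)

theorem finish_runs {u d : ℕ} (h : u ≠ d) (σ : Stk) (P : List Val) (e : σ u = (cells P).reverse) :
    Runs (finish u d) σ (update (update σ u []) d (code (ofL P) ++ σ d)) (3 * size (ofL P) + 3) := by
  have h1 := Runs.push u false σ
  have h2 := mv_runs h (update σ u (false :: σ u))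
  refine (Runs.seq h1 h2).cast ?_ ?_
  · funext x
    simp only [Function.update_apply, code_ofL]
    split_ifs <;> simp_all
  · have : (false :: (cells P).reverse).length = size (ofL P) := by
      rw [← length_code, code_ofL]
      simp
    simp [e, this]
    omega

end Vale.Agent.P310x
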