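import Vale.Agent.P310u.Defs

/-!
# Linear systems of gadget systems with any injective numbering of the equations
-/

namespace Vale.Agent.P310x

open Vale.Agent.P310u

variable {k : ℕ} {F Hub Gad : Type}

/-- An injective numbering of the equations of a gadget system. -/
class NumG (S : GS k F Hub Gad) where
  code : GItem S → ℕ
  inj : Function.Injective code

variable [AddCommGroup F] [Fintype Gad] [Finite F] [Finite Hub]

/-- The linear system of a gadget system, with the given numbering. -/
noncomputable def xsN (S : GS k F Hub Gad) [NumG S] : XS (GVar k F Hub Gad) (GItem S) where
  vars := S.gvars
  tw := S.gtw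
  code := NumG.code

end Vale.Agent.P310x
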