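import Vale.Agent.P310x.Compose

/-!
# Functions computed by terms of the list language
-/

namespace Vale.Agent.P310x

open Val

/-- Types with an injective encoding as values. -/
class Enc (α : Type) where
  enc : α → Val
  inj : Function.Injective enc

export Enc (enc)

instance : Enc Val := ⟨id, Function.injective_id⟩

instance : Enc Bool := ⟨ofB, by
  intro a b h
  cases a <;> cases b <;> simp_all [ofB]⟩

theorem ofL_inj : Function.Injective ofL := Function.LeftInverse.injective toL_ofL

instance {α β : Type} [Enc α] [Enc β] : Enc (α × β) := ⟨fun p => node (enc p.1) (enc p.2), by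
  rintro ⟨a, b⟩ ⟨c, d⟩ h
  simp only [node.injEq] at h
  rw [Enc.inj h.1, Enc.inj h.2]⟩

instance {α : Type} [Enc α] : Enc (List α) := ⟨fun l => ofL (l.map enc), by
  intro a b h
  exact List.map_injective_iff.2 Enc.inj (ofL_inj h)⟩

instance : Enc ℕ := ⟨fun n => ofL (List.replicate n leaf), by
  intro a b h
  have := congrArg List.length (ofL_inj h)
  simpa using this⟩

/-- The function is computed by a term. -/
@[fun_prop] def PT {α β : Type} [Enc α] [Enc β] (f : α → β) : Prop := ∃ e : E, ∀ x, eval e (enc x) = enc (f x)

variable {α β γ δ : Type} [Enc α] [Enc β] [Enc γ] [Enc δ]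

namespace PT

theorem enc_pair (a : α) (b : β) : enc (a, b) = node (enc a) (enc b) := rfl

theorem enc_list (l : List α) : enc l = ofL (l.map enc) := rfl

theorem enc_nil : enc ([] : List α) = leaf := rfl

theorem enc_cons (a : α) (l : List α) : enc (a :: l) = node (enc a) (enc l) := rfl

@[fun_prop] theorem id : PT (fun x : α => x) := ⟨.id, fun _ => rfl⟩

@[fun_prop] theorem comp {f : β → γ} {g : α → β} (hf : PT f) (hg : PT g) : PT (fun x => f (g x)) := by
  obtain ⟨a, ha⟩ := hf
  obtain ⟨b, hb⟩ := hg
  exact ⟨.comp a b, fun x => by simp [eval, ha, hb]⟩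

@[fun_prop] theorem const (c : β) : PT (fun _ : α => c) := by
  have h : ∀ v : Val, ∃ e : E, ∀ x, eval e x = v := by
    intro v
    induction v with
    | leaf => exact ⟨.nil, fun _ => rfl⟩
    | node a b ha hb =>
      obtain ⟨p, hp⟩ := ha
      obtain ⟨q, hq⟩ := hb
      exact ⟨.pair p q, fun x => by simp [eval, hp, hq]⟩
  obtain ⟨e, he⟩ := h (enc c)
  exact ⟨e, fun x => he _⟩

@[fun_prop] theorem pair {f : α → β} {g : α → γ} (hf : PT f) (hg : PT g) : PT (fun x => (f x, g x)) := by
  obtain ⟨a, ha⟩ := hf
  obtain ⟨b, hb⟩ := hg
  exact ⟨.pair a b, fun x => by simp [eval, ha, hb, enc_pair]⟩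

@[fun_prop] theorem fst {f : α → β × γ} (hf : PT f) : PT (fun x => (f x).1) := by
  obtain ⟨a, ha⟩ := hf
  refine ⟨.comp .fst a, fun x => ?_⟩
  show Val.fst (eval a (enc x)) = _
  rw [ha]
  rfl

@[fun_prop] theorem snd {f : α → β × γ} (hf : PT f) : PT (fun x => (f x).2) := by
  obtain ⟨a, ha⟩ := hf
  refine ⟨.comp .snd a, fun x => ?_⟩
  show Val.snd (eval a (enc x)) = _
  rw [ha]
  rfl

@[fun_prop] theorem map {f : α → List β} {g : α → β → γ} (hf : PT f)
    (hg : PT (fun p : α × β => g p.1 p.2)) : PT (fun x => (f x).map (g x)) := by
  obtain ⟨a, ha⟩ := hf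
  obtain ⟨b, hb⟩ := hg
  refine ⟨.comp (.map b) (.pair .id a), fun x => ?_⟩
  have h1 : eval (.pair .id a) (enc x) = node (enc x) (enc (f x)) := by simp [eval, ha]
  have h2 : ∀ y : β, eval b (node (enc x) (enc y)) = enc (g x y) := fun y => hb (x, y)
  show ofL ((toL (eval (.pair .id a) (enc x)).snd).map
    (fun c => eval b (node (eval (.pair .id a) (enc x)).fst c))) = _
  rw [h1]
  simp only [Val.fst, Val.snd, enc_list, toL_ofL, List.map_map]
  congr 1
  apply List.map_congr_left
  intro y _
  exact h2 y

@[fun_prop] theorem cons {f : α → β} {g : α → List β} (hf : PT f) (hg : PT g) :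
    PT (fun x => f x :: g x) := by
  obtain ⟨a, ha⟩ := hf
  obtain ⟨b, hb⟩ := hg
  refine ⟨.pair a b, fun x => ?_⟩
  show node (eval a (enc x)) (eval b (enc x)) = _
  rw [ha, hb]
  rfl

theorem flat_aux (l : List (List β)) :
    eval .flat (enc l) = enc (l.flatten) := by
  show ofL ((toL (ofL (l.map enc))).flatMap toL) = ofL (l.flatten.map enc)
  congr 1
  rw [toL_ofL]
  induction l with
  | nil => rfl
  | cons a l h =>
    have e : toL (enc a) = a.map enc := toL_ofL _
    simp [List.flatMap_cons, h, e]

@[fun_prop] theorem flatMap {f : α → List β} {g : α → β → List γ} (hf : PT f)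
    (hg : PT (fun p : α × β => g p.1 p.2)) : PT (fun x => (f x).flatMap (g x)) := by
  obtain ⟨a, ha⟩ := map hf hg
  refine ⟨.comp .flat a, fun x => ?_⟩
  show eval .flat (eval a (enc x)) = _
  rw [ha, flat_aux]
  show enc ((f x).map (g x)).flatten = enc ((f x).flatMap (g x))
  rw [List.flatMap_def]

@[fun_prop] theorem append {f g : α → List β} (hf : PT f) (hg : PT g) :
    PT (fun x => f x ++ g x) := by
  have h : PT (fun x => [f x, g x].flatten) := by
    obtain ⟨a, ha⟩ := cons hf (cons hg (const ([] : List (List β))))
    refine ⟨.comp .flat a, fun x => ?_⟩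
    show eval .flat (eval a (enc x)) = _
    rw [ha, flat_aux]
  simpa using h

@[fun_prop] theorem cond {c : α → Bool} {a b : α → β} (hc : PT c) (ha : PT a) (hb : PT b) :
    PT (fun x => bif c x then a x else b x) := by
  obtain ⟨p, hp⟩ := hc
  obtain ⟨q, hq⟩ := ha
  obtain ⟨r, hr⟩ := hb
  refine ⟨.ite p q r, fun x => ?_⟩
  simp only [eval, hp, hq, hr]
  cases hx : c x
  · simp [enc, ofB]
  · simp [enc, ofB]

/-- Equality. -/
@[fun_prop] theorem beq [DecidableEq β] {f g : α → β} (hf : PT f) (hg : PT g) :
    PT (fun x => decide (f x = g x)) := by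
  obtain ⟨a, ha⟩ := pair hf hg
  refine ⟨.comp .eq a, fun x => ?_⟩
  show eval .eq (eval a (enc x)) = _
  rw [ha]
  show ofB (decide (enc (f x) = enc (g x))) = ofB (decide (f x = g x))
  congr 1
  exact decide_eq_decide.2 ⟨fun h => Enc.inj h, fun h => by rw [h]⟩

@[fun_prop] theorem not {f : α → Bool} (hf : PT f) : PT (fun x => !f x) := by
  have : (fun x => !f x) = fun x => bif f x then false else true := by
    funext x
    cases f x <;> rfl
  rw [this]
  exact cond hf (const _) (const _)

@[fun_prop] theorem and {f g : α → Bool} (hf : PT f) (hg : PT g) : PT (fun x => f x && g x) := by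
  have : (fun x => f x && g x) = fun x => bif f x then g x else false := by
    funext x
    cases f x <;> rfl
  rw [this]
  exact cond hf hg (const _)

@[fun_prop] theorem or {f g : α → Bool} (hf : PT f) (hg : PT g) : PT (fun x => f x || g x) := by
  have : (fun x => f x || g x) = fun x => bif f x then true else g x := by
    funext x
    cases f x <;> rfl
  rw [this]
  exact cond hf (const _) hg

@[fun_prop] theorem xor {f g : α → Bool} (hf : PT f) (hg : PT g) : PT (fun x => Bool.xor (f x) (g x)) := by
  have : (fun x => Bool.xor (f x) (g x)) = fun x => bif f x then !(g x) else g x := by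
    funext x
    cases f x <;> cases g x <;> rfl
  rw [this]
  exact cond hf (not hg) hg

@[fun_prop] theorem zip {f : α → List β} {g : α → List γ} (hf : PT f) (hg : PT g) :
    PT (fun x => (f x).zip (g x)) := by
  obtain ⟨a, ha⟩ := pair hf hg
  refine ⟨.comp .zip a, fun x => ?_⟩
  show eval .zip (eval a (enc x)) = _
  rw [ha]
  show ofL (((toL (enc (f x))).zip (toL (enc (g x)))).map fun p => node p.1 p.2) =
    ofL (((f x).zip (g x)).map enc)
  congr 1
  have e1 : toL (enc (f x)) = (f x).map enc := toL_ofL _
  have e2 : toL (enc (g x)) = (g x).map enc := toL_ofL _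
  rw [e1, e2]
  generalize f x = l1
  generalize g x = l2
  induction l1 generalizing l2 with
  | nil => simp
  | cons a l ih =>
    cases l2 with
    | nil => simp
    | cons b m =>
      simp only [List.map_cons, List.zip_cons_cons, ih]
      rfl

/-- The bits of the encoding. -/
@[fun_prop] theorem bits {f : α → β} (hf : PT f) : PT (fun x => code (enc (f x))) := by
  obtain ⟨a, ha⟩ := hf
  refine ⟨.comp .bits a, fun x => ?_⟩
  show eval .bits (eval a (enc x)) = _
  rw [ha]
  rfl

/-- Truth values are lists of leaves. -/
def natL (n : ℕ) : List Bool := List.replicate n false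

theorem enc_natL (n : ℕ) : enc (natL n) = enc n := by
  show ofL ((List.replicate n false).map enc) = ofL (List.replicate n leaf)
  rw [List.map_replicate]
  rfl

@[fun_prop] theorem natL_pt {f : α → ℕ} (hf : PT f) : PT (fun x => natL (f x)) := by
  obtain ⟨a, ha⟩ := hf
  exact ⟨a, fun x => by rw [ha, enc_natL]⟩

@[fun_prop] theorem length {f : α → List β} (hf : PT f) : PT (fun x => (f x).length) := by
  obtain ⟨a, ha⟩ := hf
  refine ⟨.comp (.map .nil) (.pair .nil a), fun x => ?_⟩
  show ofL ((toL (eval (.pair .nil a) (enc x)).snd).map fun _ => eval .nil _) = _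
  have h1 : eval (.pair .nil a) (enc x) = node leaf (enc (f x)) := by simp [eval, ha]
  rw [h1]
  have e1 : toL (enc (f x)) = (f x).map enc := toL_ofL _
  simp only [Val.snd, e1, List.map_map]
  congr 1
  rw [← List.map_const']
  apply List.map_congr_left
  intro y _
  rfl

@[fun_prop] theorem add {f g : α → ℕ} (hf : PT f) (hg : PT g) : PT (fun x => f x + g x) := by
  have : (fun x => f x + g x) = fun x => (natL (f x) ++ natL (g x)).length := by
    funext x
    simp [natL]
  rw [this]
  exact length (append (natL_pt hf) (natL_pt hg))

@[fun_prop] theorem mul {f g : α → ℕ} (hf : PT f) (hg : PT g) : PT (fun x => f x * g x) := by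
  have : (fun x => f x * g x) = fun x => ((natL (f x)).flatMap fun _ => natL (g x)).length := by
    funext x
    induction f x with
    | zero => simp [natL]
    | succ n h =>
      simp only [natL, List.replicate_succ, List.flatMap_cons, List.length_append] at h ⊢
      rw [← h]
      simp [Nat.succ_mul, Nat.add_comm]
  rw [this]
  exact length (flatMap (natL_pt hf) (natL_pt (hg.comp (fst id))))

@[fun_prop] theorem le {f g : α → ℕ} (hf : PT f) (hg : PT g) : PT (fun x => decide (f x ≤ g x)) := by
  have : (fun x => decide (f x ≤ g x)) = fun x => decide (((natL (f x)).zip (natL (g x))).length = f x) := by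
    funext x
    simp [natL]
  rw [this]
  exact beq (length (zip (natL_pt hf) (natL_pt hg))) hf

theorem tailsV_enc (n : ℕ) : tailsV (enc n) = ((List.range n).reverse).map (fun m => enc (m + 1)) := by
  induction n with
  | zero => rfl
  | succ n h =>
    rw [List.range_succ, List.reverse_append]
    have e : enc (n + 1) = node leaf (enc n) := rfl
    rw [e]
    simp only [tailsV, h, List.reverse_cons, List.reverse_nil, List.nil_append, List.map_cons, List.cons_append]
    rfl

/-- The numbers below `n` in falling order. -/
@[fun_prop] theorem rangeRev {f : α → ℕ} (hf : PT f) : PT (fun x => (List.range (f x)).reverse) := by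
  obtain ⟨a, ha⟩ := hf
  refine ⟨.comp (.map (.comp .snd .snd)) (.pair .nil (.comp .tails a)), fun x => ?_⟩
  show ofL ((toL (eval (.pair .nil (.comp .tails a)) (enc x)).snd).map _) = _
  have h1 : eval (.pair .nil (.comp .tails a)) (enc x) =
      node leaf (ofL (tailsV (enc (f x)))) := by
    simp [eval, ha]
  rw [h1]
  simp only [Val.snd, toL_ofL]
  rw [tailsV_enc, List.map_map]
  show ofL _ = ofL (((List.range (f x)).reverse).map enc)
  congr 1

@[fun_prop] theorem filter {f : α → List β} {p : α → β → Bool} (hf : PT f)
    (hp : PT (fun q : α × β => p q.1 q.2)) : PT (fun x => (f x).filter (p x)) := by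
  have : (fun x => (f x).filter (p x)) =
      fun x => (f x).flatMap fun a => bif p x a then [a] else [] := by
    funext x
    induction f x with
    | nil => rfl
    | cons a l h =>
      simp only [List.filter_cons, List.flatMap_cons]
      cases p x a <;> simp [h]
  rw [this]
  refine flatMap hf (cond hp (cons (snd id) (const _)) (const _))

@[fun_prop] theorem sub {f g : α → ℕ} (hf : PT f) (hg : PT g) : PT (fun x => f x - g x) := by
  have : (fun x => f x - g x) =
      fun x => ((List.range (f x)).reverse.filter fun j => decide (g x ≤ j)).length := by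
    funext x
    have h1 : ∀ n m : ℕ, ((List.range n).reverse.filter fun j => decide (m ≤ j)).length = n - m := by
      intro n m
      induction n with
      | zero => simp
      | succ n h =>
        rw [List.range_succ, List.reverse_append]
        simp only [List.reverse_cons, List.reverse_nil, List.nil_append, List.cons_append, List.filter_cons]
        by_cases c : m ≤ n
        · simp only [c, decide_true, if_true, List.length_cons, h]
          omega
        · simp only [c, decide_false, if_false, h, Bool.false_eq_true]
          omega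
    rw [h1]
  rw [this]
  refine length (filter (rangeRev hf) (le (hg.comp (fst id)) (snd id)))

@[fun_prop] theorem range {f : α → ℕ} (hf : PT f) : PT (fun x => List.range (f x)) := by
  have : (fun x => List.range (f x)) =
      fun x => ((List.range (f x)).reverse).map fun j => f x - 1 - j := by
    funext x
    apply List.ext_getElem
    · simp
    · intro i h1 h2
      simp only [List.getElem_map, List.getElem_reverse, List.getElem_range, List.length_range]
      simp only [List.length_range] at h1
      omega
  rw [this]
  refine map (rangeRev hf) (sub (sub (hf.comp (fst id)) (const 1)) (snd id))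


@[fun_prop] theorem headD {f : α → List β} {d : α → β} (hf : PT f) (hd : PT d) :
    PT (fun x => (f x).headD (d x)) := by
  obtain ⟨a, ha⟩ := hf
  obtain ⟨b, hb⟩ := hd
  refine ⟨.ite a (.comp .fst a) b, fun x => ?_⟩
  simp only [eval, ha, hb]
  cases hx : f x with
  | nil => simp [enc_nil]
  | cons c l => simp [enc_cons, Val.fst]

@[fun_prop] theorem zipIdx {f : α → List β} (hf : PT f) : PT (fun x => (f x).zipIdx) := by
  have : (fun x => (f x).zipIdx) = fun x => (f x).zip (List.range (f x).length) := by
    funext x
    rw [List.zipIdx_eq_zip_range', List.range_eq_range']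
  rw [this]
  exact zip hf (range (length hf))

theorem getD_aux (l : List β) (n i : ℕ) (d : β) :
    (((l.zipIdx n).filter fun p => decide (p.2 = n + i)).headD (d, 0)).1 = l.getD i d := by
  induction l generalizing n i with
  | nil => rfl
  | cons a l h =>
    cases i with
    | zero => simp [List.zipIdx_cons]
    | succ i =>
      have e : n + (i + 1) = (n + 1) + i := by omega
      have e2 : ¬ n = n + 1 + i := by omega
      simp only [List.zipIdx_cons, List.filter_cons, e, e2, decide_false, if_false, Bool.false_eq_true,
        List.getD_cons_succ]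
      exact h (n + 1) i

/-- Reading a list at a position. -/
@[fun_prop] theorem getD {f : α → List β} {i : α → ℕ} {d : α → β} (hf : PT f) (hi : PT i) (hd : PT d) :
    PT (fun x => (f x).getD (i x) (d x)) := by
  have : (fun x => (f x).getD (i x) (d x)) =
      fun x => (((f x).zipIdx.filter fun p => decide (p.2 = i x)).headD (d x, 0)).1 := by
    funext x
    have := getD_aux (f x) 0 (i x) (d x)
    simp only [Nat.zero_add] at this
    rw [this]
  rw [this]
  exact fst (headD (filter (zipIdx hf) (beq (snd (snd id)) (hi.comp (fst id)))) (pair hd (const 0)))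

theorem idxOf_aux [BEq β] [LawfulBEq β] [DecidableEq β] (l : List β) (n : ℕ) (a : β) :
    (((l.zipIdx n).filter fun p => decide (p.1 = a)).headD (a, n + l.length)).2 = n + l.idxOf a := by
  induction l generalizing n with
  | nil => simp
  | cons c l h =>
    by_cases e : c = a
    · subst e
      simp [List.zipIdx_cons, List.idxOf_cons]
    · have e' : (c == a) = false := by simpa using e
      simp only [List.zipIdx_cons, List.filter_cons, e, decide_false, if_false, Bool.false_eq_true,
        List.length_cons, List.idxOf_cons, e', cond_false]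
      have := h (n + 1)
      rw [show n + (l.length + 1) = n + 1 + l.length by omega, this]
      omega

/-- The first position of an element. -/
@[fun_prop] theorem idxOf [BEq β] [LawfulBEq β] {f : α → List β} {a : α → β} (hf : PT f) (ha : PT a) :
    PT (fun x => (f x).idxOf (a x)) := by
  letI : DecidableEq β := instDecidableEqOfLawfulBEq
  have : (fun x => (f x).idxOf (a x)) =
      fun x => (((f x).zipIdx.filter fun p => decide (p.1 = a x)).headD (a x, (f x).length)).2 := by
    funext x
    have := idxOf_aux (f x) 0 (a x)
    simp only [Nat.zero_add] at this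
    rw [this]
  rw [this]
  exact snd (headD (filter (zipIdx hf) (beq (fst (snd id)) (ha.comp (fst id))))
    (pair ha (length hf)))

end PT

/-- A list without repetitions, with the same elements. -/
def dedupD {β : Type} [DecidableEq β] (l : List β) : List β :=
  (l.zipIdx.filter fun p => decide (l.idxOf p.1 = p.2)).map fun p => p.1

theorem mem_dedupD {β : Type} [DecidableEq β] {l : List β} {a : β} : a ∈ dedupD l ↔ a ∈ l := by
  simp only [dedupD, List.mem_map, List.mem_filter, decide_eq_true_eq, Prod.exists, exists_eq_right,
    exists_and_right]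
  constructor
  · rintro ⟨i, h1, _⟩
    exact (List.mem_zipIdx h1).2.2 ▸ List.getElem_mem _
  · intro h
    refine ⟨l.idxOf a, ?_, rfl⟩
    rw [List.mk_mem_zipIdx_iff_getElem?]
    simp [List.getElem?_idxOf h]

theorem nodup_dedupD {β : Type} [DecidableEq β] (l : List β) : (dedupD l).Nodup := by
  apply List.Nodup.map_on
  · intro p hp q hq h
    have h1 := (List.mem_filter.1 hp).2
    have h2 := (List.mem_filter.1 hq).2
    simp only [decide_eq_true_eq] at h1 h2
    ext1
    · exact h
    · rw [← h1, ← h2, h]
  · refine List.Nodup.filter _ (List.Nodup.of_map Prod.snd ?_)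
    rw [List.zipIdx_map_snd]
    exact List.nodup_range'

namespace PT

@[fun_prop] theorem dedup [DecidableEq β] {f : α → List β} (hf : PT f) : PT (fun x => dedupD (f x)) := by
  unfold dedupD
  fun_prop

/-- Membership. -/
@[fun_prop] theorem mem [DecidableEq β] {f : α → List β} {a : α → β} (hf : PT f) (ha : PT a) :
    PT (fun x => decide (a x ∈ f x)) := by
  have : (fun x => decide (a x ∈ f x)) =
      fun x => !(decide (((f x).filter fun b => decide (b = a x)).length = 0)) := by
    funext x
    rw [Bool.eq_iff_iff]
    simp [List.filter_eq_nil_iff]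
  rw [this]
  fun_prop

end PT

end Vale.Agent.P310x
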