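import Vale.Agent.P310x.LProg

/-!
# The rules of the program of a computation table

The input is a tuple: a description of a machine, two numbers `mT`, `mP`, and tables of letters. Words
have `mT` digits for the time, then `mP` digits for the position on a tape.
-/

namespace Vale.Agent.P310x

open List (range)
open Val PT

/-- One line of the table of a machine: the state, the symbols read, the new state, the symbols
written, the moves. -/
abbrev Entry := ℕ × List ℕ × ℕ × List ℕ × List ℕ

/-- The description of a machine: numbers of tapes and symbols, the input tape, the blank, the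
symbols of the bits, start and accepting state, the table. -/
abbrev Desc := ℕ × ℕ × ℕ × ℕ × ℕ × ℕ × ℕ × ℕ × List Entry

/-- The input of the reduction: the description, the numbers `mT`, `mP`, the length of half a letter,
the list of half letters, and the table of all short bit lists with their parities. -/
abbrev Inp := Desc × ℕ × ℕ × ℕ × List Lt × List (Lt × Bool)

def xnT (x : Inp) : ℕ := x.1.1
def xnS (x : Inp) : ℕ := x.1.2.1
def xinp (x : Inp) : ℕ := x.1.2.2.1
def xblank (x : Inp) : ℕ := x.1.2.2.2.1
def xsym0 (x : Inp) : ℕ := x.1.2.2.2.2.1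
def xsym1 (x : Inp) : ℕ := x.1.2.2.2.2.2.1
def xstart (x : Inp) : ℕ := x.1.2.2.2.2.2.2.1
def xacc (x : Inp) : ℕ := x.1.2.2.2.2.2.2.2.1
def xents (x : Inp) : List Entry := x.1.2.2.2.2.2.2.2.2
def xmT (x : Inp) : ℕ := x.2.1
def xmP (x : Inp) : ℕ := x.2.2.1
def xbh (x : Inp) : ℕ := x.2.2.2.1
def xH (x : Inp) : List Lt := x.2.2.2.2.1
def xadv (x : Inp) : List (Lt × Bool) := x.2.2.2.2.2

/-- The number of digits. -/
def xk (x : Inp) : ℕ := xmT x + xmP x

/-- The length of a letter. -/
def xb (x : Inp) : ℕ := xbh x + xbh x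

/-- The list of letters. -/
def xL (x : Inp) : List Lt := (xH x).flatMap fun a => (xH x).map fun c => a ++ c

/-- The number of letters. -/
def xB (x : Inp) : ℕ := (xL x).length

/-- The letter of a digit value. -/
def lb (x : Inp) (a : ℕ) : Lt := (xL x).getD a []

/-- The sum of two letters. -/
def xorL (x : Inp) (a c : Lt) : Lt :=
  (range (xb x)).map fun i => Bool.xor (a.getD i false) (c.getD i false)

/-- The input bits of the program: the code of the tuple. -/
def inBits (x : Inp) : List Bool := code (enc x)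

/-- The symbol in the input area at a position. -/
def symAt (x : Inp) (p : ℕ) : ℕ :=
  ((inBits x).map fun c => bif c then xsym1 x else xsym0 x).getD p (xblank x)

section PTx

variable {α : Type} [Enc α] {f : α → Inp} (hf : PT f)

include hf

@[fun_prop] theorem xnT_pt : PT (fun y => xnT (f y)) := by unfold xnT; fun_prop
@[fun_prop] theorem xnS_pt : PT (fun y => xnS (f y)) := by unfold xnS; fun_prop
@[fun_prop] theorem xinp_pt : PT (fun y => xinp (f y)) := by unfold xinp; fun_prop
@[fun_prop] theorem xblank_pt : PT (fun y => xblank (f y)) := by unfold xblank; fun_prop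
@[fun_prop] theorem xsym0_pt : PT (fun y => xsym0 (f y)) := by unfold xsym0; fun_prop
@[fun_prop] theorem xsym1_pt : PT (fun y => xsym1 (f y)) := by unfold xsym1; fun_prop
@[fun_prop] theorem xstart_pt : PT (fun y => xstart (f y)) := by unfold xstart; fun_prop
@[fun_prop] theorem xacc_pt : PT (fun y => xacc (f y)) := by unfold xacc; fun_prop
@[fun_prop] theorem xents_pt : PT (fun y => xents (f y)) := by unfold xents; fun_prop
@[fun_prop] theorem xmT_pt : PT (fun y => xmT (f y)) := by unfold xmT; fun_prop
@[fun_prop] theorem xmP_pt : PT (fun y => xmP (f y)) := by unfold xmP; fun_prop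
@[fun_prop] theorem xbh_pt : PT (fun y => xbh (f y)) := by unfold xbh; fun_prop
@[fun_prop] theorem xH_pt : PT (fun y => xH (f y)) := by unfold xH; fun_prop
@[fun_prop] theorem xadv_pt : PT (fun y => xadv (f y)) := by unfold xadv; fun_prop
@[fun_prop] theorem xk_pt : PT (fun y => xk (f y)) := by unfold xk; fun_prop
@[fun_prop] theorem xb_pt : PT (fun y => xb (f y)) := by unfold xb; fun_prop
@[fun_prop] theorem xL_pt : PT (fun y => xL (f y)) := by unfold xL; fun_prop
@[fun_prop] theorem xB_pt : PT (fun y => xB (f y)) := by unfold xB; fun_prop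

@[fun_prop] theorem lb_pt {g : α → ℕ} (hg : PT g) : PT (fun y => lb (f y) (g y)) := by
  unfold lb; fun_prop

@[fun_prop] theorem xorL_pt {g h : α → Lt} (hg : PT g) (hh : PT h) :
    PT (fun y => xorL (f y) (g y) (h y)) := by
  unfold xorL; fun_prop

@[fun_prop] theorem inBits_pt : PT (fun y => inBits (f y)) := by unfold inBits; fun_prop

@[fun_prop] theorem symAt_pt {g : α → ℕ} (hg : PT g) : PT (fun y => symAt (f y) (g y)) := by
  unfold symAt; fun_prop

end PTx

/-! ### Names of the states -/

def tSt (q : ℕ) : Nm := [0, q]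
def tTr (l q : ℕ) (rs : List ℕ) : Nm := 1 :: l :: q :: rs
def tRd (i σ j : ℕ) : Nm := [2, i, σ, j]
def tHd (i : ℕ) : Nm := [3, i]
def tCe (i σ : ℕ) : Nm := [4, i, σ]
def tMv (i μ : ℕ) : Nm := [5, i, μ]
def tHP (i : ℕ) : Nm := [6, i]
def tWr (i σ : ℕ) : Nm := [7, i, σ]
def tCP (i σ : ℕ) : Nm := [8, i, σ]
def tDn (i j f : ℕ) : Nm := [9, i, j, f]
def tZ (j : ℕ) : Nm := [10, j]
def tFn (j : ℕ) : Nm := [11, j]

section PTt

variable {α : Type} [Enc α] {a c d : α → ℕ} {l : α → List ℕ}

@[fun_prop] theorem tSt_pt (ha : PT a) : PT (fun y => tSt (a y)) := by unfold tSt; fun_prop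
@[fun_prop] theorem tTr_pt (ha : PT a) (hc : PT c) (hl : PT l) : PT (fun y => tTr (a y) (c y) (l y)) := by
  unfold tTr; fun_prop
@[fun_prop] theorem tRd_pt (ha : PT a) (hc : PT c) (hd : PT d) : PT (fun y => tRd (a y) (c y) (d y)) := by
  unfold tRd; fun_prop
@[fun_prop] theorem tHd_pt (ha : PT a) : PT (fun y => tHd (a y)) := by unfold tHd; fun_prop
@[fun_prop] theorem tCe_pt (ha : PT a) (hc : PT c) : PT (fun y => tCe (a y) (c y)) := by
  unfold tCe; fun_prop
@[fun_prop] theorem tMv_pt (ha : PT a) (hc : PT c) : PT (fun y => tMv (a y) (c y)) := by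
  unfold tMv; fun_prop
@[fun_prop] theorem tHP_pt (ha : PT a) : PT (fun y => tHP (a y)) := by unfold tHP; fun_prop
@[fun_prop] theorem tWr_pt (ha : PT a) (hc : PT c) : PT (fun y => tWr (a y) (c y)) := by
  unfold tWr; fun_prop
@[fun_prop] theorem tCP_pt (ha : PT a) (hc : PT c) : PT (fun y => tCP (a y) (c y)) := by
  unfold tCP; fun_prop
@[fun_prop] theorem tDn_pt (ha : PT a) (hc : PT c) (hd : PT d) : PT (fun y => tDn (a y) (c y) (d y)) := by
  unfold tDn; fun_prop
@[fun_prop] theorem tZ_pt (ha : PT a) : PT (fun y => tZ (a y)) := by unfold tZ; fun_prop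
@[fun_prop] theorem tFn_pt (ha : PT a) : PT (fun y => tFn (a y)) := by unfold tFn; fun_prop

end PTt

/-! ### Kinds of rules -/

/-- `p` accepts `c` if `a` accepts `c`. -/
def unR (x : Inp) (p a : Nm) : Rule :=
  (p, a, a, (range (xk x)).map (fun _ => xL x), (range (xk x)).map (fun _ => []),
    (range (xk x)).map (fun _ => []))

/-- `p` accepts `c` if `a` and `e` accept `c`. -/
def conjR (x : Inp) (p a e : Nm) : Rule :=
  (p, a, e, (range (xk x)).map (fun _ => xL x), (range (xk x)).map (fun _ => []),
    (range (xk x)).map (fun _ => []))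

/-- `p` accepts `c` if `a` accepts `c` with `δ` added at digit `j`. -/
def walkR (x : Inp) (p a : Nm) (j : ℕ) (δ : Lt) : Rule :=
  (p, a, a, (range (xk x)).map (fun _ => xL x),
    (range (xk x)).map (fun i => bif decide (i = j) then δ else []),
    (range (xk x)).map (fun i => bif decide (i = j) then δ else []))

/-- Whether the digit is in the lower block. -/
def isLow (s t i : ℕ) : Bool := decide (s ≤ i) && decide (i < s + t)

/-- The offset of a counter rule. -/
def incD (x : Inp) (s t z m u v i : ℕ) : Lt :=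
  bif isLow s t i then xorL x (lb x z) (lb x m) else
    bif decide (i = s + t) then xorL x (lb x u) (lb x v) else []

/-- A counter rule: the lower block of the word has letters `z`, the next digit is `v`; the child has
`m` and `u` there. -/
def incR (x : Inp) (p a : Nm) (s t z m u v : ℕ) : Rule :=
  (p, a, a, (range (xk x)).map (fun i =>
      bif isLow s t i then [lb x z] else bif decide (i = s + t) then [lb x v] else xL x),
    (range (xk x)).map (incD x s t z m u v),
    (range (xk x)).map (incD x s t z m u v))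

/-- The word with the position `off + q`, and time zero. -/
def wPi (x : Inp) (q i : ℕ) : Lt :=
  bif decide (i = xmT x) then lb x q else
    bif decide (i = xmT x + xmT x + 1) then lb x 1 else []

/-- `p` accepts the word of position `q`. -/
def exR (x : Inp) (p : Nm) (q : ℕ) : Rule :=
  (p, tZ 0, tZ 0, (range (xk x)).map (fun i => [wPi x q i]),
    (range (xk x)).map (wPi x q), (range (xk x)).map (wPi x q))

/-- The digit `j` of the offset of positions. -/
def offL (x : Inp) (j : ℕ) : Lt := bif decide (j = xmT x + 1) then lb x 1 else lb x 0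

/-- The rule for blanks on the input tape: digit `j` of the position differs from the offset. -/
def gR (x : Inp) (j : ℕ) : Rule :=
  (tCe (xinp x) (xblank x), tZ (xmP x), tZ (xmP x),
    (range (xk x)).map (fun i =>
      bif decide (i = xmT x + j) then (xL x).filter (fun a => !decide (a = offL x j)) else xL x),
    (range (xk x)).map (fun _ => []), (range (xk x)).map (fun _ => []))

/-- The new flag of a walk. -/
def newf (f d : ℕ) : ℕ := bif decide (f = 1) || !decide (d = 0) then 1 else 0

section PTr

variable {α : Type} [Enc α] {f : α → Inp} {p a e : α → Nm} {j s t z m u v i q d g : α → ℕ} {δ : α → Lt}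

@[fun_prop] theorem unR_pt (hf : PT f) (hp : PT p) (ha : PT a) : PT (fun y => unR (f y) (p y) (a y)) := by
  unfold unR; fun_prop
@[fun_prop] theorem conjR_pt (hf : PT f) (hp : PT p) (ha : PT a) (he : PT e) :
    PT (fun y => conjR (f y) (p y) (a y) (e y)) := by
  unfold conjR; fun_prop
@[fun_prop] theorem walkR_pt (hf : PT f) (hp : PT p) (ha : PT a) (hj : PT j) (hδ : PT δ) :
    PT (fun y => walkR (f y) (p y) (a y) (j y) (δ y)) := by
  unfold walkR; fun_prop

@[fun_prop] theorem lt_pt (hj : PT j) (hs : PT s) : PT (fun y => decide (j y < s y)) := by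
  have : (fun y => decide (j y < s y)) = fun y => decide (j y + 1 ≤ s y) := by
    funext y
    exact decide_eq_decide.2 Nat.lt_iff_add_one_le
  rw [this]
  fun_prop

@[fun_prop] theorem isLow_pt (hs : PT s) (ht : PT t) (hi : PT i) :
    PT (fun y => isLow (s y) (t y) (i y)) := by
  unfold isLow; fun_prop

@[fun_prop] theorem incD_pt (hf : PT f) (hs : PT s) (ht : PT t) (hz : PT z) (hm : PT m) (hu : PT u)
    (hv : PT v) (hi : PT i) :
    PT (fun y => incD (f y) (s y) (t y) (z y) (m y) (u y) (v y) (i y)) := by
  unfold incD; fun_prop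

@[fun_prop] theorem incR_pt (hf : PT f) (hp : PT p) (ha : PT a) (hs : PT s) (ht : PT t) (hz : PT z)
    (hm : PT m) (hu : PT u) (hv : PT v) :
    PT (fun y => incR (f y) (p y) (a y) (s y) (t y) (z y) (m y) (u y) (v y)) := by
  unfold incR; fun_prop

@[fun_prop] theorem wPi_pt (hf : PT f) (hq : PT q) (hi : PT i) : PT (fun y => wPi (f y) (q y) (i y)) := by
  unfold wPi; fun_prop

@[fun_prop] theorem exR_pt (hf : PT f) (hp : PT p) (hq : PT q) : PT (fun y => exR (f y) (p y) (q y)) := by
  unfold exR; fun_prop

@[fun_prop] theorem offL_pt (hf : PT f) (hj : PT j) : PT (fun y => offL (f y) (j y)) := by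
  unfold offL; fun_prop

@[fun_prop] theorem gR_pt (hf : PT f) (hj : PT j) : PT (fun y => gR (f y) (j y)) := by
  unfold gR; fun_prop

@[fun_prop] theorem newf_pt (hg : PT g) (hd : PT d) : PT (fun y => newf (g y) (d y)) := by
  unfold newf; fun_prop

end PTr

/-! ### The families of rules -/

section Fam

variable (x : Inp)

def fZ : List Rule := (range (xmP x)).flatMap fun j => (range (xB x)).map fun d =>
  walkR x (tZ (j + 1)) (tZ j) (xmT x + j) (lb x d)
def fS : List Rule := [unR x (tSt (xstart x)) (tZ (xmP x))]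
def fH : List Rule := (range (xnT x)).map fun i => exR x (tHd i) 0
def fC : List Rule := ((range (xnT x)).filter fun i => !decide (i = xinp x)).map fun i =>
  unR x (tCe i (xblank x)) (tZ (xmP x))
def fG : List Rule := ((range (xmP x)).filter fun j => decide (1 ≤ j)).map fun j => gR x j
def fI : List Rule := (range (xB x)).map fun p => exR x (tCe (xinp x) (symAt x p)) p
def fT0 : List Rule := (xents x).map fun e => unR x (tTr 0 e.1 e.2.1) (tSt e.1)
def fT : List Rule := (xents x).flatMap fun e => (range (xnT x)).map fun l =>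
  conjR x (tTr (l + 1) e.1 e.2.1) (tTr l e.1 e.2.1) (tRd l (e.2.1.getD l 0) (xmP x))
def fR0 : List Rule := (range (xnT x)).flatMap fun i => (range (xnS x)).map fun σ =>
  conjR x (tRd i σ 0) (tHd i) (tCe i σ)
def fRw : List Rule := (range (xnT x)).flatMap fun i => (range (xnS x)).flatMap fun σ =>
  (range (xmP x)).flatMap fun j => (range (xB x)).map fun d =>
    walkR x (tRd i σ (j + 1)) (tRd i σ j) (xmT x + j) (lb x d)
def fM : List Rule := (xents x).flatMap fun e => (range (xnT x)).map fun i =>
  conjR x (tMv i (e.2.2.2.2.getD i 0)) (tHd i) (tTr (xnT x) e.1 e.2.1)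
def fP1 : List Rule := (range (xnT x)).map fun i => unR x (tHP i) (tMv i 1)
def fP2 : List Rule := (range (xnT x)).flatMap fun i => (range (xmP x)).flatMap fun t =>
  (range (xB x - 1)).map fun a => incR x (tHP i) (tMv i 2) (xmT x) t 0 (xB x - 1) a (a + 1)
def fP3 : List Rule := (range (xnT x)).flatMap fun i => (range (xmP x)).flatMap fun t =>
  (range (xB x - 1)).map fun a => incR x (tHP i) (tMv i 0) (xmT x) t (xB x - 1) 0 (a + 1) a
def fHn : List Rule := (range (xnT x)).flatMap fun i => (range (xmT x)).flatMap fun t =>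
  (range (xB x - 1)).map fun a => incR x (tHd i) (tHP i) 0 t 0 (xB x - 1) a (a + 1)
def fW : List Rule := (xents x).flatMap fun e => (range (xnT x)).map fun i =>
  conjR x (tWr i (e.2.2.2.1.getD i 0)) (tHd i) (tTr (xnT x) e.1 e.2.1)
def fCP1 : List Rule := (range (xnT x)).flatMap fun i => (range (xnS x)).map fun σ =>
  unR x (tCP i σ) (tWr i σ)
def fD0 : List Rule := (range (xnT x)).map fun i => unR x (tDn i 0 0) (tHd i)
def fDw : List Rule := (range (xnT x)).flatMap fun i => (range (xmP x)).flatMap fun j =>
  (range 2).flatMap fun f => (range (xB x)).map fun d =>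
    walkR x (tDn i (j + 1) (newf f d)) (tDn i j f) (xmT x + j) (lb x d)
def fCP2 : List Rule := (range (xnT x)).flatMap fun i => (range (xnS x)).map fun σ =>
  conjR x (tCP i σ) (tCe i σ) (tDn i (xmP x) 1)
def fCn : List Rule := (range (xnT x)).flatMap fun i => (range (xnS x)).flatMap fun σ =>
  (range (xmT x)).flatMap fun t => (range (xB x - 1)).map fun a =>
    incR x (tCe i σ) (tCP i σ) 0 t 0 (xB x - 1) a (a + 1)
def fSn : List Rule := (xents x).flatMap fun e => (range (xmT x)).flatMap fun t =>
  (range (xB x - 1)).map fun a =>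
    incR x (tSt e.2.2.1) (tTr (xnT x) e.1 e.2.1) 0 t 0 (xB x - 1) a (a + 1)
def fF0 : List Rule := [unR x (tFn 0) (tSt (xacc x))]
def fFw : List Rule := (range (xmT x)).flatMap fun j => (range (xB x)).map fun d =>
  walkR x (tFn (j + 1)) (tFn j) j (lb x d)

/-- All rules. -/
@[irreducible] def rules : List Rule :=
  fZ x ++ fS x ++ fH x ++ fC x ++ fG x ++ fI x ++ fT0 x ++ fT x ++ fR0 x ++ fRw x ++ fM x ++ fP1 x ++
    fP2 x ++ fP3 x ++ fHn x ++ fW x ++ fCP1 x ++ fD0 x ++ fDw x ++ fCP2 x ++ fCn x ++ fSn x ++ fF0 x ++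
    fFw x

end Fam

section PTf

variable {α : Type} [Enc α] {f : α → Inp} (hf : PT f)

include hf

theorem fZ_pt : PT (fun y => fZ (f y)) := by unfold fZ; fun_prop
theorem fS_pt : PT (fun y => fS (f y)) := by unfold fS; fun_prop
theorem fH_pt : PT (fun y => fH (f y)) := by unfold fH; fun_prop
theorem fC_pt : PT (fun y => fC (f y)) := by unfold fC; fun_prop
theorem fG_pt : PT (fun y => fG (f y)) := by unfold fG; fun_prop
theorem fI_pt : PT (fun y => fI (f y)) := by unfold fI; fun_prop
theorem fT0_pt : PT (fun y => fT0 (f y)) := by unfold fT0; fun_prop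
theorem fT_pt : PT (fun y => fT (f y)) := by unfold fT; fun_prop
theorem fR0_pt : PT (fun y => fR0 (f y)) := by unfold fR0; fun_prop
theorem fRw_pt : PT (fun y => fRw (f y)) := by unfold fRw; fun_prop
theorem fM_pt : PT (fun y => fM (f y)) := by unfold fM; fun_prop
theorem fP1_pt : PT (fun y => fP1 (f y)) := by unfold fP1; fun_prop
theorem fP2_pt : PT (fun y => fP2 (f y)) := by unfold fP2; fun_prop
theorem fP3_pt : PT (fun y => fP3 (f y)) := by unfold fP3; fun_prop
theorem fHn_pt : PT (fun y => fHn (f y)) := by unfold fHn; fun_prop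
theorem fW_pt : PT (fun y => fW (f y)) := by unfold fW; fun_prop
theorem fCP1_pt : PT (fun y => fCP1 (f y)) := by unfold fCP1; fun_prop
theorem fD0_pt : PT (fun y => fD0 (f y)) := by unfold fD0; fun_prop
theorem fDw_pt : PT (fun y => fDw (f y)) := by unfold fDw; fun_prop
theorem fCP2_pt : PT (fun y => fCP2 (f y)) := by unfold fCP2; fun_prop
theorem fCn_pt : PT (fun y => fCn (f y)) := by unfold fCn; fun_prop
theorem fSn_pt : PT (fun y => fSn (f y)) := by unfold fSn; fun_prop
theorem fF0_pt : PT (fun y => fF0 (f y)) := by unfold fF0; fun_prop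
theorem fFw_pt : PT (fun y => fFw (f y)) := by unfold fFw; fun_prop

@[fun_prop] theorem rules_pt : PT (fun y => rules (f y)) := by
  unfold rules
  exact append (append (append (append (append (append (append (append (append (append (append
    (append (append (append (append (append (append (append (append (append (append (append (append
    (fZ_pt hf) (fS_pt hf)) (fH_pt hf)) (fC_pt hf)) (fG_pt hf)) (fI_pt hf)) (fT0_pt hf)) (fT_pt hf))
    (fR0_pt hf)) (fRw_pt hf)) (fM_pt hf)) (fP1_pt hf)) (fP2_pt hf)) (fP3_pt hf)) (fHn_pt hf)) (fW_pt hf))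
    (fCP1_pt hf)) (fD0_pt hf)) (fDw_pt hf)) (fCP2_pt hf)) (fCn_pt hf)) (fSn_pt hf)) (fF0_pt hf))
    (fFw_pt hf)

end PTf

end Vale.Agent.P310x
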