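import Vale.Agent.P310x.Rules

/-!
# Closure under the rules, in plain form
-/

namespace Vale.Agent.P310x

open List (range)

/-- The letters are all of the group, each once. -/
structure LOK (x : Inp) : Prop where
  cover : ∀ f : Fin (xb x) → ZMod 2, f ∈ (xL x).map toF
  inj : ∀ a ∈ xL x, ∀ a' ∈ xL x, toF (b := xb x) a = toF a' → a = a'

/-- The group element of a digit value. -/
def lab (x : Inp) (a : ℕ) : Fin (xb x) → ZMod 2 := toF (lb x a)

/-- Adding a letter at a digit. -/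
def addAt {k b : ℕ} (c : Wd k b) (j : ℕ) (δ : Fin b → ZMod 2) : Wd k b :=
  fun i => c i + if i.val = j then δ else 0

/-- Adding to the lower block and the next digit. -/
def incW {k b : ℕ} (c : Wd k b) (s t : ℕ) (dz dv : Fin b → ZMod 2) : Wd k b :=
  fun i => c i + if s ≤ i.val ∧ i.val < s + t then dz else if i.val = s + t then dv else 0

/-- The lower block has letters `z`, the next digit `v`. -/
def IncG {k b : ℕ} (c : Wd k b) (s t : ℕ) (z v : Fin b → ZMod 2) : Prop :=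
  ∀ i : Fin k, (s ≤ i.val ∧ i.val < s + t → c i = z) ∧ (i.val = s + t → c i = v)

theorem getD_rng {β : Type} {k : ℕ} (f : ℕ → β) (i : Fin k) (d : β) :
    ((range k).map f).getD i.val d = f i.val := by
  simp [List.getD, i.isLt]

theorem toF_xorL (x : Inp) (a c : Lt) : toF (b := xb x) (xorL x a c) = toF a + toF c := by
  funext i
  have h : (xorL x a c).getD i.val false = Bool.xor (a.getD i.val false) (c.getD i.val false) := by
    simp [xorL, List.getD, i.isLt]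
  simp only [toF, Pi.add_apply, h]
  cases a.getD i.val false <;> cases c.getD i.val false <;> simp <;> decide

variable {x : Inp} {S : Nm → Wd (xk x) (xb x) → Prop}

theorem rc_unR (h : LOK x) {p a : Nm} : RC S (unR x p a) ↔ ∀ c, S a c → S p c := by
  simp only [RC, unR, getD_rng, toF_nil, add_zero]
  exact ⟨fun h1 c h2 => h1 c (fun i => h.cover _) h2 h2, fun h1 c _ h2 _ => h1 c h2⟩

theorem rc_conjR (h : LOK x) {p a e : Nm} : RC S (conjR x p a e) ↔ ∀ c, S a c → S e c → S p c := by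
  simp only [RC, conjR, getD_rng, toF_nil, add_zero]
  exact ⟨fun h1 c h2 h3 => h1 c (fun i => h.cover _) h2 h3, fun h1 c _ h2 h3 => h1 c h2 h3⟩

theorem walk_word (c : Wd (xk x) (xb x)) (j : ℕ) (δ : Lt) :
    (fun i : Fin (xk x) => c i + toF (bif decide (i.val = j) then δ else [])) = addAt c j (toF δ) := by
  funext i
  by_cases h : i.val = j <;> simp [addAt, h]

theorem rc_walkR (h : LOK x) {p a : Nm} {j : ℕ} {δ : Lt} :
    RC S (walkR x p a j δ) ↔ ∀ c, S a (addAt c j (toF δ)) → S p c := by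
  simp only [RC, walkR, getD_rng, walk_word]
  exact ⟨fun h1 c h2 => h1 c (fun i => h.cover _) h2 h2, fun h1 c _ h2 _ => h1 c h2⟩

theorem inc_word (c : Wd (xk x) (xb x)) (s t z m u v : ℕ) :
    (fun i : Fin (xk x) => c i + toF (incD x s t z m u v i.val)) =
      incW c s t (lab x z + lab x m) (lab x u + lab x v) := by
  funext i
  simp only [incW, incD, isLow]
  by_cases h1 : s ≤ i.val ∧ i.val < s + t
  · have h2 : (decide (s ≤ i.val) && decide (i.val < s + t)) = true := by simpa using h1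
    simp only [h2, cond_true, if_pos h1, toF_xorL, lab]
  · have h2 : (decide (s ≤ i.val) && decide (i.val < s + t)) = false := by simpa using h1
    simp only [h2, cond_false, if_neg h1]
    by_cases h3 : i.val = s + t
    · simp only [h3, decide_true, cond_true, if_true, toF_xorL, lab]
    · simp [h3]

theorem rc_incR (h : LOK x) {p a : Nm} {s t z m u v : ℕ} :
    RC S (incR x p a s t z m u v) ↔ ∀ c, IncG c s t (lab x z) (lab x v) →
      S a (incW c s t (lab x z + lab x m) (lab x u + lab x v)) → S p c := by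
  simp only [RC, incR, getD_rng, inc_word]
  constructor
  · intro h1 c h2 h3
    refine h1 c (fun i => ?_) h3 h3
    by_cases h4 : isLow s t i.val = true
    · have h5 : s ≤ i.val ∧ i.val < s + t := by simpa [isLow] using h4
      simp only [h4, cond_true, List.map_cons, List.map_nil, List.mem_singleton]
      exact (h2 i).1 h5
    · simp only [h4, cond_false, Bool.not_eq_true]
      by_cases h6 : i.val = s + t
      · simp only [h6, decide_true, cond_true, List.map_cons, List.map_nil, List.mem_singleton]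
        exact (h2 i).2 h6
      · simp only [h6, decide_false, cond_false]
        exact h.cover _
  · intro h1 c h2 h3 _
    refine h1 c (fun i => ⟨fun h5 => ?_, fun h6 => ?_⟩) h3
    · have h4 : isLow s t i.val = true := by simpa [isLow] using h5
      have := h2 i
      simpa [h4, lab] using this
    · have h4 : isLow s t i.val = false := by simp [isLow, h6]
      have := h2 i
      simp only [h4, cond_false] at this
      simp only [h6, decide_true, cond_true, List.map_cons, List.map_nil, List.mem_singleton] at this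
      exact this

/-- The word with the position `off + q` and time zero. -/
def wP (x : Inp) (q : ℕ) : Wd (xk x) (xb x) := fun i => toF (wPi x q i.val)

theorem add_self_F {b : ℕ} (f : Fin b → ZMod 2) : f + f = 0 := by
  funext i
  simp only [Pi.add_apply, Pi.zero_apply]
  exact CharTwo.add_self_eq_zero _

theorem rc_exR {p : Nm} {q : ℕ} :
    RC S (exR x p q) ↔ (S (tZ 0) 0 → S p (wP x q)) := by
  simp only [RC, exR, getD_rng]
  constructor
  · intro h1 h2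
    have e : (fun i => wP x q i + toF (wPi x q i.val)) = (0 : Wd (xk x) (xb x)) := by
      funext i
      exact add_self_F _
    refine h1 (wP x q) (fun i => ?_) ?_ ?_
    · simp [wP]
    · rw [e]; exact h2
    · rw [e]; exact h2
  · intro h1 c h2 h3 _
    have e : c = wP x q := by
      funext i
      simpa [wP] using h2 i
    subst e
    apply h1
    have e : (fun i => wP x q i + toF (wPi x q i.val)) = (0 : Wd (xk x) (xb x)) := by
      funext i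
      exact add_self_F _
    rwa [e] at h3

theorem rc_gR (h : LOK x) {j : ℕ} (hj : lb x 0 ∈ xL x ∧ lb x 1 ∈ xL x) :
    RC S (gR x j) ↔ ∀ c : Wd (xk x) (xb x), (∀ i : Fin (xk x), i.val = xmT x + j →
        c i ≠ toF (offL x j)) → S (tZ (xmP x)) c → S (tCe (xinp x) (xblank x)) c := by
  simp only [RC, gR, getD_rng, toF_nil, add_zero]
  have hO : offL x j ∈ xL x := by
    unfold offL
    cases decide (j = xmT x + 1)
    · exact hj.1
    · exact hj.2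
  constructor
  · intro h1 c h2 h3
    refine h1 c (fun i => ?_) h3 h3
    by_cases h4 : i.val = xmT x + j
    · simp only [h4, decide_true, cond_true]
      obtain ⟨a, ha, e⟩ := List.mem_map.1 (h.cover (c i))
      refine List.mem_map.2 ⟨a, List.mem_filter.2 ⟨ha, ?_⟩, e⟩
      have : a ≠ offL x j := fun e2 => h2 i h4 (by rw [← e, e2])
      simpa using this
    · simp only [h4, decide_false, cond_false]
      exact h.cover _
  · intro h1 c h2 h3 _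
    refine h1 c (fun i hi e => ?_) h3
    have := h2 i
    simp only [hi, decide_true, cond_true] at this
    obtain ⟨a, ha, e2⟩ := List.mem_map.1 this
    obtain ⟨ha1, ha2⟩ := List.mem_filter.1 ha
    have : a = offL x j := h.inj _ ha1 _ hO (by rw [e2, e])
    simp [this] at ha2

/-- Closure under the families of rules, in plain form. -/
structure FamClosed (x : Inp) (S : Nm → Wd (xk x) (xb x) → Prop) : Prop where
  fZ : ∀ j, j < xmP x → ∀ d, d < xB x → ∀ c, S (tZ j) (addAt c (xmT x + j) (lab x d)) → S (tZ (j + 1)) c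
  fS : ∀ c, S (tZ (xmP x)) c → S (tSt (xstart x)) c
  fH : ∀ i, i < xnT x → S (tZ 0) 0 → S (tHd i) (wP x 0)
  fC : ∀ i, i < xnT x → ¬ i = xinp x → ∀ c, S (tZ (xmP x)) c → S (tCe i (xblank x)) c
  fG : ∀ j, j < xmP x → 1 ≤ j → ∀ c : Wd (xk x) (xb x), (∀ i : Fin (xk x), i.val = xmT x + j →
        c i ≠ toF (offL x j)) → S (tZ (xmP x)) c → S (tCe (xinp x) (xblank x)) c
  fI : ∀ p, p < xB x → S (tZ 0) 0 → S (tCe (xinp x) (symAt x p)) (wP x p)
  fT0 : ∀ e, e ∈ xents x → ∀ c, S (tSt e.1) c → S (tTr 0 e.1 e.2.1) c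
  fT : ∀ e, e ∈ xents x → ∀ l, l < xnT x → ∀ c, S (tTr l e.1 e.2.1) c →
    S (tRd l (e.2.1.getD l 0) (xmP x)) c → S (tTr (l + 1) e.1 e.2.1) c
  fR0 : ∀ i, i < xnT x → ∀ σ, σ < xnS x → ∀ c, S (tHd i) c → S (tCe i σ) c → S (tRd i σ 0) c
  fRw : ∀ i, i < xnT x → ∀ σ, σ < xnS x → ∀ j, j < xmP x → ∀ d, d < xB x → ∀ c,
    S (tRd i σ j) (addAt c (xmT x + j) (lab x d)) → S (tRd i σ (j + 1)) c
  fM : ∀ e, e ∈ xents x → ∀ i, i < xnT x → ∀ c, S (tHd i) c → S (tTr (xnT x) e.1 e.2.1) c →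
    S (tMv i (e.2.2.2.2.getD i 0)) c
  fP1 : ∀ i, i < xnT x → ∀ c, S (tMv i 1) c → S (tHP i) c
  fP2 : ∀ i, i < xnT x → ∀ t, t < xmP x → ∀ a, a < xB x - 1 → ∀ c,
    IncG c (xmT x) t (lab x 0) (lab x (a + 1)) →
    S (tMv i 2) (incW c (xmT x) t (lab x 0 + lab x (xB x - 1)) (lab x a + lab x (a + 1))) → S (tHP i) c
  fP3 : ∀ i, i < xnT x → ∀ t, t < xmP x → ∀ a, a < xB x - 1 → ∀ c,
    IncG c (xmT x) t (lab x (xB x - 1)) (lab x a) →
    S (tMv i 0) (incW c (xmT x) t (lab x (xB x - 1) + lab x 0) (lab x (a + 1) + lab x a)) → S (tHP i) c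
  fHn : ∀ i, i < xnT x → ∀ t, t < xmT x → ∀ a, a < xB x - 1 → ∀ c,
    IncG c 0 t (lab x 0) (lab x (a + 1)) →
    S (tHP i) (incW c 0 t (lab x 0 + lab x (xB x - 1)) (lab x a + lab x (a + 1))) → S (tHd i) c
  fW : ∀ e, e ∈ xents x → ∀ i, i < xnT x → ∀ c, S (tHd i) c → S (tTr (xnT x) e.1 e.2.1) c →
    S (tWr i (e.2.2.2.1.getD i 0)) c
  fCP1 : ∀ i, i < xnT x → ∀ σ, σ < xnS x → ∀ c, S (tWr i σ) c → S (tCP i σ) c
  fD0 : ∀ i, i < xnT x → ∀ c, S (tHd i) c → S (tDn i 0 0) c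
  fDw : ∀ i, i < xnT x → ∀ j, j < xmP x → ∀ f, f < 2 → ∀ d, d < xB x → ∀ c,
    S (tDn i j f) (addAt c (xmT x + j) (lab x d)) → S (tDn i (j + 1) (newf f d)) c
  fCP2 : ∀ i, i < xnT x → ∀ σ, σ < xnS x → ∀ c, S (tCe i σ) c → S (tDn i (xmP x) 1) c → S (tCP i σ) c
  fCn : ∀ i, i < xnT x → ∀ σ, σ < xnS x → ∀ t, t < xmT x → ∀ a, a < xB x - 1 → ∀ c,
    IncG c 0 t (lab x 0) (lab x (a + 1)) →
    S (tCP i σ) (incW c 0 t (lab x 0 + lab x (xB x - 1)) (lab x a + lab x (a + 1))) → S (tCe i σ) c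
  fSn : ∀ e, e ∈ xents x → ∀ t, t < xmT x → ∀ a, a < xB x - 1 → ∀ c,
    IncG c 0 t (lab x 0) (lab x (a + 1)) →
    S (tTr (xnT x) e.1 e.2.1) (incW c 0 t (lab x 0 + lab x (xB x - 1)) (lab x a + lab x (a + 1))) →
    S (tSt e.2.2.1) c
  fF0 : ∀ c, S (tSt (xacc x)) c → S (tFn 0) c
  fFw : ∀ j, j < xmT x → ∀ d, d < xB x → ∀ c, S (tFn j) (addAt c j (lab x d)) → S (tFn (j + 1)) c

theorem fa_map {α β : Type} {l : List α} {f : α → β} {P : β → Prop} :
    (∀ r ∈ l.map f, P r) ↔ ∀ a ∈ l, P (f a) := List.forall_mem_map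

theorem fa_flatMap {α β : Type} {l : List α} {f : α → List β} {P : β → Prop} :
    (∀ r ∈ l.flatMap f, P r) ↔ ∀ a ∈ l, ∀ r ∈ f a, P r := by
  simp only [List.mem_flatMap]
  exact ⟨fun h a ha r hr => h r ⟨a, ha, hr⟩, fun h r ⟨a, ha, hr⟩ => h a ha r hr⟩

theorem fa_range {n : ℕ} {P : ℕ → Prop} : (∀ a ∈ range n, P a) ↔ ∀ a, a < n → P a := by
  simp only [List.mem_range]

theorem fa_filter {α : Type} {l : List α} {p : α → Bool} {P : α → Prop} :
    (∀ a ∈ l.filter p, P a) ↔ ∀ a ∈ l, p a = true → P a := by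
  simp only [List.mem_filter, and_imp]

theorem fa_single {α : Type} {a : α} {P : α → Prop} : (∀ r ∈ [a], P r) ↔ P a := by
  simp

theorem fa_app {α : Type} {l m : List α} {P : α → Prop} :
    (∀ r ∈ l ++ m, P r) ↔ (∀ r ∈ l, P r) ∧ ∀ r ∈ m, P r := by
  simp only [List.mem_append]
  exact ⟨fun h => ⟨fun r hr => h r (Or.inl hr), fun r hr => h r (Or.inr hr)⟩,
    fun h r hr => hr.elim (h.1 r) (h.2 r)⟩


section Eqv

variable (h : LOK x)

include h

theorem fc_fZ : (∀ r ∈ fZ x, RC S r) ↔ ∀ j, j < xmP x → ∀ d, d < xB x → ∀ c,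
    S (tZ j) (addAt c (xmT x + j) (lab x d)) → S (tZ (j + 1)) c := by
  simp only [fZ, fa_flatMap, fa_map, fa_range, rc_walkR h, lab]

theorem fc_fS : (∀ r ∈ fS x, RC S r) ↔ ∀ c, S (tZ (xmP x)) c → S (tSt (xstart x)) c := by
  simp only [fS, fa_single, rc_unR h]

omit h in
theorem fc_fH : (∀ r ∈ fH x, RC S r) ↔ ∀ i, i < xnT x → S (tZ 0) 0 → S (tHd i) (wP x 0) := by
  simp only [fH, fa_map, fa_range, rc_exR]

theorem fc_fC : (∀ r ∈ fC x, RC S r) ↔ ∀ i, i < xnT x → ¬ i = xinp x → ∀ c,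
    S (tZ (xmP x)) c → S (tCe i (xblank x)) c := by
  simp only [fC, fa_map, fa_filter, fa_range, rc_unR h, Bool.not_eq_true', decide_eq_false_iff_not]

theorem fc_fG (h2 : lb x 0 ∈ xL x ∧ lb x 1 ∈ xL x) : (∀ r ∈ fG x, RC S r) ↔
    ∀ j, j < xmP x → 1 ≤ j → ∀ c : Wd (xk x) (xb x), (∀ i : Fin (xk x), i.val = xmT x + j →
        c i ≠ toF (offL x j)) → S (tZ (xmP x)) c → S (tCe (xinp x) (xblank x)) c := by
  simp only [fG, fa_map, fa_filter, fa_range, rc_gR h h2, decide_eq_true_eq]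

omit h in
theorem fc_fI : (∀ r ∈ fI x, RC S r) ↔ ∀ p, p < xB x → S (tZ 0) 0 →
    S (tCe (xinp x) (symAt x p)) (wP x p) := by
  simp only [fI, fa_map, fa_range, rc_exR]

theorem fc_fT0 : (∀ r ∈ fT0 x, RC S r) ↔ ∀ e, e ∈ xents x → ∀ c, S (tSt e.1) c → S (tTr 0 e.1 e.2.1) c := by
  simp only [fT0, fa_map, rc_unR h]

theorem fc_fT : (∀ r ∈ fT x, RC S r) ↔ ∀ e, e ∈ xents x → ∀ l, l < xnT x → ∀ c, S (tTr l e.1 e.2.1) c →
    S (tRd l (e.2.1.getD l 0) (xmP x)) c → S (tTr (l + 1) e.1 e.2.1) c := by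
  simp only [fT, fa_flatMap, fa_map, fa_range, rc_conjR h]

theorem fc_fR0 : (∀ r ∈ fR0 x, RC S r) ↔ ∀ i, i < xnT x → ∀ σ, σ < xnS x → ∀ c, S (tHd i) c →
    S (tCe i σ) c → S (tRd i σ 0) c := by
  simp only [fR0, fa_flatMap, fa_map, fa_range, rc_conjR h]

theorem fc_fRw : (∀ r ∈ fRw x, RC S r) ↔ ∀ i, i < xnT x → ∀ σ, σ < xnS x → ∀ j, j < xmP x → ∀ d,
    d < xB x → ∀ c, S (tRd i σ j) (addAt c (xmT x + j) (lab x d)) → S (tRd i σ (j + 1)) c := by
  simp only [fRw, fa_flatMap, fa_map, fa_range, rc_walkR h, lab]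

theorem fc_fM : (∀ r ∈ fM x, RC S r) ↔ ∀ e, e ∈ xents x → ∀ i, i < xnT x → ∀ c, S (tHd i) c →
    S (tTr (xnT x) e.1 e.2.1) c → S (tMv i (e.2.2.2.2.getD i 0)) c := by
  simp only [fM, fa_flatMap, fa_map, fa_range, rc_conjR h]

theorem fc_fP1 : (∀ r ∈ fP1 x, RC S r) ↔ ∀ i, i < xnT x → ∀ c, S (tMv i 1) c → S (tHP i) c := by
  simp only [fP1, fa_map, fa_range, rc_unR h]

theorem fc_fP2 : (∀ r ∈ fP2 x, RC S r) ↔ ∀ i, i < xnT x → ∀ t, t < xmP x → ∀ a, a < xB x - 1 → ∀ c,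
    IncG c (xmT x) t (lab x 0) (lab x (a + 1)) →
    S (tMv i 2) (incW c (xmT x) t (lab x 0 + lab x (xB x - 1)) (lab x a + lab x (a + 1))) → S (tHP i) c := by
  simp only [fP2, fa_flatMap, fa_map, fa_range, rc_incR h]

theorem fc_fP3 : (∀ r ∈ fP3 x, RC S r) ↔ ∀ i, i < xnT x → ∀ t, t < xmP x → ∀ a, a < xB x - 1 → ∀ c,
    IncG c (xmT x) t (lab x (xB x - 1)) (lab x a) →
    S (tMv i 0) (incW c (xmT x) t (lab x (xB x - 1) + lab x 0) (lab x (a + 1) + lab x a)) → S (tHP i) c := by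
  simp only [fP3, fa_flatMap, fa_map, fa_range, rc_incR h]

theorem fc_fHn : (∀ r ∈ fHn x, RC S r) ↔ ∀ i, i < xnT x → ∀ t, t < xmT x → ∀ a, a < xB x - 1 → ∀ c,
    IncG c 0 t (lab x 0) (lab x (a + 1)) →
    S (tHP i) (incW c 0 t (lab x 0 + lab x (xB x - 1)) (lab x a + lab x (a + 1))) → S (tHd i) c := by
  simp only [fHn, fa_flatMap, fa_map, fa_range, rc_incR h]

theorem fc_fW : (∀ r ∈ fW x, RC S r) ↔ ∀ e, e ∈ xents x → ∀ i, i < xnT x → ∀ c, S (tHd i) c →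
    S (tTr (xnT x) e.1 e.2.1) c → S (tWr i (e.2.2.2.1.getD i 0)) c := by
  simp only [fW, fa_flatMap, fa_map, fa_range, rc_conjR h]

theorem fc_fCP1 : (∀ r ∈ fCP1 x, RC S r) ↔ ∀ i, i < xnT x → ∀ σ, σ < xnS x → ∀ c, S (tWr i σ) c →
    S (tCP i σ) c := by
  simp only [fCP1, fa_flatMap, fa_map, fa_range, rc_unR h]

theorem fc_fD0 : (∀ r ∈ fD0 x, RC S r) ↔ ∀ i, i < xnT x → ∀ c, S (tHd i) c → S (tDn i 0 0) c := by
  simp only [fD0, fa_map, fa_range, rc_unR h]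

theorem fc_fDw : (∀ r ∈ fDw x, RC S r) ↔ ∀ i, i < xnT x → ∀ j, j < xmP x → ∀ f, f < 2 → ∀ d, d < xB x →
    ∀ c, S (tDn i j f) (addAt c (xmT x + j) (lab x d)) → S (tDn i (j + 1) (newf f d)) c := by
  simp only [fDw, fa_flatMap, fa_map, fa_range, rc_walkR h, lab]

theorem fc_fCP2 : (∀ r ∈ fCP2 x, RC S r) ↔ ∀ i, i < xnT x → ∀ σ, σ < xnS x → ∀ c, S (tCe i σ) c →
    S (tDn i (xmP x) 1) c → S (tCP i σ) c := by
  simp only [fCP2, fa_flatMap, fa_map, fa_range, rc_conjR h]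

theorem fc_fCn : (∀ r ∈ fCn x, RC S r) ↔ ∀ i, i < xnT x → ∀ σ, σ < xnS x → ∀ t, t < xmT x → ∀ a,
    a < xB x - 1 → ∀ c, IncG c 0 t (lab x 0) (lab x (a + 1)) →
    S (tCP i σ) (incW c 0 t (lab x 0 + lab x (xB x - 1)) (lab x a + lab x (a + 1))) → S (tCe i σ) c := by
  simp only [fCn, fa_flatMap, fa_map, fa_range, rc_incR h]

theorem fc_fSn : (∀ r ∈ fSn x, RC S r) ↔ ∀ e, e ∈ xents x → ∀ t, t < xmT x → ∀ a, a < xB x - 1 → ∀ c,
    IncG c 0 t (lab x 0) (lab x (a + 1)) →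
    S (tTr (xnT x) e.1 e.2.1) (incW c 0 t (lab x 0 + lab x (xB x - 1)) (lab x a + lab x (a + 1))) →
    S (tSt e.2.2.1) c := by
  simp only [fSn, fa_flatMap, fa_map, fa_range, rc_incR h]

theorem fc_fF0 : (∀ r ∈ fF0 x, RC S r) ↔ ∀ c, S (tSt (xacc x)) c → S (tFn 0) c := by
  simp only [fF0, fa_single, rc_unR h]

theorem fc_fFw : (∀ r ∈ fFw x, RC S r) ↔ ∀ j, j < xmT x → ∀ d, d < xB x → ∀ c,
    S (tFn j) (addAt c j (lab x d)) → S (tFn (j + 1)) c := by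
  simp only [fFw, fa_flatMap, fa_map, fa_range, rc_walkR h, lab]

/-- Closure under the rules is closure under the families, in plain form. -/
theorem closed_of_fam (h2 : lb x 0 ∈ xL x ∧ lb x 1 ∈ xL x) (H : FamClosed x S) :
    ∀ r ∈ rules x, RC S r := by
  have a1 := (fc_fZ h).2 H.fZ
  have a2 := (fc_fS h).2 H.fS
  have a3 := fc_fH.2 H.fH
  have a4 := (fc_fC h).2 H.fC
  have a5 := (fc_fG h h2).2 H.fG
  have a6 := fc_fI.2 H.fI
  have a7 := (fc_fT0 h).2 H.fT0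
  have a8 := (fc_fT h).2 H.fT
  have a9 := (fc_fR0 h).2 H.fR0
  have a10 := (fc_fRw h).2 H.fRw
  have a11 := (fc_fM h).2 H.fM
  have a12 := (fc_fP1 h).2 H.fP1
  have a13 := (fc_fP2 h).2 H.fP2
  have a14 := (fc_fP3 h).2 H.fP3
  have a15 := (fc_fHn h).2 H.fHn
  have a16 := (fc_fW h).2 H.fW
  have a17 := (fc_fCP1 h).2 H.fCP1
  have a18 := (fc_fD0 h).2 H.fD0
  have a19 := (fc_fDw h).2 H.fDw
  have a20 := (fc_fCP2 h).2 H.fCP2
  have a21 := (fc_fCn h).2 H.fCn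
  have a22 := (fc_fSn h).2 H.fSn
  have a23 := (fc_fF0 h).2 H.fF0
  have a24 := (fc_fFw h).2 H.fFw
  unfold rules
  simp only [fa_app]
  exact ⟨⟨⟨⟨⟨⟨⟨⟨⟨⟨⟨⟨⟨⟨⟨⟨⟨⟨⟨⟨⟨⟨⟨a1, a2⟩, a3⟩, a4⟩, a5⟩, a6⟩, a7⟩, a8⟩, a9⟩, a10⟩, a11⟩, a12⟩, a13⟩, a14⟩,
    a15⟩, a16⟩, a17⟩, a18⟩, a19⟩, a20⟩, a21⟩, a22⟩, a23⟩, a24⟩

theorem fam_of_closed (h2 : lb x 0 ∈ xL x ∧ lb x 1 ∈ xL x) (H : ∀ r ∈ rules x, RC S r) :
    FamClosed x S := by
  unfold rules at H
  simp only [fa_app] at H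
  obtain ⟨⟨⟨⟨⟨⟨⟨⟨⟨⟨⟨⟨⟨⟨⟨⟨⟨⟨⟨⟨⟨⟨⟨a1, a2⟩, a3⟩, a4⟩, a5⟩, a6⟩, a7⟩, a8⟩, a9⟩, a10⟩, a11⟩, a12⟩, a13⟩, a14⟩,
    a15⟩, a16⟩, a17⟩, a18⟩, a19⟩, a20⟩, a21⟩, a22⟩, a23⟩, a24⟩ := H
  exact ⟨(fc_fZ h).1 a1, (fc_fS h).1 a2, fc_fH.1 a3, (fc_fC h).1 a4, (fc_fG h h2).1 a5, fc_fI.1 a6,
    (fc_fT0 h).1 a7, (fc_fT h).1 a8, (fc_fR0 h).1 a9, (fc_fRw h).1 a10, (fc_fM h).1 a11, (fc_fP1 h).1 a12,
    (fc_fP2 h).1 a13, (fc_fP3 h).1 a14, (fc_fHn h).1 a15, (fc_fW h).1 a16, (fc_fCP1 h).1 a17,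
    (fc_fD0 h).1 a18, (fc_fDw h).1 a19, (fc_fCP2 h).1 a20, (fc_fCn h).1 a21, (fc_fSn h).1 a22,
    (fc_fF0 h).1 a23, (fc_fFw h).1 a24⟩

end Eqv

end Vale.Agent.P310x
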