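import Vale.Agent.P310x.TabSound

/-!
# Completeness of the program of a computation table
-/

namespace Vale.Agent.P310x

open List (range)
open Function

variable {M : TM} {x : Inp} (T : TabOK M x)

/-! ### Walks -/

theorem lab_dv' (β : Fin (xb x) → ZMod 2) : lab x (T.D.dv β) = β := by
  rw [← T.hlab, T.D.lab_dv]

theorem dv_lt' (β : Fin (xb x) → ZMod 2) : T.D.dv β < xB x := by
  rw [← T.hB]
  exact T.D.dv_lt β

include T in
/-- A walk along a block of digits. -/
theorem walk_gen {A : Nm → WW x → Prop} (t : ℕ → Nm) {s N : ℕ} (hk : s + N ≤ xk x) {c0 : WW x}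
    (base : A (t 0) c0)
    (step : ∀ j, j < N → ∀ d, d < xB x → ∀ c, A (t j) (addAt c (s + j) (lab x d)) → A (t (j + 1)) c) :
    ∀ j, j ≤ N → ∀ c, Agree s j c c0 → A (t j) c := by
  intro j
  induction j with
  | zero =>
    intro _ c h
    have : c = c0 := word_ext fun i _ => h i (by omega)
    rwa [this]
  | succ j ih =>
    intro hj c h
    let δ := dg c (s + j) + dg c0 (s + j)
    have hsj : s + j < xk x := by omega
    apply step j (by omega) (T.D.dv δ) (dv_lt' T δ) c
    apply ih (by omega)
    rw [lab_dv' T]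
    intro i hi
    by_cases h1 : i = s + j
    · subst h1
      rw [dg_addAt_same _ _ hsj]
      exact xor_cancel _ _
    · rw [dg_addAt_ne _ _ h1]
      exact h i fun h2 => hi ⟨h2.1, by omega⟩

/-- The flag of the difference of two words. -/
noncomputable def flagOf (x : Inp) (j : ℕ) (c c0 : WW x) : ℕ := by
  classical
  exact if ∃ i', xmT x ≤ i' ∧ i' < xmT x + j ∧ dg c i' ≠ dg c0 i' then 1 else 0

theorem flagOf_eq_one {j : ℕ} {c c0 : WW x} :
    flagOf x j c c0 = 1 ↔ ∃ i', xmT x ≤ i' ∧ i' < xmT x + j ∧ dg c i' ≠ dg c0 i' := by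
  unfold flagOf
  split_ifs with h <;> simp [h]

theorem flagOf_lt (j : ℕ) (c c0 : WW x) : flagOf x j c c0 < 2 := by
  unfold flagOf
  split_ifs <;> omega

theorem newf_iff {f d : ℕ} : newf f d = 1 ↔ f = 1 ∨ d ≠ 0 := by
  unfold newf
  cases hh : (decide (f = 1) || !decide (d = 0))
  · simp only [Bool.or_eq_false_iff, decide_eq_false_iff_not, Bool.not_eq_eq_eq_not, Bool.not_false,
      decide_eq_true_eq] at hh
    simp [hh.1, hh.2]
  · simp only [Bool.or_eq_true, decide_eq_true_eq, Bool.not_eq_eq_eq_not, Bool.not_true,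
      decide_eq_false_iff_not] at hh
    simpa using hh

theorem newf_lt (f d : ℕ) : newf f d < 2 := by
  unfold newf
  cases (decide (f = 1) || !decide (d = 0)) <;> simp

include T in
/-- The walk of the flagged states. -/
theorem walk_dn {A : Nm → WW x → Prop} (F : FamClosed x A) {i : ℕ} (hi : i < xnT x) {c0 : WW x}
    (base : A (tHd i) c0) :
    ∀ j, j ≤ xmP x → ∀ c, Agree (xmT x) j c c0 → A (tDn i j (flagOf x j c c0)) c := by
  intro j
  induction j with
  | zero =>
    intro _ c h
    have e : c = c0 := word_ext fun i _ => h i (by omega)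
    subst e
    have : flagOf x 0 c c = 0 := by
      by_contra h1
      have := flagOf_lt 0 c c
      obtain ⟨i', h2, h3, _⟩ := flagOf_eq_one.1 (by omega : flagOf x 0 c c = 1)
      omega
    rw [this]
    exact F.fD0 i hi c base
  | succ j ih =>
    intro hj c h
    let δ := dg c (xmT x + j) + dg c0 (xmT x + j)
    have hsj : xmT x + j < xk x := by
      unfold xk
      omega
    have hc : dg (addAt c (xmT x + j) δ) (xmT x + j) = dg c0 (xmT x + j) := by
      rw [dg_addAt_same _ _ hsj]
      exact xor_cancel _ _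
    have h1 : Agree (xmT x) j (addAt c (xmT x + j) δ) c0 := by
      intro i hi
      by_cases h1 : i = xmT x + j
      · subst h1
        exact hc
      · rw [dg_addAt_ne _ _ h1]
        exact h i fun h2 => hi ⟨h2.1, by omega⟩
    have h2 := ih (by omega) _ h1
    have h3 := F.fDw i hi j (by omega) (flagOf x j (addAt c (xmT x + j) δ) c0) (flagOf_lt j _ _)
      (T.D.dv δ) (dv_lt' T δ) c
    rw [lab_dv' T] at h3
    have h4 := h3 h2
    have e : newf (flagOf x j (addAt c (xmT x + j) δ) c0) (T.D.dv δ) = flagOf x (j + 1) c c0 := by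
      have h5 : newf (flagOf x j (addAt c (xmT x + j) δ) c0) (T.D.dv δ) = 1 ↔ flagOf x (j + 1) c c0 = 1 := by
        rw [newf_iff, flagOf_eq_one, flagOf_eq_one]
        have hd0 : T.D.dv δ ≠ 0 ↔ dg c (xmT x + j) ≠ dg c0 (xmT x + j) := by
          constructor
          · intro h6 e
            apply h6
            have : δ = 0 := by
              show dg c (xmT x + j) + dg c0 (xmT x + j) = 0
              rw [e]
              exact add_self_F _
            rw [this, dv_zero]
          · intro h6 e
            apply h6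
            have h7 : δ = 0 := by
              have := T.D.lab_dv δ
              rw [e, T.D.lab_zero] at this
              exact this.symm
            have h8 : dg c (xmT x + j) + (dg c (xmT x + j) + dg c0 (xmT x + j)) = dg c (xmT x + j) + 0 :=
              congrArg _ h7
            rw [xor_cancel, add_zero] at h8
            exact h8.symm
        constructor
        · rintro (⟨i', h6, h7, h8⟩ | h6)
          · refine ⟨i', h6, by omega, ?_⟩
            rwa [dg_addAt_ne _ _ (by omega)] at h8
          · exact ⟨xmT x + j, by omega, by omega, hd0.1 h6⟩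
        · rintro ⟨i', h6, h7, h8⟩
          by_cases h9 : i' = xmT x + j
          · subst h9
            exact Or.inr (hd0.2 h8)
          · left
            refine ⟨i', h6, by omega, ?_⟩
            rwa [dg_addAt_ne _ _ h9]
      have a1 := newf_lt (flagOf x j (addAt c (xmT x + j) δ) c0) (T.D.dv δ)
      have a2 := flagOf_lt (j + 1) c c0
      omega
    rwa [e] at h4

/-! ### Positions of heads -/

theorem head_range (τ : ℕ) (t : M.Tp) : |(cf M x τ).head t| ≤ τ := by
  induction τ with
  | zero => simp [cf_zero_head]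
  | succ τ ih =>
    by_cases h : NH M x τ
    · rw [cf_succ_head h]
      have h1 : |((act M x τ).2.2 t).toInt| ≤ 1 := by
        cases (act M x τ).2.2 t <;> simp [Dir.toInt]
      push_cast
      have := abs_add_le ((cf M x τ).head t) ((act M x τ).2.2 t).toInt
      omega
    · rw [cf_succ_halt h]
      push_cast
      omega

/-- There is a word with a given position in the range of positions, with the same time. -/
theorem exists_at (c : WW x) {p : ℤ} (h1 : -((T.D.B ^ (xmT x + 1) : ℕ) : ℤ) ≤ p)
    (h2 : p + ((T.D.B ^ (xmT x + 1) : ℕ) : ℤ) < ((T.D.B ^ xmP x : ℕ) : ℤ)) :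
    ∃ c1 : WW x, Agree (xmT x) (xmP x) c c1 ∧ pP T c1 = p := by
  have hn : (p + ((T.D.B ^ (xmT x + 1) : ℕ) : ℤ)).toNat < T.D.B ^ xmP x := by omega
  obtain ⟨c1, h3, h4⟩ := T.D.exists_block c (le_refl (xmT x + xmP x)) hn
  refine ⟨c1, fun i hi => (h3 i hi).symm, ?_⟩
  rw [pP_eq]
  show ((T.D.num (dg c1) (xmT x) (xmP x) : ℕ) : ℤ) - _ = p
  rw [h4]
  omega

/-- The numeric facts on the range of positions. -/
theorem range_facts {τ : ℕ} (hτ : τ < T.D.B ^ xmT x) :
    (τ : ℤ) < ((T.D.B ^ (xmT x + 1) : ℕ) : ℤ) ∧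
      (τ : ℤ) + ((T.D.B ^ (xmT x + 1) : ℕ) : ℤ) < ((T.D.B ^ xmP x : ℕ) : ℤ) := by
  have hB := T.D.two_le
  have hm := T.hm
  have h1 : T.D.B ^ xmT x * 2 ≤ T.D.B ^ (xmT x + 1) := by
    rw [pow_succ]
    exact Nat.mul_le_mul_left _ hB
  have h2 : T.D.B ^ (xmT x + 1) * 2 ≤ T.D.B ^ (xmT x + 2) := by
    rw [pow_succ _ (xmT x + 1)]
    exact Nat.mul_le_mul_left _ hB
  have h3 : T.D.B ^ (xmT x + 2) ≤ T.D.B ^ xmP x := Nat.pow_le_pow_right (by omega) hm
  omega

/-- The word for a head. -/
theorem exists_head (c : WW x) (hτ : tT T c < T.D.B ^ xmT x) (t : M.Tp) :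
    ∃ c1 : WW x, Agree (xmT x) (xmP x) c c1 ∧ pP T c1 = (cf M x (tT T c)).head t := by
  obtain ⟨h1, h2⟩ := range_facts T hτ
  have h3 := head_range (M := M) (x := x) (tT T c) t
  rw [abs_le] at h3
  exact exists_at T c (by omega) (by omega)

theorem Agree_mem {s j : ℕ} {c c' : WW x} (h : Agree s j c c') {i : ℕ} (hi : ¬ (s ≤ i ∧ i < s + j)) :
    dg c i = dg c' i := h i hi

end Vale.Agent.P310x
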