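import Vale.Agent.P310x.TabComp

/-!
# Completeness of the program of a computation table, part 2
-/

namespace Vale.Agent.P310x

open List (range)
open Function

variable {M : TM} {x : Inp} (T : TabOK M x)

theorem zero_of_dv {β : Fin (xb x) → ZMod 2} (h : T.D.dv β = 0) : β = 0 := by
  have := T.D.lab_dv β
  rw [h, T.D.lab_zero] at this
  exact this.symm

theorem agreeZ_of_time {c : WW x} (h : tT T c = 0) : Agree (xmT x) (xmP x) c 0 := by
  intro i hi
  by_cases h1 : i < xmT x
  · have := T.D.num_eq_zero_iff.1 h i h1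
    rw [zero_add] at this
    rw [zero_of_dv T this]
    simp [dg]
  · rw [dg_ge _ (by unfold xk; omega)]
    simp [dg]

/-- Digit facts give a counter guard. -/
theorem incG_of {c : WW x} {s t : ℕ} {z v : Fin (xb x) → ZMod 2} (h1 : ∀ j, j < t → dg c (s + j) = z)
    (h2 : dg c (s + t) = v) : IncG c s t z v := by
  intro i
  constructor
  · rintro ⟨h3, h4⟩
    have := h1 (i.val - s) (by omega)
    rwa [show s + (i.val - s) = i.val by omega, dg_val] at this
  · intro h3
    rwa [← h3, dg_val] at h2

theorem down_digit {c : WW x} {s N : ℕ} (h : T.D.num (dg c) s N ≠ 0) :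
    ∃ t, t < N ∧ ∃ a, a < xB x - 1 ∧ IncG c s t (lab x 0) (lab x (a + 1)) := by
  obtain ⟨t, h1, h2, h3⟩ := T.D.exists_down h
  have h4 := dv_lt' T (dg c (s + t))
  refine ⟨t, h1, T.D.dv (dg c (s + t)) - 1, by omega, incG_of (fun j hj => ?_) ?_⟩
  · rw [lab0 T]
    exact zero_of_dv T (h2 j hj)
  · rw [show T.D.dv (dg c (s + t)) - 1 + 1 = T.D.dv (dg c (s + t)) by omega, lab_dv' T]

theorem up_digit {c : WW x} {s N : ℕ} (h : T.D.num (dg c) s N + 1 < T.D.B ^ N) :
    ∃ t, t < N ∧ ∃ a, a < xB x - 1 ∧ IncG c s t (lab x (xB x - 1)) (lab x a) := by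
  obtain ⟨t, h1, h2, h3⟩ := T.D.exists_up h
  have h4 := dv_lt' T (dg c (s + t))
  rw [T.hB] at h3
  refine ⟨t, h1, T.D.dv (dg c (s + t)), by omega, incG_of (fun j hj => ?_) ?_⟩
  · have := h2 j hj
    rw [T.hB] at this
    rw [← this, lab_dv' T]
  · rw [lab_dv' T]

/-- The state of a configuration, the positions of heads, the cells are known at this time. -/
def Good (T : TabOK M x) (A : Nm → WW x → Prop) (τ : ℕ) : Prop :=
  ∀ c : WW x, tT T c = τ →
    A (tSt (T.C.stc (cf M x τ).st)) c ∧
    (∀ t, (cf M x τ).head t = pP T c → A (tHd (T.C.tpc t)) c) ∧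
    (∀ t, A (tCe (T.C.tpc t) (T.C.syc ((cf M x τ).tape t (pP T c)))) c)

theorem syc_symAt {p : ℕ} : T.C.syc ((cf M x 0).tape M.input (p : ℤ)) = symAt x p := by
  rw [cf_zero_tape]
  by_cases h : p < (inBits x).length
  · have h1 : M.input = M.input ∧ (0 : ℤ) ≤ (p : ℤ) ∧ (p : ℤ) < ((inBits x).length : ℤ) :=
      ⟨rfl, by omega, by omega⟩
    rw [if_pos h1]
    simp only [Int.toNat_natCast, symAt, List.getD, List.getElem?_map, List.getElem?_eq_getElem h,
      Option.map_some, Option.getD_some]
    unfold TM.bitSym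
    cases (inBits x)[p] <;> simp [T.hzero, T.hone]
  · have h1 : ¬ (M.input = M.input ∧ (0 : ℤ) ≤ (p : ℤ) ∧ (p : ℤ) < ((inBits x).length : ℤ)) := by
      omega
    rw [if_neg h1]
    have h2 : symAt x p = xblank x := by
      simp only [symAt]
      rw [List.getD_eq_default]
      simpa using h
    rw [h2, T.hblank]

section Main

variable {A : Nm → WW x → Prop} (F : FamClosed x A) (hb : A (tZ 0) 0)

include hb F T

theorem walk_Z {c : WW x} (h : Agree (xmT x) (xmP x) c 0) : A (tZ (xmP x)) c :=
  walk_gen T (fun j => tZ j) (le_refl _) hb (fun j hj d hd c h => F.fZ j hj d hd c h) _ (le_refl _) c h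

/-- The start. -/
theorem good_zero : Good T A 0 := by
  intro c hc
  have hz := walk_Z T F hb (agreeZ_of_time T hc)
  refine ⟨?_, ?_, ?_⟩
  · show A (tSt (T.C.stc M.start)) c
    rw [T.hstart]
    exact F.fS c hz
  · intro t ht
    have e : c = wP x 0 := by
      apply eq_wP T hc (lt_of_lt_of_le (by norm_num) (two_le_B T))
      rw [← ht]
      rfl
    rw [e]
    exact F.fH _ (T.C.tpc_lt t) hb
  · intro t
    by_cases h1 : t = M.input
    · subst h1
      rw [T.hinp]
      by_cases h2 : 0 ≤ pP T c ∧ pP T c < (xB x : ℤ)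
      · have h3 : pP T c = ((pP T c).toNat : ℤ) := by omega
        have h4 : (pP T c).toNat < xB x := by omega
        have e : c = wP x (pP T c).toNat := eq_wP T hc h4 h3
        rw [h3, syc_symAt T]
        have := F.fI _ h4 hb
        rwa [← e] at this
      · have h3 : ¬ (M.input = M.input ∧ 0 ≤ pP T c ∧ pP T c < ((inBits x).length : ℤ)) := by
          have := T.hin
          omega
        have h5 : (cf M x 0).tape M.input (pP T c) = M.blank := by
          rw [cf_zero_tape, if_neg h3]
        rw [h5, T.hblank]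
        have h6 : ∃ j, j < xmP x ∧ 1 ≤ j ∧ dg c (xmT x + j) ≠ toF (offL x j) := by
          by_contra h7
          push Not at h7
          apply h2
          have h8 : c = wP x (T.D.dv (dg c (xmT x))) := by
            apply word_ext
            intro i hi
            rw [dg_wP _ hi]
            by_cases h9 : i < xmT x
            · rw [if_neg (by omega), if_neg (by omega)]
              have := T.D.num_eq_zero_iff.1 hc i h9
              rw [zero_add] at this
              exact zero_of_dv T this
            · by_cases h10 : i = xmT x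
              · rw [if_pos h10, h10, lab_dv' T]
              · have hj : i - xmT x < xmP x := by
                  unfold xk at hi
                  omega
                have := h7 _ hj (by omega)
                rw [show xmT x + (i - xmT x) = i by omega] at this
                rw [this, if_neg h10]
                unfold offL
                by_cases h11 : i = xmT x + xmT x + 1
                · rw [if_pos h11, show i - xmT x = xmT x + 1 by omega]
                  simp [lab]
                · rw [if_neg h11]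
                  have : decide (i - xmT x = xmT x + 1) = false := by
                    simp only [decide_eq_false_iff_not]
                    omega
                  rw [this]
                  show lab x 0 = 0
                  exact lab0 T
          have h9 := pP_wP T (dv_lt' T (dg c (xmT x)))
          rw [← h8] at h9
          have h10 := dv_lt' T (dg c (xmT x))
          omega
        obtain ⟨j, hj, hj1, hj2⟩ := h6
        refine F.fG j hj hj1 c (fun i hi => ?_) hz
        rw [← dg_val c i, hi]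
        exact hj2
    · have h3 : ¬ (t = M.input ∧ 0 ≤ pP T c ∧ pP T c < ((inBits x).length : ℤ)) :=
        fun h4 => h1 h4.1
      have h5 : (cf M x 0).tape t (pP T c) = M.blank := by
        rw [cf_zero_tape, if_neg h3]
      rw [h5, T.hblank]
      refine F.fC _ (T.C.tpc_lt t) ?_ c hz
      intro h6
      apply h1
      rw [← T.C.dT_tpc t, h6, dT_inp T]

end Main

section Step

variable {A : Nm → WW x → Prop} (F : FamClosed x A) {τ : ℕ} (hG : Good T A τ) (hnh : NH M x τ)

/-- The line of the table at time `τ`. -/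
noncomputable def ent (T : TabOK M x) (τ : ℕ) : Entry := T.C.mkE (cf M x τ).st (rdAt M x τ)

include hnh in
theorem ent_mem : ent T τ ∈ xents x := (T.hE _).2 ⟨_, _, hnh.1, hnh.2, rfl⟩

theorem ent_ms {i : ℕ} (hi : i < xnT x) :
    (ent T τ).2.2.2.2.getD i 0 = mvc ((act M x τ).2.2 (T.C.dT i)) := by
  show ((range (xnT x)).map (fun i => mvc ((M.next _ _).2.2 (T.C.dT i)))).getD i 0 = _
  rw [getD_rng' _ _ hi]
  rfl

theorem ent_ws {i : ℕ} (hi : i < xnT x) :
    (ent T τ).2.2.2.1.getD i 0 = T.C.syc ((act M x τ).2.1 (T.C.dT i)) := by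
  show ((range (xnT x)).map (fun i => T.C.syc ((M.next _ _).2.1 (T.C.dT i)))).getD i 0 = _
  rw [getD_rng' _ _ hi]
  rfl

theorem ent_rs {i : ℕ} (hi : i < xnT x) :
    (ent T τ).2.1.getD i 0 = T.C.syc (rdAt M x τ (T.C.dT i)) := by
  show ((range (xnT x)).map (fun i => T.C.syc (rdAt M x τ (T.C.dT i)))).getD i 0 = _
  rw [getD_rng' _ _ hi]

variable (hτ : τ < T.D.B ^ xmT x)

include F hG hnh hτ

theorem tr_all : ∀ l, l ≤ xnT x → ∀ c : WW x, tT T c = τ → A (tTr l (ent T τ).1 (ent T τ).2.1) c := by
  intro l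
  induction l with
  | zero =>
    intro _ c hc
    exact F.fT0 _ (ent_mem T hnh) c (hG c hc).1
  | succ l ih =>
    intro hl c hc
    refine F.fT _ (ent_mem T hnh) l hl c (ih (by omega) c hc) ?_
    rw [ent_rs T hl]
    obtain ⟨c1, h1, h2⟩ := exists_head T c (by rw [hc]; exact hτ) (T.C.dT l)
    have e1 : tT T c1 = τ := by rw [← tT_of_agree T h1, hc]
    rw [hc] at h2
    have a1 : A (tHd l) c1 := by
      have := (hG c1 e1).2.1 (T.C.dT l) h2.symm
      rwa [T.C.tpc_dT l hl] at this
    have a2 : A (tCe l (T.C.syc (rdAt M x τ (T.C.dT l)))) c1 := by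
      have := (hG c1 e1).2.2 (T.C.dT l)
      rw [T.C.tpc_dT l hl, h2] at this
      exact this
    have a3 := F.fR0 l hl _ (T.C.syc_lt _) c1 a1 a2
    exact walk_gen T (fun j => tRd l (T.C.syc (rdAt M x τ (T.C.dT l))) j) (le_refl _) a3
      (fun j hj d hd c h => F.fRw l hl _ (T.C.syc_lt _) j hj d hd c h) _ (le_refl _) c h1

theorem mv_all {c : WW x} (hc : tT T c = τ) {t : M.Tp} (h : (cf M x τ).head t = pP T c) :
    A (tMv (T.C.tpc t) (mvc ((act M x τ).2.2 t))) c := by
  have a1 := F.fM _ (ent_mem T hnh) _ (T.C.tpc_lt t) c ((hG c hc).2.1 t h)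
    (tr_all T F hG hnh hτ _ (le_refl _) c hc)
  rwa [ent_ms T (T.C.tpc_lt t), T.C.dT_tpc] at a1

theorem wr_all {c : WW x} (hc : tT T c = τ) {t : M.Tp} (h : (cf M x τ).head t = pP T c) :
    A (tWr (T.C.tpc t) (T.C.syc ((act M x τ).2.1 t))) c := by
  have a1 := F.fW _ (ent_mem T hnh) _ (T.C.tpc_lt t) c ((hG c hc).2.1 t h)
    (tr_all T F hG hnh hτ _ (le_refl _) c hc)
  rwa [ent_ws T (T.C.tpc_lt t), T.C.dT_tpc] at a1

theorem hp_all {c : WW x} (hc : tT T c = τ) {t : M.Tp} (h : (cf M x (τ + 1)).head t = pP T c) :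
    A (tHP (T.C.tpc t)) c := by
  have hi := T.C.tpc_lt t
  have e0 := cf_succ_head hnh t
  have hr := head_range (M := M) (x := x) τ t
  rw [abs_le] at hr
  obtain ⟨r1, r2⟩ := range_facts T hτ
  have hm : xmT x + xmP x ≤ xk x := le_refl _
  cases hd : (act M x τ).2.2 t with
  | stay =>
    rw [hd] at e0
    have a1 := mv_all T F hG hnh hτ hc (t := t) (by rw [← h, e0]; simp [Dir.toInt])
    rw [hd] at a1
    exact F.fP1 _ hi c a1
  | right =>
    rw [hd] at e0
    have h1 : pN T c ≠ 0 := by
      intro h2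
      rw [pP_eq, h2] at h
      rw [e0] at h
      simp only [Dir.toInt] at h
      push_cast at h r1
      omega
    obtain ⟨t2, ht2, a, ha, hg⟩ := down_digit T h1
    have e1 := inc_num_up T (N := xmP x) hm ht2 ha hg
    have e2 : tT T (incW c (xmT x) t2 (lab x 0 + lab x (xB x - 1)) (lab x a + lab x (a + 1))) = τ := by
      rw [← hc]
      exact inc_other T (Or.inl (by omega))
    have e3 := pP_congr T e1
    have a1 := mv_all T F hG hnh hτ e2 (t := t) (by
      rw [e0] at h
      simp only [Dir.toInt] at h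
      omega)
    rw [hd] at a1
    exact F.fP2 _ hi t2 ht2 a ha c hg a1
  | left =>
    rw [hd] at e0
    have h1 : T.D.num (dg c) (xmT x) (xmP x) + 1 < T.D.B ^ xmP x := by
      have : (pN T c : ℤ) + 1 < ((T.D.B ^ xmP x : ℕ) : ℤ) := by
        rw [pP_eq] at h
        rw [e0] at h
        simp only [Dir.toInt] at h
        omega
      have e : pN T c = T.D.num (dg c) (xmT x) (xmP x) := rfl
      rw [e] at this
      exact_mod_cast this
    obtain ⟨t2, ht2, a, ha, hg⟩ := up_digit T h1
    have e1 := inc_num_down T (N := xmP x) hm ht2 ha hg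
    have e2 : tT T (incW c (xmT x) t2 (lab x (xB x - 1) + lab x 0) (lab x (a + 1) + lab x a)) = τ := by
      rw [← hc]
      exact inc_other T (Or.inl (by omega))
    have e3 := pP_congr T e1
    have a1 := mv_all T F hG hnh hτ e2 (t := t) (by
      rw [e0] at h
      simp only [Dir.toInt] at h
      omega)
    rw [hd] at a1
    exact F.fP3 _ hi t2 ht2 a ha c hg a1

theorem cp_all {c : WW x} (hc : tT T c = τ) (t : M.Tp) :
    A (tCP (T.C.tpc t) (T.C.syc ((cf M x (τ + 1)).tape t (pP T c)))) c := by
  have hi := T.C.tpc_lt t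
  have e0 := cf_succ_tape hnh t
  by_cases h : (cf M x τ).head t = pP T c
  · have e1 : (cf M x (τ + 1)).tape t (pP T c) = (act M x τ).2.1 t := by
      rw [e0, ← h, update_self]
    rw [e1]
    exact F.fCP1 _ hi _ (T.C.syc_lt _) c (wr_all T F hG hnh hτ hc h)
  · have e1 : (cf M x (τ + 1)).tape t (pP T c) = (cf M x τ).tape t (pP T c) := by
      rw [e0, update_of_ne (fun e => h e.symm)]
    rw [e1]
    obtain ⟨c1, h1, h2⟩ := exists_head T c (by rw [hc]; exact hτ) t
    have e2 : tT T c1 = τ := by rw [← tT_of_agree T h1, hc]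
    rw [hc] at h2
    have a1 := (hG c1 e2).2.1 t h2.symm
    have a2 := walk_dn T F hi a1 _ (le_refl _) c h1
    have e3 : flagOf x (xmP x) c c1 = 1 := by
      rw [flagOf_eq_one]
      by_contra h3
      push Not at h3
      apply h
      rw [← h2, pP_eq, pP_eq]
      have e4 : pN T c = pN T c1 := by
        apply T.D.num_congr
        intro j hj
        exact h3 _ (by omega) (by omega)
      rw [e4]
    rw [e3] at a2
    exact F.fCP2 _ hi _ (T.C.syc_lt _) c ((hG c hc).2.2 t) a2

end Step

/-- One step. -/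
theorem good_succ {A : Nm → WW x → Prop} (F : FamClosed x A) {τ : ℕ} (hG : Good T A τ) (hnh : NH M x τ)
    (hτ : τ + 1 < T.D.B ^ xmT x) : Good T A (τ + 1) := by
  have hτ' : τ < T.D.B ^ xmT x := by omega
  intro c hc
  have h0 : T.D.num (dg c) 0 (xmT x) ≠ 0 := by
    have : T.D.num (dg c) 0 (xmT x) = τ + 1 := hc
    omega
  obtain ⟨t, ht, a, ha, hg⟩ := down_digit T h0
  have hk : 0 + xmT x ≤ xk x := by
    unfold xk
    omega
  have e1 := inc_num_up T (N := xmT x) (s := 0) hk ht ha hg
  have e2 : tT T (incW c 0 t (lab x 0 + lab x (xB x - 1)) (lab x a + lab x (a + 1))) = τ := by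
    have : T.D.num (dg c) 0 (xmT x) = τ + 1 := hc
    unfold tT
    omega
  have e3 : pN T (incW c 0 t (lab x 0 + lab x (xB x - 1)) (lab x a + lab x (a + 1))) = pN T c :=
    inc_other T (Or.inr (by omega))
  have e4 : pP T (incW c 0 t (lab x 0 + lab x (xB x - 1)) (lab x a + lab x (a + 1))) = pP T c := by
    rw [pP_eq, pP_eq, e3]
  refine ⟨?_, ?_, ?_⟩
  · have a1 := F.fSn _ (ent_mem T hnh) t ht a ha c hg (tr_all T F hG hnh hτ' _ (le_refl _) _ e2)
    rw [cf_succ_st hnh]
    exact a1
  · intro t' h
    exact F.fHn _ (T.C.tpc_lt t') t ht a ha c hg (hp_all T F hG hnh hτ' e2 (by rw [e4]; exact h))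
  · intro t'
    refine F.fCn _ (T.C.tpc_lt t') _ (T.C.syc_lt _) t ht a ha c hg ?_
    have := cp_all T F hG hnh hτ' e2 t'
    rwa [e4] at this

theorem good_all {A : Nm → WW x → Prop} (F : FamClosed x A) (hb : A (tZ 0) 0) :
    ∀ τ, τ < T.D.B ^ xmT x → (∀ τ', τ' < τ → NH M x τ') → Good T A τ := by
  intro τ
  induction τ with
  | zero => exact fun _ _ => good_zero T F hb
  | succ τ ih =>
    intro h1 h2
    exact good_succ T F (ih (by omega) fun τ' h3 => h2 τ' (by omega)) (h2 τ (by omega)) h1

theorem halted_stays {τ : ℕ} (h : ¬ NH M x τ) (n : ℕ) : cf M x (τ + n) = cf M x τ := by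
  induction n with
  | zero => rfl
  | succ n ih =>
    rw [← add_assoc, cf_succ_halt, ih]
    unfold NH at h ⊢
    rwa [ih]

/-- Completeness: if the machine accepts in time, the program accepts. -/
theorem comp_main {A : Nm → WW x → Prop} (F : FamClosed x A) (hb : A (tZ 0) 0) {τ : ℕ}
    (hτ : τ < T.D.B ^ xmT x) (h : (cf M x τ).st = M.acc) : A (tFn (xmT x)) 0 := by
  classical
  have hex : ∃ τ, (cf M x τ).st = M.acc := ⟨τ, h⟩
  have h0 := Nat.find_spec hex
  have h1 : Nat.find hex ≤ τ := Nat.find_min' hex h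
  have h2 : ∀ τ', τ' < Nat.find hex → NH M x τ' := by
    intro τ' h3
    have h4 := Nat.find_min hex h3
    refine ⟨h4, fun h5 => ?_⟩
    have h6 : ¬ NH M x τ' := fun h7 => h7.2 h5
    have h7 := halted_stays h6 (Nat.find hex - τ')
    rw [show τ' + (Nat.find hex - τ') = Nat.find hex by omega] at h7
    rw [h7, h5] at h0
    exact M.acc_ne_rej h0.symm
  have hG := good_all T F hb _ (lt_of_le_of_lt h1 hτ) h2
  obtain ⟨c0, h3, h4⟩ := T.D.exists_block (0 : WW x) (s := 0) (M := xmT x) (by unfold xk; omega)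
    (lt_of_le_of_lt h1 hτ)
  have a1 := (hG c0 h4).1
  rw [h0, T.hacc] at a1
  have a2 := F.fF0 c0 a1
  refine walk_gen T (fun j => tFn j) (s := 0) (N := xmT x) (by unfold xk; omega) a2
    (fun j hj d hd c h => F.fFw j hj d hd c (by simpa using h)) _ (le_refl _) 0 ?_
  intro i hi
  exact (h3 i hi).symm

end Vale.Agent.P310x
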