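import Vale.Agent.P310x.TabSem

/-!
# Counter rules and position words: the numbers of the words
-/

namespace Vale.Agent.P310x

open List (range)
open Function

variable {M : TM} {x : Inp} (T : TabOK M x)

theorem dv_lab' {a : ℕ} (h : a < xB x) : T.D.dv (lab x a) = a := by
  rw [← T.hlab, T.D.dv_lab a (by rw [T.hB]; exact h)]

include T in
theorem lab0 : lab x 0 = 0 := by
  rw [← T.hlab, T.D.lab_zero]

include T in
theorem two_le_B : 2 ≤ xB x := by
  rw [← T.hB]
  exact T.D.two_le

theorem xor_cancel {b : ℕ} (z m : Fin b → ZMod 2) : z + (z + m) = m := by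
  rw [← add_assoc, add_self_F, zero_add]

section Inc

variable {s t : ℕ} {z m u v : Fin (xb x) → ZMod 2} {c : WW x}

theorem dg_inc_low (h : IncG c s t z v) {i : ℕ} (hi : i < xk x) (h1 : s ≤ i) (h2 : i < s + t) :
    dg c i = z ∧ dg (incW c s t (z + m) (u + v)) i = m := by
  rw [dg_lt _ hi, dg_lt _ hi]
  have e := (h ⟨i, hi⟩).1 ⟨h1, h2⟩
  simp only [incW, e, if_pos (And.intro h1 h2)]
  exact ⟨trivial, xor_cancel _ _⟩

theorem dg_inc_top (h : IncG c s t z v) {i : ℕ} (hi : i < xk x) (h1 : i = s + t) :
    dg c i = v ∧ dg (incW c s t (z + m) (u + v)) i = u := by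
  rw [dg_lt _ hi, dg_lt _ hi]
  have e := (h ⟨i, hi⟩).2 h1
  have h3 : ¬ (s ≤ i ∧ i < s + t) := by omega
  simp only [incW, e, if_neg h3, if_pos h1]
  refine ⟨trivial, ?_⟩
  rw [add_comm u v, xor_cancel]

theorem dg_inc_other {d1 d2 : Fin (xb x) → ZMod 2} {i : ℕ} (h1 : ¬ (s ≤ i ∧ i < s + t)) (h2 : i ≠ s + t) :
    dg (incW c s t d1 d2) i = dg c i := by
  by_cases hi : i < xk x
  · rw [dg_lt _ hi, dg_lt _ hi]
    simp only [incW, if_neg h1, if_neg h2, add_zero]
  · rw [dg_ge _ (by omega), dg_ge _ (by omega)]

end Inc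

section Num

variable {s t N a : ℕ} {c : WW x}

/-- A counter rule going up: the word has the number one more than the child. -/
theorem inc_num_up (hk : s + N ≤ xk x) (ht : t < N) (ha : a < xB x - 1)
    (h : IncG c s t (lab x 0) (lab x (a + 1))) :
    T.D.num (dg c) s N = T.D.num (dg (incW c s t (lab x 0 + lab x (xB x - 1)) (lab x a + lab x (a + 1)))) s N + 1 := by
  have hB := two_le_B T
  apply T.D.carry (t := t) (a := a) ht
  · intro j hj
    rw [(dg_inc_low (m := lab x (xB x - 1)) (u := lab x a) h (i := s + j) (by omega) (by omega) (by omega)).1]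
    exact dv_lab' T (by omega)
  · intro j hj
    rw [(dg_inc_low (m := lab x (xB x - 1)) (u := lab x a) h (i := s + j) (by omega) (by omega) (by omega)).2, T.hB]
    exact dv_lab' T (by omega)
  · rw [(dg_inc_top (m := lab x (xB x - 1)) (u := lab x a) h (i := s + t) (by omega) rfl).1]
    exact dv_lab' T (by omega)
  · rw [(dg_inc_top (m := lab x (xB x - 1)) (u := lab x a) h (i := s + t) (by omega) rfl).2]
    exact dv_lab' T (by omega)
  · intro j h1 h2
    rw [dg_inc_other (by omega) (by omega)]

/-- A counter rule going down: the child has the number one more than the word. -/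
theorem inc_num_down (hk : s + N ≤ xk x) (ht : t < N) (ha : a < xB x - 1)
    (h : IncG c s t (lab x (xB x - 1)) (lab x a)) :
    T.D.num (dg (incW c s t (lab x (xB x - 1) + lab x 0) (lab x (a + 1) + lab x a))) s N =
      T.D.num (dg c) s N + 1 := by
  have hB := two_le_B T
  apply T.D.carry (t := t) (a := a) ht
  · intro j hj
    rw [(dg_inc_low (m := lab x 0) (u := lab x (a + 1)) h (i := s + j) (by omega) (by omega) (by omega)).2]
    exact dv_lab' T (by omega)
  · intro j hj
    rw [(dg_inc_low (m := lab x 0) (u := lab x (a + 1)) h (i := s + j) (by omega) (by omega) (by omega)).1, T.hB]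
    exact dv_lab' T (by omega)
  · rw [(dg_inc_top (m := lab x 0) (u := lab x (a + 1)) h (i := s + t) (by omega) rfl).2]
    exact dv_lab' T (by omega)
  · rw [(dg_inc_top (m := lab x 0) (u := lab x (a + 1)) h (i := s + t) (by omega) rfl).1]
    exact dv_lab' T (by omega)
  · intro j h1 h2
    rw [dg_inc_other (by omega) (by omega)]

/-- The other blocks do not change. -/
theorem inc_other {d1 d2 : Fin (xb x) → ZMod 2} {s2 N2 : ℕ}
    (h : s2 + N2 ≤ s ∨ s + t < s2) :
    T.D.num (dg (incW c s t d1 d2)) s2 N2 = T.D.num (dg c) s2 N2 := by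
  apply T.D.num_congr
  intro j hj
  rw [dg_inc_other (by omega) (by omega)]

end Num

/-- `pP` in terms of the number. -/
theorem pP_eq (c : WW x) : pP T c = (pN T c : ℤ) - ((T.D.B ^ (xmT x + 1) : ℕ) : ℤ) := rfl

/-! ### The words of positions -/

theorem dg_wP (p : ℕ) {i : ℕ} (hi : i < xk x) :
    dg (wP x p) i = if i = xmT x then lab x p else if i = xmT x + xmT x + 1 then lab x 1 else 0 := by
  rw [dg_lt _ hi]
  simp only [wP, wPi, lab]
  by_cases h1 : i = xmT x
  · simp [h1]
  · by_cases h2 : i = xmT x + xmT x + 1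
    · simp only [h2, decide_true, cond_true, if_true]
      simp [show ¬ (xmT x + xmT x + 1 = xmT x) by omega]
    · simp [h1, h2]

theorem tT_wP (p : ℕ) : tT T (wP x p) = 0 := by
  apply T.D.num_eq_zero_iff.2
  intro j hj
  have hk : 0 + j < xk x := by
    unfold xk
    omega
  rw [dg_wP p hk, if_neg (by omega), if_neg (by omega), dv_zero]

theorem pN_wP {p : ℕ} (hp : p < xB x) : pN T (wP x p) = p + T.D.B ^ (xmT x + 1) := by
  have hm := T.hm
  have hB := two_le_B T
  have h1 : ∀ j, j < xmP x → T.D.dv (dg (wP x p) (xmT x + j)) * T.D.B ^ j =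
      (if j = 0 then p * T.D.B ^ j else 0) + (if j = xmT x + 1 then T.D.B ^ j else 0) := by
    intro j hj
    have hk : xmT x + j < xk x := by
      unfold xk
      omega
    rw [dg_wP p hk]
    by_cases h2 : j = 0
    · subst h2
      simp [dv_lab' T hp]
    · by_cases h3 : j = xmT x + 1
      · subst h3
        have e1 : ¬ (xmT x + xmT x + 1 = xmT x) := by omega
        have e2 : xmT x + (xmT x + 1) = xmT x + xmT x + 1 := by omega
        rw [e2, if_neg e1, if_pos rfl, dv_lab' T (by omega)]
        simp
      · have e1 : ¬ (xmT x + j = xmT x) := by omega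
        have e2 : ¬ (xmT x + j = xmT x + xmT x + 1) := by omega
        simp only [e1, e2, if_false, h2, h3, dv_zero]
        simp
  unfold pN
  unfold DS.num
  rw [Finset.sum_congr rfl fun j hj => h1 j (Finset.mem_range.1 hj), Finset.sum_add_distrib,
    Finset.sum_ite_eq', Finset.sum_ite_eq', if_pos (Finset.mem_range.2 (by omega)),
    if_pos (Finset.mem_range.2 (by omega))]
  simp

theorem pP_wP {p : ℕ} (hp : p < xB x) : pP T (wP x p) = p := by
  rw [pP_eq, pN_wP T hp]
  push_cast
  ring

/-- A word with time zero whose position is in the input area is a position word. -/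
theorem eq_wP {c : WW x} (ht : tT T c = 0) {p : ℕ} (hp : p < xB x) (hP : pP T c = p) : c = wP x p := by
  have hm := T.hm
  have h1 : pN T c = pN T (wP x p) := by
    rw [pN_wP T hp]
    rw [pP_eq] at hP
    push_cast at hP
    have : (pN T c : ℤ) = ((p + T.D.B ^ (xmT x + 1) : ℕ) : ℤ) := by
      push_cast
      omega
    exact_mod_cast this
  have h2 : tT T c = tT T (wP x p) := by rw [ht, tT_wP]
  apply word_ext
  intro i hi
  by_cases h3 : i < xmT x
  · have := T.D.num_inj h2 i h3
    simpa using this
  · have := T.D.num_inj h1 (i - xmT x) (by unfold xk at hi; omega)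
    rwa [show xmT x + (i - xmT x) = i by omega] at this

end Vale.Agent.P310x
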