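import Vale.Agent.P310x.RulesC
import Vale.Agent.P310x.Model

/-!
# The meaning of the states of the program of a computation table
-/

namespace Vale.Agent.P310x

open List (range)
open Function

/-- The number of a move. -/
def mvc : Dir → ℕ
  | .left => 0
  | .stay => 1
  | .right => 2

theorem mvc_inj {a c : Dir} (h : mvc a = mvc c) : a = c := by
  cases a <;> cases c <;> simp_all [mvc]

/-- Numbers for the tapes, symbols and states of a machine. -/
structure Code (M : TM) (nT nS : ℕ) where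
  tpc : M.Tp → ℕ
  dT : ℕ → M.Tp
  dT_tpc : ∀ t, dT (tpc t) = t
  tpc_lt : ∀ t, tpc t < nT
  tpc_dT : ∀ i, i < nT → tpc (dT i) = i
  syc : M.Sym → ℕ
  dS : ℕ → M.Sym
  dS_syc : ∀ t, dS (syc t) = t
  syc_lt : ∀ t, syc t < nS
  stc : M.St → ℕ
  dQ : ℕ → M.St
  dQ_stc : ∀ t, dQ (stc t) = t

/-- The line of the table for a state and the symbols read. -/
def Code.mkE {M : TM} {nT nS : ℕ} (C : Code M nT nS) (q : M.St) (rd : M.Tp → M.Sym) : Entry :=
  (C.stc q, (range nT).map (fun i => C.syc (rd (C.dT i))), C.stc (M.next q rd).1,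
    (range nT).map (fun i => C.syc ((M.next q rd).2.1 (C.dT i))),
    (range nT).map (fun i => mvc ((M.next q rd).2.2 (C.dT i))))

/-- The hypotheses on the input of the reduction, for a machine. -/
structure TabOK (M : TM) (x : Inp) where
  C : Code M (xnT x) (xnS x)
  D : DS (Fin (xb x) → ZMod 2)
  hB : D.B = xB x
  hlab : ∀ a, D.lab a = lab x a
  lok : LOK x
  hm : xmT x + 2 ≤ xmP x
  hin : (inBits x).length ≤ xB x
  hinp : C.tpc M.input = xinp x
  hblank : C.syc M.blank = xblank x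
  hzero : C.syc M.zero = xsym0 x
  hone : C.syc M.one = xsym1 x
  hstart : C.stc M.start = xstart x
  hacc : C.stc M.acc = xacc x
  hE : ∀ e, e ∈ xents x ↔ ∃ q rd, q ≠ M.acc ∧ q ≠ M.rej ∧ e = C.mkE q rd

variable {M : TM} {x : Inp} (T : TabOK M x)

/-- The run on the input bits. -/
noncomputable def cf (M : TM) (x : Inp) (τ : ℕ) : M.Cfg := M.run (inBits x) τ

theorem cf_succ (τ : ℕ) : cf M x (τ + 1) = (cf M x τ).step :=
  Function.iterate_succ_apply' _ _ _

/-- The symbol under a head. -/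
noncomputable def rdAt (M : TM) (x : Inp) (τ : ℕ) (t : M.Tp) : M.Sym :=
  (cf M x τ).tape t ((cf M x τ).head t)

/-- The table entry used at a time. -/
noncomputable def act (M : TM) (x : Inp) (τ : ℕ) : M.St × (M.Tp → M.Sym) × (M.Tp → Dir) :=
  M.next (cf M x τ).st (rdAt M x τ)

/-- Not halted at a time. -/
def NH (M : TM) (x : Inp) (τ : ℕ) : Prop := (cf M x τ).st ≠ M.acc ∧ (cf M x τ).st ≠ M.rej

theorem cf_succ_halt {τ : ℕ} (h : ¬ NH M x τ) : cf M x (τ + 1) = cf M x τ := by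
  rw [cf_succ, TM.Cfg.step, if_pos]
  by_contra h2
  apply h
  constructor
  · exact fun h3 => h2 (Or.inl h3)
  · exact fun h3 => h2 (Or.inr h3)

theorem cf_succ_st {τ : ℕ} (h : NH M x τ) : (cf M x (τ + 1)).st = (act M x τ).1 := by
  rw [cf_succ, TM.Cfg.step, if_neg]
  · rfl
  · rintro (h1 | h1)
    · exact h.1 h1
    · exact h.2 h1

theorem cf_succ_head {τ : ℕ} (h : NH M x τ) (t : M.Tp) :
    (cf M x (τ + 1)).head t = (cf M x τ).head t + ((act M x τ).2.2 t).toInt := by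
  rw [cf_succ, TM.Cfg.step, if_neg]
  · rfl
  · rintro (h1 | h1)
    · exact h.1 h1
    · exact h.2 h1

open scoped Classical in
theorem cf_succ_tape {τ : ℕ} (h : NH M x τ) (t : M.Tp) :
    (cf M x (τ + 1)).tape t = update ((cf M x τ).tape t) ((cf M x τ).head t) ((act M x τ).2.1 t) := by
  rw [cf_succ, TM.Cfg.step, if_neg]
  · rfl
  · rintro (h1 | h1)
    · exact h.1 h1
    · exact h.2 h1

/-- The words of the program. -/
abbrev WW (x : Inp) := Wd (xk x) (xb x)

/-- The time of a word. -/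
noncomputable def tT (c : WW x) : ℕ := T.D.num (dg c) 0 (xmT x)

/-- The number of the position of a word. -/
noncomputable def pN (c : WW x) : ℕ := T.D.num (dg c) (xmT x) (xmP x)

/-- The position of a word. -/
noncomputable def pP (c : WW x) : ℤ := (pN T c : ℤ) - ((T.D.B ^ (xmT x + 1) : ℕ) : ℤ)

/-- Two words agree outside a block. -/
def Agree (s j : ℕ) (c c' : WW x) : Prop := ∀ i, ¬ (s ≤ i ∧ i < s + j) → dg c i = dg c' i

noncomputable section

variable (c : WW x)

def semSt (q : ℕ) : Prop := (cf M x (tT T c)).st = T.C.dQ q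
def semTr (l q : ℕ) (rs : List ℕ) : Prop :=
  (cf M x (tT T c)).st = T.C.dQ q ∧ ∀ i, i < l → rdAt M x (tT T c) (T.C.dT i) = T.C.dS (rs.getD i 0)
def semHd (i : ℕ) : Prop := (cf M x (tT T c)).head (T.C.dT i) = pP T c
def semCe (i σ : ℕ) : Prop := (cf M x (tT T c)).tape (T.C.dT i) (pP T c) = T.C.dS σ
def semRd (i σ j : ℕ) : Prop :=
  ∃ c' : WW x, Agree (xmT x) j c c' ∧ semHd T c' i ∧ semCe T c' i σ
def semMv (i μ : ℕ) : Prop :=
  semHd T c i ∧ NH M x (tT T c) ∧ mvc ((act M x (tT T c)).2.2 (T.C.dT i)) = μ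
def semHP (i : ℕ) : Prop := (cf M x (tT T c + 1)).head (T.C.dT i) = pP T c
def semWr (i σ : ℕ) : Prop :=
  semHd T c i ∧ NH M x (tT T c) ∧ (act M x (tT T c)).2.1 (T.C.dT i) = T.C.dS σ
def semCP (i σ : ℕ) : Prop := (cf M x (tT T c + 1)).tape (T.C.dT i) (pP T c) = T.C.dS σ
def semDn (i j f : ℕ) : Prop :=
  ∃ c' : WW x, Agree (xmT x) j c c' ∧ semHd T c' i ∧
    (f = 1 ↔ ∃ i', xmT x ≤ i' ∧ i' < xmT x + j ∧ dg c i' ≠ dg c' i')
def semZ (j : ℕ) : Prop := Agree (xmT x) j c 0
def semFn (j : ℕ) : Prop := ∃ c' : WW x, Agree 0 j c c' ∧ (cf M x (tT T c')).st = M.acc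

end

/-- The meaning of a name. -/
def Sem (nm : Nm) (c : WW x) : Prop :=
  match nm.getD 0 0 with
  | 0 => semSt T c (nm.getD 1 0)
  | 1 => semTr T c (nm.getD 1 0) (nm.getD 2 0) (nm.drop 3)
  | 2 => semRd T c (nm.getD 1 0) (nm.getD 2 0) (nm.getD 3 0)
  | 3 => semHd T c (nm.getD 1 0)
  | 4 => semCe T c (nm.getD 1 0) (nm.getD 2 0)
  | 5 => semMv T c (nm.getD 1 0) (nm.getD 2 0)
  | 6 => semHP T c (nm.getD 1 0)
  | 7 => semWr T c (nm.getD 1 0) (nm.getD 2 0)
  | 8 => semCP T c (nm.getD 1 0) (nm.getD 2 0)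
  | 9 => semDn T c (nm.getD 1 0) (nm.getD 2 0) (nm.getD 3 0)
  | 10 => semZ c (nm.getD 1 0)
  | 11 => semFn T c (nm.getD 1 0)
  | _ => False

section SemLemmas

variable (c : WW x)

theorem sem_tSt (q : ℕ) : Sem T (tSt q) c = semSt T c q := rfl
theorem sem_tTr (l q : ℕ) (rs : List ℕ) : Sem T (tTr l q rs) c = semTr T c l q rs := rfl
theorem sem_tRd (i σ j : ℕ) : Sem T (tRd i σ j) c = semRd T c i σ j := rfl
theorem sem_tHd (i : ℕ) : Sem T (tHd i) c = semHd T c i := rfl
theorem sem_tCe (i σ : ℕ) : Sem T (tCe i σ) c = semCe T c i σ := rfl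
theorem sem_tMv (i μ : ℕ) : Sem T (tMv i μ) c = semMv T c i μ := rfl
theorem sem_tHP (i : ℕ) : Sem T (tHP i) c = semHP T c i := rfl
theorem sem_tWr (i σ : ℕ) : Sem T (tWr i σ) c = semWr T c i σ := rfl
theorem sem_tCP (i σ : ℕ) : Sem T (tCP i σ) c = semCP T c i σ := rfl
theorem sem_tDn (i j f : ℕ) : Sem T (tDn i j f) c = semDn T c i j f := rfl
theorem sem_tZ (j : ℕ) : Sem T (tZ j) c = semZ c j := rfl
theorem sem_tFn (j : ℕ) : Sem T (tFn j) c = semFn T c j := rfl

end SemLemmas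

/-! ### Facts on words -/

section Words

variable {k b : ℕ}

theorem dg_addAt_ne (c : Wd k b) {j i : ℕ} (δ : Fin b → ZMod 2) (h : i ≠ j) :
    dg (addAt c j δ) i = dg c i := by
  by_cases h1 : i < k
  · rw [dg_lt _ h1, dg_lt _ h1]
    simp [addAt, h]
  · rw [dg_ge _ (by omega), dg_ge _ (by omega)]

theorem dg_addAt_same (c : Wd k b) {j : ℕ} (δ : Fin b → ZMod 2) (h : j < k) :
    dg (addAt c j δ) j = dg c j + δ := by
  rw [dg_lt _ h, dg_lt _ h]
  simp [addAt]

end Words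

/-- Walking: agreement with the word with a letter added extends. -/
theorem agree_walk {s j : ℕ} {c c' : WW x} {δ : Fin (xb x) → ZMod 2}
    (h : Agree s j (addAt c (s + j) δ) c') : Agree s (j + 1) c c' := by
  intro i hi
  have h1 : i ≠ s + j := fun e => hi ⟨by omega, by omega⟩
  rw [← dg_addAt_ne c δ h1]
  exact h i fun h2 => hi ⟨h2.1, by omega⟩

theorem agree_refl (s : ℕ) (c : WW x) : Agree s 0 c c := fun _ _ => rfl

theorem agree_symm {s j : ℕ} {c c' : WW x} (h : Agree s j c c') : Agree s j c' c :=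
  fun i hi => (h i hi).symm

theorem dv_zero : T.D.dv 0 = 0 := by
  have := T.D.dv_lab 0 T.D.pos_B
  rwa [T.D.lab_zero] at this

/-- Words agreeing outside the position block have the same time. -/
theorem tT_of_agree {j : ℕ} {c c' : WW x} (h : Agree (xmT x) j c c') : tT T c = tT T c' := by
  apply T.D.num_congr
  intro i hi
  exact h _ (by omega)

theorem pN_of_agree {j : ℕ} {c c' : WW x} (h : Agree 0 j c c') (hj : j ≤ xmT x) : pN T c = pN T c' := by
  apply T.D.num_congr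
  intro i hi
  exact h _ (by omega)

theorem tT_zero_of_semZ {j : ℕ} {c : WW x} (h : semZ c j) : tT T c = 0 := by
  rw [tT_of_agree T h]
  apply T.D.num_eq_zero_iff.2
  intro i hi
  have : dg (0 : WW x) (0 + i) = 0 := by
    simp [dg]
  rw [this, dv_zero]

theorem lab_inj {a a' : ℕ} (ha : a < T.D.B) (ha' : a' < T.D.B) (h : T.D.lab a = T.D.lab a') : a = a' := by
  have h1 := T.D.dv_lab a ha
  have h2 := T.D.dv_lab a' ha'
  rw [← h1, ← h2, h]

theorem lab_ne_zero {a : ℕ} (ha : a < T.D.B) (h0 : a ≠ 0) : T.D.lab a ≠ 0 := by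
  intro h
  have h1 := T.D.dv_lab a ha
  rw [h, dv_zero] at h1
  omega

end Vale.Agent.P310x
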