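import Vale.Agent.P310x.TabInc

/-!
# Soundness of the program of a computation table
-/

namespace Vale.Agent.P310x

open List (range)
open Function

variable {M : TM} {x : Inp} (T : TabOK M x)

theorem cf_zero_st : (cf M x 0).st = M.start := rfl
theorem cf_zero_head (t : M.Tp) : (cf M x 0).head t = 0 := rfl

open scoped Classical in
theorem cf_zero_tape (t : M.Tp) (p : ℤ) : (cf M x 0).tape t p =
    if t = M.input ∧ 0 ≤ p ∧ p < (inBits x).length then M.bitSym ((inBits x).getD p.toNat false) else M.blank :=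
  rfl

theorem dT_inp : T.C.dT (xinp x) = M.input := by
  rw [← T.hinp, T.C.dT_tpc]

theorem dS_blank : T.C.dS (xblank x) = M.blank := by
  rw [← T.hblank, T.C.dS_syc]

theorem dS_zero : T.C.dS (xsym0 x) = M.zero := by
  rw [← T.hzero, T.C.dS_syc]

theorem dS_one : T.C.dS (xsym1 x) = M.one := by
  rw [← T.hone, T.C.dS_syc]

theorem dQ_start : T.C.dQ (xstart x) = M.start := by
  rw [← T.hstart, T.C.dQ_stc]

theorem dQ_acc : T.C.dQ (xacc x) = M.acc := by
  rw [← T.hacc, T.C.dQ_stc]

theorem getD_rng' {β : Type} {n i : ℕ} (f : ℕ → β) (d : β) (h : i < n) :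
    ((range n).map f).getD i d = f i := by
  simp [List.getD, h]

/-- The line of the table in use. -/
theorem tr_decode {e : Entry} (he : e ∈ xents x) {c : WW x} (h : semTr T c (xnT x) e.1 e.2.1) :
    ∃ q rd, NH M x (tT T c) ∧ e = T.C.mkE q rd ∧ act M x (tT T c) = M.next q rd := by
  obtain ⟨q, rd, h1, h2, rfl⟩ := (T.hE e).1 he
  obtain ⟨h3, h4⟩ := h
  have h5 : (cf M x (tT T c)).st = q := by
    rw [h3]
    exact T.C.dQ_stc q
  have h6 : rdAt M x (tT T c) = rd := by
    funext t
    have := h4 _ (T.C.tpc_lt t)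
    rw [T.C.dT_tpc] at this
    rw [this]
    show T.C.dS (((range (xnT x)).map (fun i => T.C.syc (rd (T.C.dT i)))).getD (T.C.tpc t) 0) = rd t
    rw [getD_rng' _ _ (T.C.tpc_lt t), T.C.dS_syc, T.C.dT_tpc]
  refine ⟨q, rd, ?_, rfl, ?_⟩
  · rw [NH, h5]
    exact ⟨h1, h2⟩
  · rw [act, h5, h6]

theorem pP_congr {c c' : WW x} (h : pN T c = pN T c' + 1) : pP T c = pP T c' + 1 := by
  rw [pP_eq, pP_eq, h]
  push_cast
  ring

theorem toInt_of_mvc {d : Dir} {n : ℕ} (h : mvc d = n) :
    d.toInt = (n : ℤ) - 1 := by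
  cases d <;> simp [mvc, Dir.toInt] at h ⊢ <;> omega

/-- A word differing from a word with the head has another position. -/
theorem pP_ne_of_digit {c c' : WW x} {i' : ℕ} (h1 : xmT x ≤ i') (h2 : i' < xmT x + xmP x)
    (h3 : dg c i' ≠ dg c' i') : pP T c ≠ pP T c' := by
  intro h
  have h4 : pN T c = pN T c' := by
    rw [pP_eq, pP_eq] at h
    omega
  have := T.D.num_inj h4 (i' - xmT x) (by omega)
  rw [show xmT x + (i' - xmT x) = i' by omega] at this
  exact h3 this

theorem semZ_walk {j : ℕ} {c : WW x} {δ : Fin (xb x) → ZMod 2}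
    (h : semZ (addAt c (xmT x + j) δ) j) : semZ c (j + 1) := agree_walk h

theorem sem_closed : FamClosed x (Sem T) where
  fZ := by
    intro j _ d _ c h
    exact semZ_walk h
  fS := by
    intro c h
    have h0 := tT_zero_of_semZ T (c := c) h
    rw [sem_tSt, semSt, h0, dQ_start T]
    rfl
  fH := by
    intro i _ _
    rw [sem_tHd, semHd, tT_wP, pP_wP T (lt_of_lt_of_le (by norm_num) (two_le_B T))]
    rfl
  fC := by
    intro i hi hne c h
    have h0 := tT_zero_of_semZ T (c := c) h
    rw [sem_tCe, semCe, h0, cf_zero_tape, if_neg, dS_blank T]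
    rintro ⟨h1, _⟩
    apply hne
    rw [← T.C.tpc_dT i hi, h1, T.hinp]
  fG := by
    intro j hj hj1 c hne h
    have h0 := tT_zero_of_semZ T (c := c) h
    rw [sem_tCe, semCe, h0, cf_zero_tape, if_neg, dS_blank T]
    rintro ⟨_, h2, h3⟩
    have hB := T.hin
    have hm := T.hm
    have h4 : (pP T c).toNat < xB x := by omega
    have h5 : pP T c = ((pP T c).toNat : ℤ) := by omega
    have h6 : pN T c = pN T (wP x (pP T c).toNat) := by
      rw [pN_wP T h4]
      rw [pP_eq] at h5
      push_cast at h5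
      have : (pN T c : ℤ) = (((pP T c).toNat + T.D.B ^ (xmT x + 1) : ℕ) : ℤ) := by
        push_cast
        rw [pP_eq]
        push_cast
        omega
      exact_mod_cast this
    have h7 := T.D.num_inj h6 j hj
    have hk : xmT x + j < xk x := by
      unfold xk
      omega
    apply hne ⟨xmT x + j, hk⟩ rfl
    rw [← dg_lt c hk, h7, dg_wP _ hk, if_neg (by omega)]
    unfold offL
    by_cases h8 : j = xmT x + 1
    · rw [if_pos (by omega)]
      simp [h8, lab]
    · rw [if_neg (by omega)]
      have : decide (j = xmT x + 1) = false := by simpa using h8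
      rw [this]
      show 0 = lab x 0
      rw [lab0 T]
  fI := by
    intro p hp _
    rw [sem_tCe, semCe, tT_wP, pP_wP T hp, cf_zero_tape, dT_inp T]
    by_cases h : p < (inBits x).length
    · have h1 : M.input = M.input ∧ (0 : ℤ) ≤ (p : ℤ) ∧ (p : ℤ) < ((inBits x).length : ℤ) :=
        ⟨rfl, by omega, by omega⟩
      rw [if_pos h1]
      simp only [Int.toNat_natCast, symAt, List.getD, List.getElem?_map, List.getElem?_eq_getElem h,
        Option.map_some, Option.getD_some]
      unfold TM.bitSym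
      cases (inBits x)[p] <;> simp [dS_zero T, dS_one T]
    · have h1 : ¬ (M.input = M.input ∧ (0 : ℤ) ≤ (p : ℤ) ∧ (p : ℤ) < ((inBits x).length : ℤ)) := by
        omega
      rw [if_neg h1]
      have h2 : symAt x p = xblank x := by
        simp only [symAt]
        rw [List.getD_eq_default]
        simpa using h
      rw [h2, dS_blank T]
  fT0 := by
    intro e _ c h
    exact ⟨h, fun i hi => absurd hi (Nat.not_lt_zero i)⟩
  fT := by
    intro e _ l _ c h1 h2
    obtain ⟨c', h3, h4, h5⟩ : semRd T c l (e.2.1.getD l 0) (xmP x) := h2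
    have h1 : semTr T c l e.1 e.2.1 := h1
    show semTr T c (l + 1) e.1 e.2.1
    refine ⟨h1.1, fun i hi => ?_⟩
    rcases Nat.lt_succ_iff_lt_or_eq.1 hi with h6 | h6
    · exact h1.2 i h6
    · subst h6
      have e1 := tT_of_agree T h3
      rw [semHd, ← e1] at h4
      rw [semCe, ← e1] at h5
      rw [rdAt, h4, h5]
  fR0 := by
    intro i _ σ _ c h1 h2
    exact ⟨c, agree_refl _ c, h1, h2⟩
  fRw := by
    intro i _ σ _ j _ d _ c h
    obtain ⟨c', h1, h2, h3⟩ : semRd T _ i σ j := h
    exact ⟨c', agree_walk h1, h2, h3⟩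
  fM := by
    intro e he i hi c h1 h2
    obtain ⟨q, rd, h3, rfl, h4⟩ := tr_decode T he h2
    show semMv T c i _
    refine ⟨h1, h3, ?_⟩
    rw [h4]
    show _ = ((range (xnT x)).map (fun i => mvc ((M.next q rd).2.2 (T.C.dT i)))).getD i 0
    rw [getD_rng' _ _ hi]
  fP1 := by
    intro i _ c h
    obtain ⟨h1, h2, h3⟩ : semMv T c i 1 := h
    rw [sem_tHP, semHP, cf_succ_head h2, h1, toInt_of_mvc h3]
    simp
  fP2 := by
    intro i _ t ht a ha c hg h
    obtain ⟨h1, h2, h3⟩ : semMv T _ i 2 := h
    rw [semHd] at h1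
    have hk : xmT x + xmP x ≤ xk x := le_refl _
    have e1 := inc_num_up T (N := xmP x) hk ht ha hg
    have e2 : tT T (incW c (xmT x) t (lab x 0 + lab x (xB x - 1)) (lab x a + lab x (a + 1))) = tT T c :=
      inc_other T (Or.inl (by omega))
    rw [e2] at h1 h2 h3
    rw [sem_tHP, semHP, cf_succ_head h2, h1, toInt_of_mvc h3]
    have := pP_congr T (c := c) (c' := incW c (xmT x) t (lab x 0 + lab x (xB x - 1)) (lab x a + lab x (a + 1))) e1
    rw [this]
    simp
  fP3 := by
    intro i _ t ht a ha c hg h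
    obtain ⟨h1, h2, h3⟩ : semMv T _ i 0 := h
    rw [semHd] at h1
    have hk : xmT x + xmP x ≤ xk x := le_refl _
    have e1 := inc_num_down T (N := xmP x) hk ht ha hg
    have e2 : tT T (incW c (xmT x) t (lab x (xB x - 1) + lab x 0) (lab x (a + 1) + lab x a)) = tT T c :=
      inc_other T (Or.inl (by omega))
    rw [e2] at h1 h2 h3
    rw [sem_tHP, semHP, cf_succ_head h2, h1, toInt_of_mvc h3]
    have := pP_congr T (c' := c) (c := incW c (xmT x) t (lab x (xB x - 1) + lab x 0) (lab x (a + 1) + lab x a)) e1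
    rw [this]
    simp
  fHn := by
    intro i _ t ht a ha c hg h
    have hk : 0 + xmT x ≤ xk x := by
      unfold xk
      omega
    have e1 := inc_num_up T (N := xmT x) (s := 0) hk ht ha hg
    have e2 : pN T (incW c 0 t (lab x 0 + lab x (xB x - 1)) (lab x a + lab x (a + 1))) = pN T c :=
      inc_other T (Or.inr (by omega))
    rw [sem_tHP, semHP] at h
    rw [sem_tHd, semHd]
    show (cf M x (T.D.num (dg c) 0 (xmT x))).head _ = _
    rw [e1]
    refine h.trans ?_
    rw [pP_eq, pP_eq, e2]
  fW := by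
    intro e he i hi c h1 h2
    obtain ⟨q, rd, h3, rfl, h4⟩ := tr_decode T he h2
    show semWr T c i _
    refine ⟨h1, h3, ?_⟩
    rw [h4]
    show _ = T.C.dS (((range (xnT x)).map (fun i => T.C.syc ((M.next q rd).2.1 (T.C.dT i)))).getD i 0)
    rw [getD_rng' _ _ hi, T.C.dS_syc]
  fCP1 := by
    intro i _ σ _ c h
    obtain ⟨h1, h2, h3⟩ : semWr T c i σ := h
    rw [semHd] at h1
    rw [sem_tCP, semCP, cf_succ_tape h2, ← h1, update_self, h3]
  fD0 := by
    intro i _ c h
    show semDn T c i 0 0
    refine ⟨c, agree_refl _ c, h, ?_⟩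
    simp
  fDw := by
    intro i _ j hj f hf d hd c h
    obtain ⟨c', h1, h2, h3⟩ : semDn T _ i j f := h
    show semDn T c i (j + 1) (newf f d)
    refine ⟨c', agree_walk h1, h2, ?_⟩
    have hk : xmT x + j < xk x := by
      unfold xk
      omega
    have h4 : dg c' (xmT x + j) = dg c (xmT x + j) + lab x d := by
      rw [← h1 (xmT x + j) (by omega), dg_addAt_same _ _ hk]
    have h5 : lab x d = 0 ↔ d = 0 := by
      constructor
      · intro e
        by_contra e2
        exact lab_ne_zero T (by rw [T.hB]; exact hd) e2 (by rw [T.hlab, e])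
      · rintro rfl
        exact lab0 T
    have h6 : newf f d = 1 ↔ f = 1 ∨ d ≠ 0 := by
      unfold newf
      cases hh : (decide (f = 1) || !decide (d = 0))
      · simp only [Bool.or_eq_false_iff, decide_eq_false_iff_not, Bool.not_eq_eq_eq_not, Bool.not_false,
          decide_eq_true_eq] at hh
        simp [hh.1, hh.2]
      · simp only [Bool.or_eq_true, decide_eq_true_eq, Bool.not_eq_eq_eq_not, Bool.not_true,
          decide_eq_false_iff_not] at hh
        simpa using hh
    rw [h6, h3]
    constructor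
    · rintro (⟨i', h7, h8, h9⟩ | h7)
      · refine ⟨i', h7, by omega, ?_⟩
        rwa [dg_addAt_ne c _ (by omega)] at h9
      · refine ⟨xmT x + j, by omega, by omega, ?_⟩
        rw [h4]
        intro e
        have : lab x d = 0 := by
          have e2 : dg c (xmT x + j) + dg c (xmT x + j) = 0 := add_self_F _
          have e3 := congrArg (fun y => dg c (xmT x + j) + y) e
          simp only [e2] at e3
          rw [xor_cancel] at e3
          exact e3.symm
        exact h7 (h5.1 this)
    · rintro ⟨i', h7, h8, h9⟩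
      by_cases h10 : i' = xmT x + j
      · right
        subst h10
        intro e
        rw [h4, e] at h9
        apply h9
        rw [lab0 T, add_zero]
      · left
        refine ⟨i', h7, by omega, ?_⟩
        rwa [dg_addAt_ne c _ h10]
  fCP2 := by
    intro i _ σ _ c h1 h2
    obtain ⟨c', h3, h4, h5⟩ : semDn T c i (xmP x) 1 := h2
    obtain ⟨i', h6, h7, h8⟩ := h5.1 rfl
    have h9 := pP_ne_of_digit T h6 (by omega) h8
    have e1 := tT_of_agree T h3
    rw [semHd, ← e1] at h4
    by_cases h10 : NH M x (tT T c)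
    · rw [sem_tCP, semCP, cf_succ_tape h10, h4, update_of_ne h9]
      exact h1
    · rw [sem_tCP, semCP, cf_succ_halt h10]
      exact h1
  fCn := by
    intro i _ σ _ t ht a ha c hg h
    have hk : 0 + xmT x ≤ xk x := by
      unfold xk
      omega
    have e1 := inc_num_up T (N := xmT x) (s := 0) hk ht ha hg
    have e2 : pN T (incW c 0 t (lab x 0 + lab x (xB x - 1)) (lab x a + lab x (a + 1))) = pN T c :=
      inc_other T (Or.inr (by omega))
    rw [sem_tCP, semCP] at h
    rw [sem_tCe, semCe]
    show (cf M x (T.D.num (dg c) 0 (xmT x))).tape _ _ = _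
    rw [e1]
    rw [pP_eq, ← e2, ← pP_eq]
    exact h
  fSn := by
    intro e he t ht a ha c hg h
    have hk : 0 + xmT x ≤ xk x := by
      unfold xk
      omega
    have e1 := inc_num_up T (N := xmT x) (s := 0) hk ht ha hg
    obtain ⟨q, rd, h3, rfl, h4⟩ := tr_decode T he (c := incW c 0 t _ _) h
    rw [sem_tSt, semSt]
    show (cf M x (T.D.num (dg c) 0 (xmT x))).st = _
    rw [e1]
    refine (cf_succ_st h3).trans ?_
    rw [h4]
    exact (T.C.dQ_stc _).symm
  fF0 := by
    intro c h
    show semFn T c 0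
    refine ⟨c, fun _ _ => rfl, ?_⟩
    rw [sem_tSt, semSt, dQ_acc T] at h
    exact h
  fFw := by
    intro j _ d _ c h
    obtain ⟨c', h1, h2⟩ : semFn T _ j := h
    exact ⟨c', agree_walk (s := 0) (by simpa using h1), h2⟩

theorem sem_base : Sem T (tZ 0) (0 : WW x) := agree_refl _ _

end Vale.Agent.P310x
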