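import Vale.Agent.P310x.Model

/-!
# Equivalence is invariant under isomorphism
-/

namespace Vale.Agent.P310x

open Function Vale.Agent.P310h2

variable {V W : Type} [Fintype V] [Fintype W]

theorem wlColor_iso {G : SimpleGraph V} {H : SimpleGraph W} (e : V ≃ W)
    (he : ∀ a b, G.Adj a b ↔ H.Adj (e a) (e b)) {m : ℕ} (r : ℕ) (x : Fin m → V) :
    wlColor G r x = wlColor H r (e ∘ x) := by
  induction r generalizing x with
  | zero =>
    funext i j
    show (x i = x j, G.Adj (x i) (x j)) = (e (x i) = e (x j), H.Adj (e (x i)) (e (x j)))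
    rw [he, e.apply_eq_iff_eq]
  | succ r ih =>
    show (wlColor G r x, Multiset.map (fun y i => wlColor G r (update x i y)) (Finset.univ : Finset V).val) =
      (wlColor H r (e ∘ x),
        Multiset.map (fun y i => wlColor H r (update (e ∘ x) i y)) (Finset.univ : Finset W).val)
    rw [ih x]
    congr 1
    have h1 : (Finset.univ : Finset W).val = Multiset.map e (Finset.univ : Finset V).val := by
      rw [← Finset.map_univ_equiv e]
      rfl
    rw [h1, Multiset.map_map]
    apply Multiset.map_congr rfl
    intro y _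
    funext i
    simp only [Function.comp]
    rw [ih]
    congr 1
    funext i'
    by_cases h : i' = i
    · subst h
      simp
    · simp [Function.update_of_ne h]

theorem tuples_iso {G : SimpleGraph V} {H : SimpleGraph W} (e : V ≃ W)
    (he : ∀ a b, G.Adj a b ↔ H.Adj (e a) (e b)) (m r : ℕ) :
    Multiset.map (wlColor G r) (Finset.univ : Finset (Fin m → V)).val =
      Multiset.map (wlColor H r) (Finset.univ : Finset (Fin m → W)).val := by
  let E : (Fin m → V) ≃ (Fin m → W) := Equiv.arrowCongr (Equiv.refl _) e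
  have h1 : (Finset.univ : Finset (Fin m → W)).val =
      Multiset.map E (Finset.univ : Finset (Fin m → V)).val := by
    rw [← Finset.map_univ_equiv E]
    rfl
  rw [h1, Multiset.map_map]
  apply Multiset.map_congr rfl
  intro x _
  exact wlColor_iso e he r x

/-- Equivalence does not depend on the numbering of the vertices. -/
theorem wlEquiv_iso {V2 W2 : Type} [Fintype V2] [Fintype W2] {G1 : SimpleGraph V} {H1 : SimpleGraph W}
    {G2 : SimpleGraph V2} {H2 : SimpleGraph W2} (e1 : V ≃ W) (e2 : V2 ≃ W2)
    (h1 : ∀ a b, G1.Adj a b ↔ H1.Adj (e1 a) (e1 b)) (h2 : ∀ a b, G2.Adj a b ↔ H2.Adj (e2 a) (e2 b))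
    (m : ℕ) : WLEquiv G1 G2 m ↔ WLEquiv H1 H2 m := by
  apply forall_congr'
  intro r
  rw [tuples_iso e1 h1, tuples_iso e2 h2]

end Vale.Agent.P310x
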