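import Vale.Agent.P310x.WLIso
import Vale.Agent.P310x.LProg
import Vale.Agent.P310u.Defs

/-!
# The graphs of a linear system, written out as lists
-/

namespace Vale.Agent.P310x

open List (range)
open Vale.Agent.P310u

/-- Names of variables. -/
abbrev VN := Nm × Lt

/-- An equation: its variables, and its flag for the twisted system. -/
abbrev It := List VN × Bool

/-- A vertex: the number of the equation, the values of the variables, the number of a pendant. -/
abbrev VD := ℕ × List (VN × Bool) × ℕ

instance instDecVD : DecidableEq VD :=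
  @instDecidableEqProd ℕ (List (VN × Bool) × ℕ) _ inferInstance

/-- The parity of a bit list. -/
def parB (l : List Bool) : Bool := l.foldr Bool.xor false

/-- The entries of the table of a given length. -/
def advLen (adv : List (Lt × Bool)) (l : ℕ) : List (Lt × Bool) :=
  adv.filter fun a => decide (a.1.length = l)

/-- The bound for the numbers of solutions. -/
def bndD (its : List It) (adv : List (Lt × Bool)) : ℕ :=
  (its.flatMap fun it => advLen adv it.1.length).length

/-- The bit lists of a given length and parity. -/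
def asgD (adv : List (Lt × Bool)) (l : ℕ) (r : Bool) : List Lt :=
  ((advLen adv l).filter fun a => decide (a.2 = r)).map fun a => a.1

/-- The number of pendant vertices of a solution of the equation of a given number. -/
def wtD (its : List It) (adv : List (Lt × Bool)) (j : ℕ) : ℕ := (bndD its adv + 2) * (j + 1)

/-- All vertices, perhaps with repetitions. -/
def vs0 (its : List It) (adv : List (Lt × Bool)) (b : Bool) : List VD :=
  its.flatMap fun it => (asgD adv it.1.length (b && it.2)).flatMap fun bl =>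
    (range (wtD its adv (its.idxOf it) + 1)).map fun i => (its.idxOf it, it.1.zip bl, i)

/-- All vertices. -/
def vsD (its : List It) (adv : List (Lt × Bool)) (b : Bool) : List VD := dedupD (vs0 its adv b)

/-- Two lists of values agree on common names. -/
def okPair (A B : List (VN × Bool)) : Bool :=
  decide ((A.flatMap fun p => B.filter fun q => decide (q.1 = p.1) && !decide (q.2 = p.2)).length = 0)

/-- Adjacency. -/
def adjD (v w : VD) : Bool :=
  (decide (v.2.2 = 0) && decide (w.2.2 = 0) && !decide (v.1 = w.1) && okPair v.2.1 w.2.1) ||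
    (decide (v.1 = w.1) && decide (v.2.1 = w.2.1) &&
      ((decide (v.2.2 = 0) && !decide (w.2.2 = 0)) || (!decide (v.2.2 = 0) && decide (w.2.2 = 0))))

/-- The adjacency matrix. -/
def matD (its : List It) (adv : List (Lt × Bool)) (b : Bool) : List Bool :=
  (vsD its adv b).flatMap fun v => (vsD its adv b).map fun w => adjD v w

section PTg

open PT

variable {α : Type} [Enc α] {f : α → List It} {g : α → List (Lt × Bool)} {h : α → Bool}
  {l : α → ℕ} {r : α → Bool}

@[fun_prop] theorem advLen_pt (hg : PT g) (hl : PT l) : PT (fun y => advLen (g y) (l y)) := by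
  unfold advLen; fun_prop

@[fun_prop] theorem bndD_pt (hf : PT f) (hg : PT g) : PT (fun y => bndD (f y) (g y)) := by
  unfold bndD; fun_prop

@[fun_prop] theorem asgD_pt (hg : PT g) (hl : PT l) (hr : PT r) : PT (fun y => asgD (g y) (l y) (r y)) := by
  unfold asgD; fun_prop

@[fun_prop] theorem wtD_pt (hf : PT f) (hg : PT g) (hl : PT l) : PT (fun y => wtD (f y) (g y) (l y)) := by
  unfold wtD; fun_prop

@[fun_prop] theorem vs0_pt (hf : PT f) (hg : PT g) (hh : PT h) : PT (fun y => vs0 (f y) (g y) (h y)) := by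
  unfold vs0; fun_prop

@[fun_prop] theorem vsD_pt (hf : PT f) (hg : PT g) (hh : PT h) : PT (fun y => vsD (f y) (g y) (h y)) := by
  unfold vsD; fun_prop

@[fun_prop] theorem okPair_pt {A B : α → List (VN × Bool)} (hA : PT A) (hB : PT B) :
    PT (fun y => okPair (A y) (B y)) := by
  unfold okPair; fun_prop

@[fun_prop] theorem adjD_pt {v w : α → VD} (hv : PT v) (hw : PT w) : PT (fun y => adjD (v y) (w y)) := by
  unfold adjD; fun_prop

@[fun_prop] theorem matD_pt (hf : PT f) (hg : PT g) (hh : PT h) : PT (fun y => matD (f y) (g y) (h y)) := by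
  unfold matD; fun_prop

end PTg

/-- The linear system is written out by the lists: the list of equations, and the table of bit lists
with their parities. -/
structure Lst {V I : Type} [Fintype I] (S : XS V I) (its : List It) (adv : List (Lt × Bool)) where
  nm : V → VN
  nm_inj : Function.Injective nm
  varL : I → List V
  nodup : ∀ c, (varL c).Nodup
  mem_vars : ∀ c d, d ∈ S.vars c ↔ d ∈ varL c
  twB : I → Bool
  tw_eq : ∀ c, S.tw c = if twB c then 1 else 0
  its_nodup : its.Nodup
  its_iff : ∀ it, it ∈ its ↔ ∃ c, ((varL c).map nm, twB c) = it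
  item_inj : ∀ c c', ((varL c).map nm, twB c) = ((varL c').map nm, twB c') → c = c'
  code_eq : ∀ c, S.code c = its.idxOf ((varL c).map nm, twB c)
  adv_iff : ∀ c (bl : Lt) (r : Bool), bl.length = (varL c).length → ((bl, r) ∈ adv ↔ r = parB bl)
  adv_count : ∀ c, (advLen adv (varL c).length).length = 2 ^ (varL c).length

theorem parB_sum {V : Type} (l : List V) (a : V → ZMod 2) :
    (if parB (l.map fun d => decide (a d = 1)) then (1 : ZMod 2) else 0) = (l.map a).sum := by
  induction l with
  | nil => rfl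
  | cons d t h =>
    rw [List.map_cons, List.map_cons, List.sum_cons, ← h]
    show (if Bool.xor (decide (a d = 1)) (parB _) then (1 : ZMod 2) else 0) = _
    generalize parB (t.map fun d => decide (a d = 1)) = p
    generalize a d = z
    revert z p
    decide

theorem zmod2_of_decide {z w : ZMod 2} (h : decide (z = 1) = decide (w = 1)) : z = w := by
  revert z w
  decide

variable {V I : Type} [Fintype I] {S : XS V I} {its : List It} {adv : List (Lt × Bool)}

namespace Lst

variable (L : Lst S its adv)

open scoped Classical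

theorem vars_eq (c : I) : S.vars c = (L.varL c).toFinset := by
  ext d
  rw [L.mem_vars, List.mem_toFinset]

theorem card_vars (c : I) : (S.vars c).card = (L.varL c).length := by
  rw [L.vars_eq, List.toFinset_card_of_nodup (L.nodup c)]

/-- The list of an equation. -/
def itm (c : I) : It := ((L.varL c).map L.nm, L.twB c)

theorem itm_mem (c : I) : L.itm c ∈ its := (L.its_iff _).2 ⟨c, rfl⟩

theorem itm_inj : Function.Injective L.itm := fun c c' h => L.item_inj c c' h

include L in
theorem bnd_eq : bndD its adv = S.bnd := by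
  unfold bndD XS.bnd
  rw [List.length_flatMap]
  have h1 : its.toFinset = Finset.univ.image L.itm := by
    ext it
    simp only [List.mem_toFinset, Finset.mem_image, Finset.mem_univ, true_and]
    exact L.its_iff it
  show (its.map fun it => (advLen adv it.1.length).length).sum = _
  rw [← List.sum_toFinset _ L.its_nodup, h1, Finset.sum_image (fun a _ b _ h => L.itm_inj h)]
  apply Finset.sum_congr rfl
  intro c _
  rw [L.card_vars]
  show (advLen adv ((L.varL c).map L.nm).length).length = _
  rw [List.length_map, L.adv_count]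

include L in
theorem code_inj : Function.Injective S.code := by
  intro c c' h
  rw [L.code_eq, L.code_eq] at h
  have := (List.idxOf_inj (L.itm_mem c)).1 h
  exact L.itm_inj this

omit L in
theorem mem_asgD {bl : Lt} {l : ℕ} {r : Bool} : bl ∈ asgD adv l r ↔ (bl, r) ∈ adv ∧ bl.length = l := by
  simp only [asgD, advLen, List.mem_map, List.mem_filter, decide_eq_true_eq, Prod.exists]
  constructor
  · rintro ⟨a, b, ⟨⟨h1, h2⟩, h3⟩, rfl⟩
    subst h3
    exact ⟨h1, h2⟩
  · rintro ⟨h1, h2⟩
    exact ⟨bl, r, ⟨⟨h1, h2⟩, rfl⟩, rfl⟩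

/-- The vertex of the lists of a vertex of the graph. -/
noncomputable def phi (b : Bool) (v : S.Vtx b) : VD :=
  (S.code v.1.1.item, (L.varL v.1.1.item).map (fun d => (L.nm d, decide (v.1.1.a d = 1))), v.1.2)

omit L in
theorem zip_map_self {W : Type} (l : List W) (f : W → VN) (g : W → Bool) :
    (l.map f).zip (l.map g) = l.map fun d => (f d, g d) := by
  induction l with
  | nil => rfl
  | cons a t h => simp [h]

theorem sum_eqn {b : Bool} (x : S.Core b) :
    (if parB ((L.varL x.item).map fun d => decide (x.a d = 1)) then (1 : ZMod 2) else 0) =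
      if (b && L.twB x.item) then 1 else 0 := by
  rw [parB_sum, ← List.sum_toFinset _ (L.nodup _), ← L.vars_eq, x.eqn, XS.rhs, L.tw_eq]
  cases b <;> simp

theorem parB_eqn {b : Bool} (x : S.Core b) :
    parB ((L.varL x.item).map fun d => decide (x.a d = 1)) = (b && L.twB x.item) := by
  have h := L.sum_eqn x
  revert h
  generalize parB ((L.varL x.item).map fun d => decide (x.a d = 1)) = p
  generalize (b && L.twB x.item) = q
  cases p <;> cases q <;> simp

theorem phi_mem {b : Bool} (v : S.Vtx b) : L.phi b v ∈ vsD its adv b := by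
  rw [vsD, mem_dedupD, vs0, List.mem_flatMap]
  refine ⟨L.itm v.1.1.item, L.itm_mem _, ?_⟩
  rw [List.mem_flatMap]
  refine ⟨(L.varL v.1.1.item).map (fun d => decide (v.1.1.a d = 1)), ?_, ?_⟩
  · rw [mem_asgD]
    constructor
    · apply (L.adv_iff v.1.1.item _ _ (by simp)).2
      exact (L.parB_eqn v.1.1).symm
    · simp [itm]
  · rw [List.mem_map]
    refine ⟨v.1.2, ?_, ?_⟩
    · rw [List.mem_range]
      have h := v.2
      have e : S.weight v.1.1.item = wtD its adv (its.idxOf (L.itm v.1.1.item)) := by
        unfold XS.weight wtD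
        rw [L.bnd_eq, L.code_eq]
        rfl
      omega
    · show (its.idxOf (L.itm v.1.1.item),
        ((L.varL v.1.1.item).map L.nm).zip ((L.varL v.1.1.item).map fun d => decide (v.1.1.a d = 1)),
        v.1.2) = L.phi b v
      rw [zip_map_self, phi, L.code_eq]
      rfl

/-- The solution of an equation given by a bit list. -/
noncomputable def mkA (c : I) (bl : Lt) (d : V) : ZMod 2 :=
  if d ∈ L.varL c then (if bl.getD ((L.varL c).idxOf d) false then 1 else 0) else 0

theorem mkA_bits (c : I) (bl : Lt) (h : bl.length = (L.varL c).length) :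
    (L.varL c).map (fun d => decide (L.mkA c bl d = 1)) = bl := by
  apply List.ext_getElem
  · simp [h]
  · intro n h1 h2
    simp only [List.getElem_map]
    have h3 : n < (L.varL c).length := by simpa using h1
    have h4 : (L.varL c)[n] ∈ L.varL c := List.getElem_mem h3
    have h5 : (L.varL c).idxOf (L.varL c)[n] = n := (L.nodup c).idxOf_getElem n h3
    simp only [mkA, if_pos h4, h5, List.getD, List.getElem?_eq_getElem h2, Option.getD_some]
    cases bl[n] <;> simp

theorem phi_surj {b : Bool} {w : VD} (hw : w ∈ vsD its adv b) : ∃ v, L.phi b v = w := by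
  rw [vsD, mem_dedupD, vs0, List.mem_flatMap] at hw
  obtain ⟨it, hit, hw⟩ := hw
  obtain ⟨c, rfl⟩ := (L.its_iff it).1 hit
  rw [List.mem_flatMap] at hw
  obtain ⟨bl, hbl, hw⟩ := hw
  rw [mem_asgD] at hbl
  obtain ⟨h1, h2⟩ := hbl
  rw [List.mem_map] at hw
  obtain ⟨i, hi, rfl⟩ := hw
  rw [List.mem_range] at hi
  simp only [List.length_map] at h1 h2
  have h3 := (L.adv_iff c bl _ h2).1 h1
  have hb := L.mkA_bits c bl h2
  let x : S.Core b :=
    { item := c
      a := L.mkA c bl
      sup := by
        intro d hd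
        simp only [mkA]
        rw [if_neg]
        rwa [L.mem_vars] at hd
      eqn := by
        have e1 : ∑ d ∈ S.vars c, L.mkA c bl d = ((L.varL c).map (L.mkA c bl)).sum := by
          rw [L.vars_eq, List.sum_toFinset _ (L.nodup _)]
        rw [e1, ← parB_sum, hb, ← h3, XS.rhs, L.tw_eq]
        cases b <;> simp }
  have e : S.weight c = wtD its adv (its.idxOf (L.itm c)) := by
    unfold XS.weight wtD
    rw [L.bnd_eq, L.code_eq]
    rfl
  refine ⟨⟨(x, i), ?_⟩, ?_⟩
  · show i ≤ S.weight c
    rw [e]
    have : i < wtD its adv (its.idxOf (L.itm c)) + 1 := hi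
    omega
  · show (S.code c, (L.varL c).map (fun d => (L.nm d, decide (L.mkA c bl d = 1))), i) =
      (its.idxOf ((L.varL c).map L.nm, L.twB c), ((L.varL c).map L.nm).zip bl, i)
    rw [L.code_eq]
    congr 2
    conv_rhs => rw [← hb]
    rw [zip_map_self]

theorem core_ext {b : Bool} {x y : S.Core b} (h1 : x.item = y.item)
    (h2 : (L.varL x.item).map (fun d => (L.nm d, decide (x.a d = 1))) =
      (L.varL y.item).map (fun d => (L.nm d, decide (y.a d = 1)))) : x = y := by
  obtain ⟨c, a, sa, ea⟩ := x
  obtain ⟨c', a', sa', ea'⟩ := y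
  simp only at h1
  subst h1
  simp only at h2
  have h3 := List.map_inj_left.1 h2
  have : a = a' := by
    funext d
    by_cases hd : d ∈ L.varL c
    · have := h3 d hd
      simp only [Prod.mk.injEq, true_and] at this
      exact zmod2_of_decide this
    · rw [← L.mem_vars] at hd
      rw [sa d hd, sa' d hd]
  subst this
  rfl

theorem phi_inj (b : Bool) : Function.Injective (L.phi b) := by
  rintro ⟨⟨x, i⟩, hi⟩ ⟨⟨y, j⟩, hj⟩ h
  simp only [phi, Prod.mk.injEq] at h
  obtain ⟨h1, h2, h3⟩ := h
  have h4 : x = y := L.core_ext (L.code_inj h1) h2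
  subst h4
  subst h3
  rfl

omit L in
theorem adjD_iff (v w : VD) : adjD v w = true ↔
    (v.2.2 = 0 ∧ w.2.2 = 0 ∧ v.1 ≠ w.1 ∧ okPair v.2.1 w.2.1 = true) ∨
      (v.1 = w.1 ∧ v.2.1 = w.2.1 ∧ ((v.2.2 = 0 ∧ w.2.2 ≠ 0) ∨ (v.2.2 ≠ 0 ∧ w.2.2 = 0))) := by
  simp only [adjD, Bool.or_eq_true, Bool.and_eq_true, decide_eq_true_eq, Bool.not_eq_true',
    decide_eq_false_iff_not, ne_eq]
  tauto

omit L in
theorem okPair_iff {A B : List (VN × Bool)} :
    okPair A B = true ↔ ∀ p ∈ A, ∀ q ∈ B, q.1 = p.1 → q.2 = p.2 := by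
  simp only [okPair, decide_eq_true_eq, List.length_eq_zero_iff, List.flatMap_eq_nil_iff,
    List.filter_eq_nil_iff, Bool.and_eq_true, decide_eq_true_eq, Bool.not_eq_true', decide_eq_false_iff_not]
  constructor
  · intro h p hp q hq e
    by_contra h2
    exact h p hp q hq ⟨e, h2⟩
  · intro h p hp q hq h2
    exact h2.2 (h p hp q hq h2.1)

theorem phi_adj {b : Bool} (v w : S.Vtx b) : adjD (L.phi b v) (L.phi b w) = true ↔ (S.graph b).Adj v w := by
  have key : okPair ((L.varL v.1.1.item).map (fun d => (L.nm d, decide (v.1.1.a d = 1))))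
      ((L.varL w.1.1.item).map (fun d => (L.nm d, decide (w.1.1.a d = 1)))) = true ↔
      ∀ d, d ∈ S.vars v.1.1.item → d ∈ S.vars w.1.1.item → v.1.1.a d = w.1.1.a d := by
    rw [okPair_iff]
    constructor
    · intro h d h1 h2
      rw [L.mem_vars] at h1 h2
      have := h _ (List.mem_map.2 ⟨d, h1, rfl⟩) _ (List.mem_map.2 ⟨d, h2, rfl⟩) rfl
      exact (zmod2_of_decide this).symm
    · intro h p hp q hq e
      obtain ⟨d, h1, rfl⟩ := List.mem_map.1 hp
      obtain ⟨d', h2, rfl⟩ := List.mem_map.1 hq
      have : d' = d := L.nm_inj e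
      subst this
      simp only
      rw [h d' ((L.mem_vars _ _).2 h1) ((L.mem_vars _ _).2 h2)]
  have key2 : S.code v.1.1.item = S.code w.1.1.item ↔ v.1.1.item = w.1.1.item :=
    ⟨fun h => L.code_inj h, fun h => by rw [h]⟩
  have key3 : (S.code v.1.1.item = S.code w.1.1.item ∧
      (L.varL v.1.1.item).map (fun d => (L.nm d, decide (v.1.1.a d = 1))) =
      (L.varL w.1.1.item).map (fun d => (L.nm d, decide (w.1.1.a d = 1)))) ↔ v.1.1 = w.1.1 := by
    constructor
    · rintro ⟨h1, h2⟩
      exact L.core_ext (L.code_inj h1) h2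
    · intro h
      rw [h]
      exact ⟨rfl, rfl⟩
  rw [adjD_iff]
  show ((v.1.2 = 0 ∧ w.1.2 = 0 ∧ S.code v.1.1.item ≠ S.code w.1.1.item ∧
      okPair ((L.varL v.1.1.item).map (fun d => (L.nm d, decide (v.1.1.a d = 1))))
        ((L.varL w.1.1.item).map (fun d => (L.nm d, decide (w.1.1.a d = 1)))) = true) ∨
      (S.code v.1.1.item = S.code w.1.1.item ∧
      (L.varL v.1.1.item).map (fun d => (L.nm d, decide (v.1.1.a d = 1))) =
      (L.varL w.1.1.item).map (fun d => (L.nm d, decide (w.1.1.a d = 1))) ∧
      ((v.1.2 = 0 ∧ w.1.2 ≠ 0) ∨ (v.1.2 ≠ 0 ∧ w.1.2 = 0)))) ↔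
    (v.1.2 = 0 ∧ w.1.2 = 0 ∧ S.coreAdj v.1.1 w.1.1) ∨
    (v.1.1 = w.1.1 ∧ ((v.1.2 = 0 ∧ w.1.2 ≠ 0) ∨ (v.1.2 ≠ 0 ∧ w.1.2 = 0)))
  rw [key, ne_eq, key2]
  unfold XS.coreAdj
  constructor
  · rintro (⟨h1, h2, h3, h4⟩ | ⟨h1, h2, h3⟩)
    · exact Or.inl ⟨h1, h2, h3, h4⟩
    · exact Or.inr ⟨key3.1 ⟨key2.2 h1, h2⟩, h3⟩
  · rintro (⟨h1, h2, h3, h4⟩ | ⟨h1, h2⟩)
    · exact Or.inl ⟨h1, h2, h3, h4⟩
    · exact Or.inr ⟨key2.1 (key3.2 h1).1, (key3.2 h1).2, h2⟩

/-- The vertices of the graph and the list of vertices. -/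
noncomputable def eqvL (b : Bool) : S.Vtx b ≃ {w // w ∈ vsD its adv b} :=
  Equiv.ofBijective (fun v => ⟨L.phi b v, L.phi_mem v⟩)
    ⟨fun v w h => L.phi_inj b (congrArg Subtype.val h), fun ⟨w, hw⟩ => by
      obtain ⟨v, hv⟩ := L.phi_surj hw
      exact ⟨v, Subtype.ext hv⟩⟩

omit L in
theorem mat_eq (vs : List VD) (A : Fin vs.length → Fin vs.length → Bool)
    (h : ∀ i j, A i j = adjD (vs.get i) (vs.get j)) :
    (List.finRange vs.length).flatMap (fun i => (List.finRange vs.length).map (A i)) =
      vs.flatMap fun v => vs.map fun w => adjD v w := by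
  have e := List.map_get_finRange vs
  conv_rhs => rw [← e]
  rw [List.flatMap_map]
  congr 1
  funext i
  rw [List.map_map]
  congr 1
  funext j
  exact h i j

include L in
/-- The graph of the system, on numbers, with the adjacency matrix given by the lists. -/
theorem exists_graph (b : Bool) (N : ℕ) (hN : (vsD its adv b).length = N) :
    ∃ (G : SimpleGraph (Fin N)) (e : Fin N ≃ S.Vtx b),
      (∀ i j, G.Adj i j ↔ (S.graph b).Adj (e i) (e j)) ∧ TM.adjBits G = matD its adv b := by
  subst hN
  let E : Fin (vsD its adv b).length ≃ S.Vtx b :=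
    (List.Nodup.getEquiv (vsD its adv b) (nodup_dedupD (vs0 its adv b))).trans (L.eqvL b).symm
  have hE : ∀ i, L.phi b (E i) = (vsD its adv b).get i := by
    intro i
    have h1 := List.Nodup.getEquiv_apply_coe (vsD its adv b) (nodup_dedupD (vs0 its adv b)) i
    rw [← h1]
    show ((L.eqvL b) ((L.eqvL b).symm _)).1 = _
    rw [Equiv.apply_symm_apply]
  refine ⟨(S.graph b).comap E, E, fun i j => Iff.rfl, ?_⟩
  unfold TM.adjBits matD
  apply mat_eq
  intro i j
  rw [← hE, ← hE, Bool.eq_iff_iff, decide_eq_true_eq, L.phi_adj]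
  rfl

end Lst

end Vale.Agent.P310x
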